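import Vale.Agent.P216.H215.SFCC

/-!
# P216: the fundamental group of a closed manifold is finitely generated
-/

set_option linter.all false

open Set Topology Bundle Manifold
open scoped ContDiff

namespace Vale.Agent.P216.R2.H189

open Vale.Agent.P216

section FG

variable {M Γ : Type*} [MetricSpace M] [Group Γ] (S : LocalCocycle M Γ)

theorem P_net (nt : M → M) (hnt : ∀ x, dist x (nt x) < S.r / 8) (x : ℕ → M) (n : ℕ)
    (hx : ∀ i < n, dist (x i) (x (i + 1)) < S.r / 2) :
    S.P x n = S.coc (x 0) (nt (x 0)) * S.P (fun i => nt (x i)) n * S.coc (nt (x n)) (x n) := by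
  have hr := S.r_pos
  induction n with
  | zero =>
    rw [S.P_zero, S.P_zero, mul_one, S.mul_symm (by linarith [hnt (x 0)])]
  | succ n ih =>
    rw [S.P_succ, S.P_succ, ih fun i hi => hx i (by omega)]
    have h0 := hx n (by omega)
    have h1 := hnt (x n)
    have h2 := hnt (x (n + 1))
    have h3 : dist (nt (x n)) (x (n + 1)) < S.r := by
      have := dist_triangle (nt (x n)) (x n) (x (n + 1))
      rw [dist_comm (nt (x n)) (x n)] at this
      linarith
    have h4 : dist (nt (x n)) (nt (x (n + 1))) < S.r := by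
      have := dist_triangle (nt (x n)) (x n) (nt (x (n + 1)))
      have h5 := dist_triangle (x n) (x (n + 1)) (nt (x (n + 1)))
      rw [dist_comm (nt (x n)) (x n)] at this
      linarith
    have e1 : S.coc (nt (x n)) (x n) * S.coc (x n) (x (n + 1)) = S.coc (nt (x n)) (x (n + 1)) :=
      S.mul' _ _ _ (by rw [dist_comm]; linarith) (by linarith) h3
    have e2 : S.coc (nt (x n)) (nt (x (n + 1))) * S.coc (nt (x (n + 1))) (x (n + 1)) =
        S.coc (nt (x n)) (x (n + 1)) := S.mul' _ _ _ h4 (by rw [dist_comm]; linarith) h3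
    simp only [mul_assoc]
    rw [e1, e2]

theorem fg_of_cocycle [CompactSpace M] (x₀ : M) (z : Γ)
    (h : ∀ g : Γ, ∃ n : ℕ, 0 < n ∧ S.HasBased x₀ z g n) : Group.FG Γ := by
  classical
  have hr := S.r_pos
  obtain ⟨A, -, hA, hcov⟩ := finite_cover_balls_of_compact (isCompact_univ (X := M))
    (show 0 < S.r / 8 by linarith)
  have hex : ∀ x : M, ∃ a ∈ A, dist x a < S.r / 8 := by
    intro x
    have := hcov (mem_univ x)
    simp only [mem_iUnion, exists_prop] at this
    exact this
  choose nt hntA hnt using hex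
  let T : Set Γ := (fun p : M × M => S.coc p.1 p.2) '' (A ×ˢ A) ∪ {S.coc x₀ (nt x₀), z}
  have hT : T.Finite := ((hA.prod hA).image _).union (Set.toFinite _)
  refine Group.fg_iff.2 ⟨T, ?_, hT⟩
  rw [eq_top_iff]
  intro g _
  obtain ⟨n, -, x, hx0, hxn, hx, hP⟩ := h g
  have hz : z ∈ Subgroup.closure T := Subgroup.subset_closure (Or.inr (Or.inr rfl))
  have hc : S.coc x₀ (nt x₀) ∈ Subgroup.closure T := Subgroup.subset_closure (Or.inr (Or.inl rfl))
  have hc' : S.coc (nt x₀) x₀ ∈ Subgroup.closure T := by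
    rw [← S.inv_eq (by linarith [hnt x₀])]
    exact Subgroup.inv_mem _ hc
  have hQ : ∀ m, S.P (fun i => nt (x i)) m ∈ Subgroup.closure T := by
    intro m
    induction m with
    | zero => exact Subgroup.one_mem _
    | succ m ih =>
      rw [S.P_succ]
      exact Subgroup.mul_mem _ ih (Subgroup.subset_closure
        (Or.inl ⟨(nt (x m), nt (x (m + 1))), ⟨hntA _, hntA _⟩, rfl⟩))
  have h1 := P_net S nt hnt x n hx
  rw [hx0, hxn, hP] at h1
  have h2 : g = z⁻¹ * (S.coc x₀ (nt x₀) * S.P (fun i => nt (x i)) n * S.coc (nt x₀) x₀) * z := by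
    rw [← h1]
    group
  rw [h2]
  exact Subgroup.mul_mem _ (Subgroup.mul_mem _ (Subgroup.inv_mem _ hz)
    (Subgroup.mul_mem _ (Subgroup.mul_mem _ hc (hQ n)) hc')) hz

end FG

section

variable (E : Type) [NormedAddCommGroup E] [NormedSpace ℝ E] [FiniteDimensional ℝ E]
    {M : Type} [MetricSpace M] [CompactSpace M] [ChartedSpace E M] [IsManifold 𝓘(ℝ, E) ∞ M]
    [RiemannianBundle (fun x : M => TangentSpace 𝓘(ℝ, E) x)]
    [IsContMDiffRiemannianBundle 𝓘(ℝ, E) ∞ E (fun x : M => TangentSpace 𝓘(ℝ, E) x)]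
    [IsRiemannianManifold 𝓘(ℝ, E) M]

include E in
/-- **The fundamental group of a closed manifold is finitely generated.** -/
theorem fg_fundamentalGroup (x₀ : M) : Group.FG (FundamentalGroup M x₀) := by
  have hM := hasSegments_of_riemannian 𝓘(ℝ, E) M
  obtain ⟨r₀, hr₀, hS⟩ := exists_smallPathsHomotopic E M
  obtain ⟨S, z, hgen⟩ := exists_cocycle_based hM hr₀ hS x₀
  exact fg_of_cocycle S x₀ z hgen

end

end Vale.Agent.P216.R2.H189
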