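import Vale.Agent.P216.R2.H189.Solv
import Vale.Agent.P216.R2.H189.FG
import Vale.Agent.P216.H215.ProP
import Vale.Agent.P216.H215.Resid

/-!
# P216: closed geodesics and the finite residual of the quotients of the fundamental group
-/

set_option linter.all false

open Set Topology Bundle Manifold
open scoped ContDiff

namespace Vale.Agent.P216.R2.H189

open Vale.Agent.P216

/-- The covering property passes to quotients. -/
theorem sfcc_map {G Q : Type*} [Group G] [Group Q] (h : T1.SFCC G) (f : G →* Q)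
    (hf : Function.Surjective f) : T1.SFCC Q := by
  obtain ⟨r, a, lam, hsub, hcov⟩ := h
  have hnn : ∀ g, 0 ≤ lam g := fun g => by
    obtain ⟨i, k, -, hk⟩ := hcov g
    exact (abs_nonneg _).trans hk
  let F : Q → Type _ := fun q => {g : G // f g = q}
  have hne : ∀ q, Nonempty {g : G // f g = q} := fun q => by
    obtain ⟨g, hg⟩ := hf q
    exact ⟨⟨g, hg⟩⟩
  have hbdd : ∀ q, BddBelow (Set.range fun g : {g : G // f g = q} => lam g.1) := fun q =>
    ⟨0, by rintro _ ⟨g, rfl⟩; exact hnn _⟩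
  refine ⟨r, fun i => f (a i), fun q => ⨅ g : {g : G // f g = q}, lam g.1, ?_, ?_⟩
  · intro p q
    have hp := hne p
    have hq := hne q
    refine le_of_forall_pos_le_add fun ε hε => ?_
    obtain ⟨g, hg⟩ := exists_lt_of_ciInf_lt
      (show (⨅ g : {g : G // f g = p}, lam g.1) < (⨅ g : {g : G // f g = p}, lam g.1) + ε / 2 by
        linarith)
    obtain ⟨h, hh⟩ := exists_lt_of_ciInf_lt
      (show (⨅ g : {g : G // f g = q}, lam g.1) < (⨅ g : {g : G // f g = q}, lam g.1) + ε / 2 by
        linarith)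
    have h1 : (⨅ g : {g : G // f g = p * q}, lam g.1) ≤ lam (g.1 * h.1) :=
      ciInf_le (hbdd (p * q)) (⟨g.1 * h.1, by rw [map_mul, g.2, h.2]⟩ : {g : G // f g = p * q})
    have h2 := hsub g.1 h.1
    change (⨅ g : {g : G // f g = p * q}, lam g.1) ≤ _
    linarith
  · intro q
    have hq := hne q
    set m : ℝ := ⨅ g : {g : G // f g = q}, lam g.1 with hm
    obtain ⟨g, hg⟩ := exists_lt_of_ciInf_lt
      (show (⨅ g : {g : G // f g = q}, lam g.1) < (⌊m⌋ : ℝ) + 1 from Int.lt_floor_add_one m)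
    obtain ⟨i, k, hc, hk⟩ := hcov g.1
    refine ⟨i, k, ?_, ?_⟩
    · have := f.map_isConj hc
      rwa [g.2, map_zpow] at this
    · have h1 : (|k| : ℝ) < (⌊m⌋ : ℝ) + 1 := lt_of_le_of_lt hk hg
      have h2 : |k| < ⌊m⌋ + 1 := by exact_mod_cast h1
      have h3 : |k| ≤ ⌊m⌋ := by omega
      have h4 : ((|k| : ℤ) : ℝ) ≤ (⌊m⌋ : ℝ) := by exact_mod_cast h3
      have h5 : ((|k| : ℤ) : ℝ) = |(k : ℝ)| := by push_cast; rfl
      rw [← h5]
      exact h4.trans (Int.floor_le m)

/-- The hypothesis on a group: (A) infinite, not `ℤ`, not `D_∞`, with a subgroup of finite index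
without nontrivial perfect subgroups; or (B) the finite residual is not perfect, and almost simple
finite sections are solvable modulo the socle or there are finite solvable quotients of unbounded
order. -/
def NoPerfectResidual (Q : Type*) [Group Q] : Prop :=
  (Infinite Q ∧ IsEmpty (Q ≃* Multiplicative ℤ) ∧ IsEmpty (Q ≃* DihedralGroup 0) ∧
    ∃ H : Subgroup Q, H.FiniteIndex ∧ ∀ K : Subgroup Q, K ≤ H → ⁅K, K⁆ = K → K = ⊥) ∨
  (⁅finiteResidual Q, finiteResidual Q⁆ ≠ finiteResidual Q ∧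
    (AlmostSimpleSolvable Q ∨
      ∃ H : Subgroup Q, H.FiniteIndex ∧ ∀ n : ℕ,
        ∃ (N : Subgroup H) (_ : N.Normal), N.FiniteIndex ∧ n ≤ N.index ∧
          Group.IsSolvable (H ⧸ N)))

theorem false_of_sfcc {Q : Type*} [Group Q] [Group.FG Q] (hQ : T1.SFCC Q)
    (h : NoPerfectResidual Q) : False := by
  rcases h with ⟨hinf, hZ, hD, H, hH, hper⟩ | ⟨hne, hb⟩
  · have hbot : ⁅finiteResidual Q, finiteResidual Q⁆ = finiteResidual Q →
        finiteResidual Q = ⊥ :=
      hper _ fun x hx => mem_finiteResidual.1 hx H hH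
    have e : finiteResidual Q = ⊥ → Nonempty ((Q ⧸ finiteResidual Q) ≃* Q) := fun hR =>
      ⟨(QuotientGroup.quotientMulEquivOfEq hR).trans QuotientGroup.quotientBot⟩
    rcases RFS.residual_quotient hQ
      (fun hR => by
        have h1 := hbot (perfect_of_finiteIndex hR)
        have h2 := hR.index_ne_zero
        rw [h1, Subgroup.index_bot] at h2
        exact h2 Nat.card_eq_zero_of_infinite)
      (Or.inr (solvable_quotients hH hper)) with ⟨⟨f⟩⟩ | ⟨⟨f⟩⟩
    · obtain ⟨ε⟩ := e (hbot (perfect_of_int f))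
      exact hZ.false (ε.symm.trans f)
    · obtain ⟨ε⟩ := e (hbot (perfect_of_dihedral f))
      exact hD.false (ε.symm.trans f)
  · rcases RFS.residual_quotient hQ (fun hR => hne (perfect_of_finiteIndex hR))
      (hb.imp_left fun h U hU N hN hN0 S hS hs hnc hz => h U ⟨hU⟩ N hN ⟨hN0⟩ S hS hs hnc hz)
      with ⟨⟨f⟩⟩ | ⟨⟨f⟩⟩
    · exact hne (perfect_of_int f)
    · exact hne (perfect_of_dihedral f)

section

variable (E : Type) [NormedAddCommGroup E] [NormedSpace ℝ E] [FiniteDimensional ℝ E]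
    {M : Type} [MetricSpace M] [CompactSpace M] [ChartedSpace E M] [IsManifold 𝓘(ℝ, E) ∞ M]
    [RiemannianBundle (fun x : M => TangentSpace 𝓘(ℝ, E) x)]
    [IsContMDiffRiemannianBundle 𝓘(ℝ, E) ∞ E (fun x : M => TangentSpace 𝓘(ℝ, E) x)]
    [IsRiemannianManifold 𝓘(ℝ, E) M]

include E in
theorem main (x₀ : M) {Q : Type*} [Group Q] (f : FundamentalGroup M x₀ →* Q)
    (hf : Function.Surjective f) (h : NoPerfectResidual Q) :
    (primeClosedGeodesicImages M).Infinite := by
  intro hfin
  have h0 : Group.FG (FundamentalGroup M x₀) := fg_fundamentalGroup E x₀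
  have h1 : Group.FG Q := Group.fg_of_surjective hf
  exact false_of_sfcc (sfcc_map (sfcc_fundamentalGroup E M x₀ hfin) f hf) h

end

end Vale.Agent.P216.R2.H189
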