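import Vale.Agent.P216.R2.H189.Split
import Vale.Agent.P216.R2.H189.Main

/-!
# P216: the finite residual has no proper subgroup of finite index
-/

set_option linter.all false

namespace Vale.Agent.P216.R2.H189.V2

open Vale.Agent.P216

/-- Torsion elements of a group covered by conjugates of finitely many cyclic groups are in
finitely many classes. -/
theorem torsion_classes {G : Type*} [Group G] (h : FinitelyCyclicallyCovered G) :
    ∃ D : Set G, D.Finite ∧ ∀ g : G, IsOfFinOrder g → ∃ c ∈ D, IsConj c g := by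
  classical
  obtain ⟨F, hF, hcov⟩ := h
  refine ⟨⋃ a ∈ F, {x | IsOfFinOrder a ∧ x ∈ Subgroup.zpowers a} ∪ {1}, ?_, ?_⟩
  · refine hF.biUnion fun a _ => Set.Finite.union ?_ (Set.finite_singleton 1)
    by_cases ha : IsOfFinOrder a
    · refine Set.Finite.subset (s := (Subgroup.zpowers a : Set G)) ?_ fun x hx => hx.2
      exact (finite_zpowers.2 ha)
    · refine Set.Finite.subset Set.finite_empty fun x hx => ha hx.1
  · intro g hg
    obtain ⟨a, ha, k, hk⟩ := hcov g
    by_cases hfo : IsOfFinOrder a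
    · exact ⟨a ^ k, Set.mem_biUnion ha (Or.inl ⟨hfo, k, rfl⟩), hk.symm⟩
    · have hk0 : k = 0 := by
        by_contra hk0
        apply hfo
        have h1 : IsOfFinOrder (a ^ k) := by
          obtain ⟨c, hc⟩ := isConj_iff.1 hk
          rw [← hc]
          obtain ⟨n, hn, hgn⟩ := isOfFinOrder_iff_pow_eq_one.1 hg
          refine isOfFinOrder_iff_pow_eq_one.2 ⟨n, hn, ?_⟩
          rw [conj_pow, hgn]; simp
        obtain ⟨n, hn, hgn⟩ := isOfFinOrder_iff_pow_eq_one.1 h1
        rw [isOfFinOrder_iff_zpow_eq_one]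
        refine ⟨k * n, mul_ne_zero hk0 (by exact_mod_cast hn.ne'), ?_⟩
        rw [zpow_mul, zpow_natCast]; exact hgn
      subst hk0
      rw [zpow_zero] at hk
      exact ⟨1, Set.mem_biUnion ha (Or.inr rfl), hk.symm⟩

/-- In `G = R⟨t⟩`, where every subgroup of finite index of `G` contains the perfect group `R`,
the group `R` has no proper subgroup of finite index, if `G` is covered by cyclic groups. -/
theorem no_finite_index {G : Type*} [Group G] (hG : T1.SFCC G) (R : Subgroup G) [hRn : R.Normal]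
    (t : G) (hgen : ∀ g : G, ∃ n : ℤ, g * t ^ n ∈ R)
    (hres : ∀ N : Subgroup G, N.FiniteIndex → R ≤ N) (hperf : commutator R = ⊤)
    (K : Subgroup R) (hK : K.FiniteIndex) : K = ⊤ := by
  classical
  by_contra hKt
  obtain ⟨N, hN, hfin, hsim, hT, hmin⟩ := rowM hperf K hK hKt
  let φ : R →* R ⧸ N := QuotientGroup.mk' N
  have hφ : Function.Surjective φ := QuotientGroup.mk'_surjective N
  let f : ℤ → R →* R ⧸ N := fun i => φ.comp (MulAut.conjNormal (t ^ i) : MulAut R).toMonoidHom
  have hf : ∀ i r, f i r = φ (MulAut.conjNormal (t ^ i) r) := fun i r => rfl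
  let σ : R ≃* R := (MulAut.conjNormal t : MulAut R)
  have hσ : ∀ i r, f i (σ r) = f (i + 1) r := by
    intro i r
    rw [hf, hf, zpow_add_one, map_mul]
    rfl
  have hker : ∀ i j, (∀ r, f i r = 1 ↔ f j r = 1) → i = j := fun i j h =>
    rowG R t hgen hres hT φ hφ i j h
  -- conjugation shifts the supports
  have key : ∀ g : G, ∃ n : ℤ, ∀ (i : ℤ) (r : R),
      f i (MulAut.conjNormal g r) = 1 ↔ f (i + n) r = 1 := by
    intro g
    obtain ⟨n, hn⟩ := hgen g
    refine ⟨-n, fun i r => ?_⟩
    have e1 : MulAut.conjNormal (t ^ i) (MulAut.conjNormal g r) =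
        MulAut.conjNormal (t ^ i) (⟨g * t ^ n, hn⟩ : R) *
          MulAut.conjNormal (t ^ (i + -n)) r * (MulAut.conjNormal (t ^ i) (⟨g * t ^ n, hn⟩ : R))⁻¹ := by
      apply Subtype.ext
      simp only [Subgroup.coe_mul, Subgroup.coe_inv, MulAut.conjNormal_apply]
      rw [zpow_add]
      group
    rw [hf, hf, e1, map_mul, map_mul, map_inv]
    constructor
    · intro h
      have := congrArg (fun x => (φ (MulAut.conjNormal (t ^ i) (⟨g * t ^ n, hn⟩ : R)))⁻¹ * x *
        φ (MulAut.conjNormal (t ^ i) (⟨g * t ^ n, hn⟩ : R))) h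
      simpa [mul_assoc] using this
    · intro h
      rw [h]; simp
  let L : Subgroup G := (⨅ i, (f i).ker).map R.subtype
  have hLmem : ∀ r : R, (r : G) ∈ L ↔ ∀ i, f i r = 1 := by
    intro r
    constructor
    · rintro ⟨s, hs, hsr⟩
      have : s = r := Subtype.ext hsr
      subst this
      intro i
      exact (Subgroup.mem_iInf.1 hs i)
    · intro h
      exact ⟨r, Subgroup.mem_iInf.2 fun i => h i, rfl⟩
  have hLR : L ≤ R := by
    rintro _ ⟨s, _, rfl⟩
    exact s.2
  haveI hL : L.Normal := by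
    constructor
    rintro _ ⟨s, hs, rfl⟩ g
    obtain ⟨n, hn⟩ := key g
    have : g * R.subtype s * g⁻¹ = ((MulAut.conjNormal g s : R) : G) := by
      rw [MulAut.conjNormal_apply]; rfl
    rw [this, hLmem]
    intro i
    exact (hn i s).2 (Subgroup.mem_iInf.1 hs (i + n))
  have hFQ : FinitelyCyclicallyCovered (G ⧸ L) :=
    (sfcc_map hG (QuotientGroup.mk' L) (QuotientGroup.mk'_surjective L)).fcc
  obtain ⟨D, hD, hDc⟩ := torsion_classes hFQ
  have htor : ∀ r : R, IsOfFinOrder (QuotientGroup.mk' L (r : G)) := by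
    intro r
    refine isOfFinOrder_iff_pow_eq_one.2 ⟨Nat.card (R ⧸ N), Nat.card_pos, ?_⟩
    rw [← map_pow]
    refine (QuotientGroup.eq_one_iff _).2 ?_
    have : (r : G) ^ Nat.card (R ⧸ N) = ((r ^ Nat.card (R ⧸ N) : R) : G) := by
      rw [Subgroup.coe_pow]
    rw [this, hLmem]
    intro i
    rw [map_pow, pow_card_eq_one']
  let P : G ⧸ L → Prop := fun c => ∃ r : R, IsConj c (QuotientGroup.mk' L (r : G))
  let rep : G ⧸ L → R := fun c => if h : P c then h.choose else 1
  refine core hT hmin σ f hσ hker ((fun c => {i | f i (rep c) ≠ 1}) '' D) (hD.image _) ?_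
    (Classical.choose (show ∃ a : R, f 0 a ≠ 1 from ?_))
    (Classical.choose_spec (show ∃ a : R, f 0 a ≠ 1 from ?_))
  · intro r
    obtain ⟨c, hc, hcr⟩ := hDc _ (htor r)
    have hP : P c := ⟨r, hcr⟩
    have hrep : IsConj c (QuotientGroup.mk' L ((rep c : R) : G)) := by
      have : rep c = hP.choose := dif_pos hP
      rw [this]
      exact hP.choose_spec
    obtain ⟨g', hg'⟩ := isConj_iff.1 (hrep.symm.trans hcr)
    obtain ⟨g, rfl⟩ := QuotientGroup.mk'_surjective L g'
    obtain ⟨n, hn⟩ := key g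
    refine ⟨_, ⟨c, hc, rfl⟩, n, fun i => ?_⟩
    have e1 : QuotientGroup.mk' L (((MulAut.conjNormal g (rep c) : R) : G)) =
        QuotientGroup.mk' L (r : G) := by
      rw [MulAut.conjNormal_apply, ← hg']
      simp
    have e2 : (((MulAut.conjNormal g (rep c))⁻¹ * r : R) : G) ∈ L := by
      rw [Subgroup.coe_mul, Subgroup.coe_inv]
      exact QuotientGroup.eq.1 e1
    have e3 := (hLmem _).1 e2 i
    rw [map_mul, map_inv] at e3
    have e4 : f i r = f i (MulAut.conjNormal g (rep c)) := by
      rw [inv_mul_eq_one] at e3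
      exact e3.symm
    rw [e4]
    exact not_congr (hn i (rep c))
  all_goals
    obtain ⟨x, y, hxy⟩ := hT
    obtain ⟨a, ha⟩ := hφ x
    refine ⟨a, fun h => hxy ?_⟩
    have : φ a = 1 := by
      have h2 := h
      rw [hf] at h2
      simpa using h2
    rw [← ha, this]; simp

end Vale.Agent.P216.R2.H189.V2
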