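import Mathlib
import Vale.Agent.P216.H126G.Linear

/-!
# P216: groups with an infinite cyclic quotient (P. Hall)

A nonzero finite module over a finitely generated commutative ring has a nonzero finite quotient.
Hence, if all finite-index subgroups of a finitely generated group `G` contain the kernel of a
homomorphism of `G` onto `ℤ`, this kernel is perfect.
-/

set_option linter.all false

namespace Vale.Agent.P216.R2.H189

open Vale.Agent.P216.H126G

theorem finite_quot' {R : Type*} [CommRing R] [alg : Algebra ℤ R] (h : Algebra.FiniteType ℤ R)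
    (m : Ideal R) [m.IsMaximal] : Finite (R ⧸ m) := by
  have e : alg = Ring.toIntAlgebra R := Subsingleton.elim _ _
  subst e
  exact finite_quot m

/-- A nonzero finite module over a finitely generated commutative ring has a nonzero finite
quotient. -/
theorem exists_finite_quotient {S : Type*} [CommRing S] [Algebra ℤ S] (hS : Algebra.FiniteType ℤ S)
    {V : Type*} [AddCommGroup V] [Module S V] [Module.Finite S V] [Nontrivial V] :
    ∃ W : Submodule S V, W ≠ ⊤ ∧ Finite (V ⧸ W) := by
  have hco : IsCoatomic (Submodule S V) :=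
    CompleteLattice.coatomic_of_top_compact
      ((Submodule.fg_iff_compact _).1 Module.Finite.fg_top)
  obtain h | ⟨W, hW, -⟩ := hco.eq_top_or_exists_le_coatom (⊥ : Submodule S V)
  · exact absurd h bot_ne_top
  have hs : IsSimpleModule S (V ⧸ W) := isSimpleModule_iff_isCoatom.2 hW
  obtain ⟨I, hI, ⟨e⟩⟩ := isSimpleModule_iff_quot_maximal.1 hs
  have := finite_quot' hS I
  exact ⟨W, hW.1, Finite.of_equiv _ e.symm.toEquiv⟩

section Cyc

variable {G : Type*} [Group G]

/-- conjugation by `g` on the abelianisation of a normal subgroup -/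
noncomputable def act (K : Subgroup G) [K.Normal] (g : G) :
    Additive (Abelianization K) ≃+ Additive (Abelianization K) :=
  MulEquiv.toAdditive (MulEquiv.abelianizationCongr (MulAut.conjNormal g))

theorem act_of (K : Subgroup G) [K.Normal] (g : G) (k : K) :
    act K g (Additive.ofMul (Abelianization.of k)) =
      Additive.ofMul (Abelianization.of (MulAut.conjNormal g k)) := rfl

theorem act_mul (K : Subgroup G) [K.Normal] (g h : G) (v : Additive (Abelianization K)) :
    act K (g * h) v = act K g (act K h v) := by
  obtain ⟨k, rfl⟩ : ∃ k : K, Additive.ofMul (Abelianization.of k) = v :=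
    QuotientGroup.mk_surjective v
  rw [act_of, act_of, act_of, map_mul, MulAut.mul_apply]

theorem act_one (K : Subgroup G) [K.Normal] (v : Additive (Abelianization K)) :
    act K 1 v = v := by
  obtain ⟨k, rfl⟩ : ∃ k : K, Additive.ofMul (Abelianization.of k) = v :=
    QuotientGroup.mk_surjective v
  rw [act_of, map_one, MulAut.one_apply]

/-- **P. Hall.** -/
theorem perfect_ker [Group.FG G] (φ : G →* Multiplicative ℤ) (hφ : Function.Surjective φ)
    (hres : ∀ N : Subgroup G, N.FiniteIndex → φ.ker ≤ N) : ⁅φ.ker, φ.ker⁆ = φ.ker := by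
  classical
  by_contra hne
  obtain ⟨t, ht⟩ := hφ (Multiplicative.ofAdd 1)
  have e1 : ∀ g : G, φ (g * t ^ (-(Multiplicative.toAdd (φ g)))) = 1 := by
    intro g
    rw [map_mul, map_zpow, ht]
    apply Multiplicative.toAdd.injective
    simp
  let e : G → ℤ := fun g => Multiplicative.toAdd (φ g)
  have emul : ∀ g h, e (g * h) = e g + e h := fun g h => by simp [e]
  have hkap : ∀ g, g * t ^ (- e g) ∈ φ.ker := fun g => e1 g
  let δ : G → Additive (Abelianization φ.ker) := fun g =>
    Additive.ofMul (Abelianization.of ⟨g * t ^ (-e g), hkap g⟩)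
  have hδmul : ∀ g h, δ (g * h) = δ g + act φ.ker (t ^ e g) (δ h) := by
    intro g h
    simp only [δ]
    rw [act_of, ← ofMul_mul, ← map_mul]
    congr 2
    apply Subtype.ext
    simp only [Subgroup.coe_mul, MulAut.conjNormal_apply, emul]
    group
  have hδone : δ 1 = 0 := by
    have h := hδmul 1 1
    have h0 : e 1 = 0 := by simp [e]
    rw [mul_one, h0, zpow_zero, act_one] at h
    simpa using h
  have hδinv : ∀ g, δ g⁻¹ = - act φ.ker (t ^ (- e g)) (δ g) := by
    intro g
    have h := hδmul g⁻¹ g
    have h0 : e g⁻¹ = - e g := by simp [e]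
    rw [inv_mul_cancel, hδone, h0] at h
    exact (neg_eq_of_add_eq_zero_left h.symm).symm
  have hδker : ∀ k : φ.ker, δ k = Additive.ofMul (Abelianization.of k) := by
    intro k
    have h0 : e k = 0 := by
      have := k.2
      rw [MonoidHom.mem_ker] at this
      simp [e, this]
    simp only [δ]
    congr 2
    apply Subtype.ext
    simp [h0]
  have hsurj : ∀ v : Additive (Abelianization φ.ker), ∃ k : φ.ker, δ k = v := by
    intro v
    obtain ⟨k, hk⟩ : ∃ k : φ.ker, Additive.ofMul (Abelianization.of k) = v :=
      QuotientGroup.mk_surjective v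
    exact ⟨k, (hδker k).trans hk⟩
  have hV : Nontrivial (Additive (Abelianization φ.ker)) := by
    by_contra h
    rw [not_nontrivial_iff_subsingleton] at h
    have h1 : commutator φ.ker = ⊤ := by
      rw [eq_top_iff]
      intro x _
      have h2 : Additive.ofMul (Abelianization.of x) = Additive.ofMul 1 := Subsingleton.elim _ _
      exact (QuotientGroup.eq_one_iff x).1 (Additive.ofMul.injective h2)
    apply hne
    rw [← Subgroup.map_subtype_commutator, h1, ← MonoidHom.range_eq_map, Subgroup.range_subtype]
  -- the ring
  let a : Module.End ℤ (Additive (Abelianization φ.ker)) :=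
    (act φ.ker t).toAddMonoidHom.toIntLinearMap
  let b : Module.End ℤ (Additive (Abelianization φ.ker)) :=
    (act φ.ker t⁻¹).toAddMonoidHom.toIntLinearMap
  have hab : a * b = 1 := by
    ext v
    change act φ.ker t (act φ.ker t⁻¹ v) = v
    rw [← act_mul, mul_inv_cancel, act_one]
  have hba : b * a = 1 := by
    ext v
    change act φ.ker t⁻¹ (act φ.ker t v) = v
    rw [← act_mul, inv_mul_cancel, act_one]
  have hc : ∀ x ∈ ({a, b} : Set (Module.End ℤ (Additive (Abelianization φ.ker)))),
      ∀ y ∈ ({a, b} : Set (Module.End ℤ (Additive (Abelianization φ.ker)))), x * y = y * x := by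
    rintro x (rfl | rfl) y (rfl | rfl)
    · rfl
    · rw [hab, hba]
    · rw [hab, hba]
    · rfl
  letI : CommRing (Algebra.adjoin ℤ
      ({a, b} : Set (Module.End ℤ (Additive (Abelianization φ.ker))))) :=
    Algebra.adjoinCommRingOfComm ℤ hc
  have hft : Algebra.FiniteType ℤ (Algebra.adjoin ℤ
      ({a, b} : Set (Module.End ℤ (Additive (Abelianization φ.ker))))) := by
    rw [← Subalgebra.fg_iff_finiteType]
    exact Subalgebra.fg_def.2 ⟨{a, b}, Set.toFinite _, rfl⟩
  let a' : Algebra.adjoin ℤ ({a, b} : Set (Module.End ℤ (Additive (Abelianization φ.ker)))) :=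
    ⟨a, Algebra.subset_adjoin (by simp)⟩
  let b' : Algebra.adjoin ℤ ({a, b} : Set (Module.End ℤ (Additive (Abelianization φ.ker)))) :=
    ⟨b, Algebra.subset_adjoin (by simp)⟩
  have hst : ∀ (W : Submodule (Algebra.adjoin ℤ
      ({a, b} : Set (Module.End ℤ (Additive (Abelianization φ.ker)))))
      (Additive (Abelianization φ.ker))) (j : ℤ) (v : Additive (Abelianization φ.ker)), v ∈ W →
      act φ.ker (t ^ j) v ∈ W := by
    intro W j
    induction j using Int.induction_on with
    | zero => intro v hv; rwa [zpow_zero, act_one]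
    | succ n ih =>
      intro v hv
      rw [add_comm, zpow_add, act_mul, zpow_one]
      exact W.smul_mem a' (ih v hv)
    | pred n ih =>
      intro v hv
      rw [sub_eq_add_neg, add_comm, zpow_add, act_mul, zpow_neg, zpow_one]
      exact W.smul_mem b' (ih v hv)
  have hfin : Module.Finite (Algebra.adjoin ℤ
      ({a, b} : Set (Module.End ℤ (Additive (Abelianization φ.ker)))))
      (Additive (Abelianization φ.ker)) := by
    obtain ⟨s, hs, hsf⟩ := Group.fg_iff.1 ‹Group.FG G›
    rw [Module.finite_def, Submodule.fg_def]
    refine ⟨δ '' s, hsf.image _, ?_⟩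
    rw [eq_top_iff]
    have key : ∀ g : G, δ g ∈ Submodule.span (Algebra.adjoin ℤ
      ({a, b} : Set (Module.End ℤ (Additive (Abelianization φ.ker))))) (δ '' s) := by
      intro g
      have hg : g ∈ Subgroup.closure s := by rw [hs]; trivial
      induction hg using Subgroup.closure_induction with
      | mem x hx => exact Submodule.subset_span ⟨x, hx, rfl⟩
      | one => rw [hδone]; exact Submodule.zero_mem _
      | mul x y _ _ hx hy =>
        rw [hδmul]
        exact Submodule.add_mem _ hx (hst _ _ _ hy)
      | inv x _ hx =>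
        rw [hδinv]
        exact Submodule.neg_mem _ (hst _ _ _ hx)
    intro v _
    obtain ⟨k, rfl⟩ := hsurj v
    exact key k
  obtain ⟨W, hW, hWf⟩ := exists_finite_quotient hft (V := Additive (Abelianization φ.ker))
  let L : Subgroup G :=
    { carrier := {g | δ g ∈ W}
      one_mem' := by
        change δ 1 ∈ W
        rw [hδone]; exact W.zero_mem
      mul_mem' := by
        intro x y hx hy
        change δ (x * y) ∈ W
        rw [hδmul]
        exact W.add_mem hx (hst _ _ _ hy)
      inv_mem' := by
        intro x hx
        change δ x⁻¹ ∈ W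
        rw [hδinv]
        exact W.neg_mem (hst _ _ _ hx) }
  have hL : L.FiniteIndex := by
    have : Finite (G ⧸ L) := by
      refine Finite.of_injective (fun q : G ⧸ L => (Submodule.Quotient.mk (δ q.out) :
        Additive (Abelianization φ.ker) ⧸ W)) ?_
      intro q r hqr
      have h1 : δ q.out - δ r.out ∈ W := (Submodule.Quotient.eq W).1 hqr
      have h2 : q.out⁻¹ * r.out ∈ L := by
        change δ (q.out⁻¹ * r.out) ∈ W
        have h0 : e (q.out)⁻¹ = - e q.out := by simp [e]
        rw [hδmul, hδinv, h0]
        have h3 := W.neg_mem (hst W (- e q.out) _ h1)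
        rw [map_sub] at h3
        convert h3 using 1
        abel
      rw [← QuotientGroup.out_eq' q, ← QuotientGroup.out_eq' r]
      exact QuotientGroup.eq.2 h2
    exact Subgroup.finiteIndex_of_finite_quotient
  have hKL := hres L hL
  apply hW
  rw [eq_top_iff]
  intro v _
  obtain ⟨k, rfl⟩ := hsurj v
  exact hKL k.2

end Cyc

end Vale.Agent.P216.R2.H189
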