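import Vale.Agent.P216.R2.H189.Hall
import Vale.Agent.P216.H215.Large

/-!
# P216: the finite residual of a finitely generated group which is not large is perfect
-/

set_option linter.all false

namespace Vale.Agent.P216.R2.H189

open Vale.Agent.P216

section Perf

variable {G : Type*} [Group G]

/-- A finitely generated group without proper subgroups of finite index is perfect. -/
theorem commutator_eq_top [Group.FG G] (h : ∀ N : Subgroup G, N.FiniteIndex → N = ⊤) :
    commutator G = ⊤ := by
  classical
  by_contra hne
  let δ : G → Additive (Abelianization G) := fun g => Additive.ofMul (Abelianization.of g)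
  have hδmul : ∀ g h, δ (g * h) = δ g + δ h := fun g h => by
    simp only [δ]; rw [map_mul, ofMul_mul]
  have hδone : δ 1 = 0 := by simp only [δ]; rw [map_one, ofMul_one]
  have hδinv : ∀ g, δ g⁻¹ = - δ g := fun g => by simp only [δ]; rw [map_inv, ofMul_inv]
  have hsurj : ∀ v : Additive (Abelianization G), ∃ k : G, δ k = v :=
    fun v => QuotientGroup.mk_surjective v
  have hV : Nontrivial (Additive (Abelianization G)) := by
    by_contra h
    rw [not_nontrivial_iff_subsingleton] at h
    apply hne
    rw [eq_top_iff]
    intro x _
    have h2 : Additive.ofMul (Abelianization.of x) = Additive.ofMul 1 := Subsingleton.elim _ _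
    exact (QuotientGroup.eq_one_iff x).1 (Additive.ofMul.injective h2)
  have hfin : Module.Finite ℤ (Additive (Abelianization G)) := by
    obtain ⟨s, hs, hsf⟩ := Group.fg_iff.1 ‹Group.FG G›
    rw [Module.finite_def, Submodule.fg_def]
    refine ⟨δ '' s, hsf.image _, ?_⟩
    rw [eq_top_iff]
    have key : ∀ g : G, δ g ∈ Submodule.span ℤ (δ '' s) := by
      intro g
      have hg : g ∈ Subgroup.closure s := by rw [hs]; trivial
      induction hg using Subgroup.closure_induction with
      | mem x hx => exact Submodule.subset_span ⟨x, hx, rfl⟩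
      | one => rw [hδone]; exact Submodule.zero_mem _
      | mul x y _ _ hx hy =>
        rw [hδmul]
        exact Submodule.add_mem _ hx hy
      | inv x _ hx =>
        rw [hδinv]
        exact Submodule.neg_mem _ hx
    intro v _
    obtain ⟨k, rfl⟩ := hsurj v
    exact key k
  obtain ⟨W, hW, hWf⟩ := exists_finite_quotient (S := ℤ) inferInstance
    (V := Additive (Abelianization G))
  let L : Subgroup G :=
    { carrier := {g | δ g ∈ W}
      one_mem' := by
        change δ 1 ∈ W
        rw [hδone]; exact W.zero_mem
      mul_mem' := by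
        intro x y hx hy
        change δ (x * y) ∈ W
        rw [hδmul]
        exact W.add_mem hx hy
      inv_mem' := by
        intro x hx
        change δ x⁻¹ ∈ W
        rw [hδinv]
        exact W.neg_mem hx }
  have hL : L.FiniteIndex := by
    have : Finite (G ⧸ L) := by
      refine Finite.of_injective (fun q : G ⧸ L => (Submodule.Quotient.mk (δ q.out) :
        Additive (Abelianization G) ⧸ W)) ?_
      intro q r hqr
      have h1 : δ q.out - δ r.out ∈ W := (Submodule.Quotient.eq W).1 hqr
      have h2 : q.out⁻¹ * r.out ∈ L := by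
        change δ (q.out⁻¹ * r.out) ∈ W
        rw [hδmul, hδinv]
        have h3 := W.neg_mem h1
        convert h3 using 1
        abel
      rw [← QuotientGroup.out_eq' q, ← QuotientGroup.out_eq' r]
      exact QuotientGroup.eq.2 h2
    exact Subgroup.finiteIndex_of_finite_quotient
  have hKL := h L hL
  apply hW
  rw [eq_top_iff]
  intro v _
  obtain ⟨k, rfl⟩ := hsurj v
  have : k ∈ L := by rw [hKL]; trivial
  exact this

theorem map_finiteIndex {U : Subgroup G} (hU : U.FiniteIndex) {N : Subgroup U}
    (hN : N.FiniteIndex) : (N.map U.subtype).FiniteIndex := by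
  constructor
  rw [Subgroup.index_map_subtype]
  exact mul_ne_zero hN.index_ne_zero hU.index_ne_zero

/-- The finite residual, if it is of finite index, is perfect. -/
theorem perfect_of_finiteIndex [Group.FG G] (hR : (finiteResidual G).FiniteIndex) :
    ⁅finiteResidual G, finiteResidual G⁆ = finiteResidual G := by
  have hfg : Group.FG (finiteResidual G) :=
    Subgroup.fg_of_index_ne_zero (finiteResidual G)
  have h1 : commutator (finiteResidual G) = ⊤ := by
    refine commutator_eq_top fun N hN => ?_
    rw [eq_top_iff]
    intro x _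
    have h2 := mem_finiteResidual.1 x.2 _ (map_finiteIndex hR hN)
    obtain ⟨y, hy, hyx⟩ := h2
    have : y = x := Subtype.ext hyx
    rwa [← this]
  rw [← Subgroup.map_subtype_commutator, h1, ← MonoidHom.range_eq_map, Subgroup.range_subtype]

/-- The finite residual, if it is the kernel of a homomorphism of a subgroup of finite index onto
`ℤ`, is perfect. -/
theorem perfect_of_hom [Group.FG G] {U : Subgroup G} (hU : U.FiniteIndex)
    (φ : U →* Multiplicative ℤ) (hφ : Function.Surjective φ)
    (hk : φ.ker = (finiteResidual G).subgroupOf U) :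
    ⁅finiteResidual G, finiteResidual G⁆ = finiteResidual G := by
  have hRU : finiteResidual G ≤ U := fun x hx => mem_finiteResidual.1 hx U hU
  have hfg : Group.FG U := Subgroup.fg_of_index_ne_zero U
  have h1 : ⁅φ.ker, φ.ker⁆ = φ.ker := by
    refine perfect_ker φ hφ fun N hN x hx => ?_
    rw [hk, Subgroup.mem_subgroupOf] at hx
    obtain ⟨y, hy, hyx⟩ := mem_finiteResidual.1 hx _ (map_finiteIndex hU hN)
    have : y = x := Subtype.ext hyx
    rwa [← this]
  have h2 : φ.ker.map U.subtype = finiteResidual G := by
    rw [hk, Subgroup.subgroupOf_map_subtype, inf_eq_left.2 hRU]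
  calc ⁅finiteResidual G, finiteResidual G⁆ = ⁅φ.ker.map U.subtype, φ.ker.map U.subtype⁆ := by
        rw [h2]
    _ = ⁅φ.ker, φ.ker⁆.map U.subtype := (Subgroup.map_commutator _ _ _).symm
    _ = finiteResidual G := by rw [h1, h2]

theorem perfect_of_int [Group.FG G] (e : (G ⧸ finiteResidual G) ≃* Multiplicative ℤ) :
    ⁅finiteResidual G, finiteResidual G⁆ = finiteResidual G := by
  let φ : (⊤ : Subgroup G) →* Multiplicative ℤ :=
    (e.toMonoidHom.comp (QuotientGroup.mk' (finiteResidual G))).comp (⊤ : Subgroup G).subtype
  refine perfect_of_hom (U := ⊤) inferInstance φ ?_ ?_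
  · intro z
    obtain ⟨g, hg⟩ := QuotientGroup.mk_surjective (e.symm z)
    refine ⟨⟨g, trivial⟩, ?_⟩
    change e (QuotientGroup.mk g) = z
    rw [hg]; simp
  · ext x
    rw [MonoidHom.mem_ker, Subgroup.mem_subgroupOf]
    change e (QuotientGroup.mk (x : G)) = 1 ↔ _
    rw [← map_one e, e.injective.eq_iff, QuotientGroup.eq_one_iff]

/-- the rotations of the infinite dihedral group -/
def rot : Multiplicative ℤ →* DihedralGroup 0 where
  toFun k := DihedralGroup.r (Multiplicative.toAdd k : ℤ)
  map_one' := rfl
  map_mul' a b := rfl

theorem rot_injective : Function.Injective rot := by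
  intro a b h
  have h1 : (DihedralGroup.r (Multiplicative.toAdd a : ℤ) : DihedralGroup 0) =
    DihedralGroup.r (Multiplicative.toAdd b : ℤ) := h
  injection h1

theorem rot_range_finiteIndex : (rot.range).FiniteIndex := by
  have : Finite (DihedralGroup 0 ⧸ rot.range) := by
    refine Finite.of_surjective (fun b : Bool => if b then
      (QuotientGroup.mk (DihedralGroup.sr 0) : DihedralGroup 0 ⧸ rot.range) else
      QuotientGroup.mk 1) ?_
    intro q
    obtain ⟨x, rfl⟩ := QuotientGroup.mk_surjective q
    rcases x with i | i
    · refine ⟨false, ?_⟩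
      simp only [Bool.false_eq_true, if_false]
      refine QuotientGroup.eq.2 ?_
      refine ⟨Multiplicative.ofAdd i, ?_⟩
      rw [inv_one, one_mul]
      rfl
    · refine ⟨true, ?_⟩
      simp only [if_true]
      refine QuotientGroup.eq.2 ?_
      refine ⟨Multiplicative.ofAdd i, ?_⟩
      rw [DihedralGroup.inv_sr, DihedralGroup.sr_mul_sr, sub_zero]
      rfl
  exact Subgroup.finiteIndex_of_finite_quotient

theorem perfect_of_dihedral [Group.FG G] (e : (G ⧸ finiteResidual G) ≃* DihedralGroup 0) :
    ⁅finiteResidual G, finiteResidual G⁆ = finiteResidual G := by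
  let π : G →* DihedralGroup 0 := e.toMonoidHom.comp (QuotientGroup.mk' (finiteResidual G))
  have hπ : Function.Surjective π := e.surjective.comp (QuotientGroup.mk'_surjective _)
  have hfi : rot.range.FiniteIndex := rot_range_finiteIndex
  let U : Subgroup G := rot.range.comap π
  have hU : U.FiniteIndex := by
    constructor
    intro h0
    have h1 := Subgroup.index_comap_of_surjective rot.range hπ
    exact hfi.index_ne_zero (h1.symm.trans h0)
  let ψ : U →* rot.range := π.subgroupComap rot.range
  let ε : Multiplicative ℤ ≃* rot.range := MonoidHom.ofInjective rot_injective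
  let φ : U →* Multiplicative ℤ := ε.symm.toMonoidHom.comp ψ
  refine perfect_of_hom (U := U) hU φ ?_ ?_
  · exact ε.symm.surjective.comp (MonoidHom.subgroupComap_surjective_of_surjective _ _ hπ)
  · ext x
    rw [MonoidHom.mem_ker, Subgroup.mem_subgroupOf]
    change ε.symm (ψ x) = 1 ↔ _
    rw [← map_one ε.symm, ε.symm.injective.eq_iff]
    have h1 : ψ x = 1 ↔ π x = 1 := by
      rw [Subtype.ext_iff]
      rfl
    rw [h1]
    change e (QuotientGroup.mk (x : G)) = 1 ↔ _
    rw [← map_one e, e.injective.eq_iff, QuotientGroup.eq_one_iff]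

end Perf

end Vale.Agent.P216.R2.H189
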