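import Vale.Agent.P216.R2.H189.Grp

/-!
# P216: closed geodesics and the finite residual of the quotients of the fundamental group, II
-/

set_option linter.all false

open Set Topology Bundle Manifold
open scoped ContDiff

namespace Vale.Agent.P216.R2.H189.V2

open Vale.Agent.P216 Vale.Agent.P216.R2.H189

theorem exists_hom {G : Type*} [Group G]
    (h : Nonempty ((G ⧸ finiteResidual G) ≃* Multiplicative ℤ) ∨
      Nonempty ((G ⧸ finiteResidual G) ≃* DihedralGroup 0)) :
    ∃ U : Subgroup G, U.FiniteIndex ∧ ∃ φ : U →* Multiplicative ℤ, Function.Surjective φ ∧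
      φ.ker = (finiteResidual G).subgroupOf U := by
  rcases h with ⟨⟨e⟩⟩ | ⟨⟨e⟩⟩
  · let φ : (⊤ : Subgroup G) →* Multiplicative ℤ :=
      (e.toMonoidHom.comp (QuotientGroup.mk' (finiteResidual G))).comp (⊤ : Subgroup G).subtype
    refine ⟨⊤, inferInstance, φ, ?_, ?_⟩
    · intro z
      obtain ⟨g, hg⟩ := QuotientGroup.mk_surjective (e.symm z)
      refine ⟨⟨g, trivial⟩, ?_⟩
      change e (QuotientGroup.mk g) = z
      rw [hg]; simp
    · ext x
      rw [MonoidHom.mem_ker, Subgroup.mem_subgroupOf]
      change e (QuotientGroup.mk (x : G)) = 1 ↔ _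
      rw [← map_one e, e.injective.eq_iff, QuotientGroup.eq_one_iff]
  · let pr : G →* DihedralGroup 0 := e.toMonoidHom.comp (QuotientGroup.mk' (finiteResidual G))
    have hpr : Function.Surjective pr := e.surjective.comp (QuotientGroup.mk'_surjective _)
    have hfi : rot.range.FiniteIndex := rot_range_finiteIndex
    let U : Subgroup G := rot.range.comap pr
    have hU : U.FiniteIndex := by
      constructor
      intro h0
      have h1 := Subgroup.index_comap_of_surjective rot.range hpr
      exact hfi.index_ne_zero (h1.symm.trans h0)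
    let ψ : U →* rot.range := pr.subgroupComap rot.range
    let ε : Multiplicative ℤ ≃* rot.range := MonoidHom.ofInjective rot_injective
    let φ : U →* Multiplicative ℤ := ε.symm.toMonoidHom.comp ψ
    refine ⟨U, hU, φ, ?_, ?_⟩
    · exact ε.symm.surjective.comp (MonoidHom.subgroupComap_surjective_of_surjective _ _ hpr)
    · ext x
      rw [MonoidHom.mem_ker, Subgroup.mem_subgroupOf]
      change ε.symm (ψ x) = 1 ↔ _
      rw [← map_one ε.symm, ε.symm.injective.eq_iff]
      have h1 : ψ x = 1 ↔ pr x = 1 := by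
        rw [Subtype.ext_iff]
        rfl
      rw [h1]
      change e (QuotientGroup.mk (x : G)) = 1 ↔ _
      rw [← map_one e, e.injective.eq_iff, QuotientGroup.eq_one_iff]

theorem residual_eq_top {G : Type*} [Group G] (hG : T1.SFCC G)
    (h : Nonempty ((G ⧸ finiteResidual G) ≃* Multiplicative ℤ) ∨
      Nonempty ((G ⧸ finiteResidual G) ≃* DihedralGroup 0))
    (hperf : ⁅finiteResidual G, finiteResidual G⁆ = finiteResidual G)
    (K : Subgroup (finiteResidual G)) (hK : K.FiniteIndex) : K = ⊤ := by
  obtain ⟨U, hU, φ, hφ, hk⟩ := exists_hom h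
  have hRU : finiteResidual G ≤ U := fun x hx => mem_finiteResidual.1 hx U hU
  haveI := hU
  have hS : T1.SFCC U := hG.subgroup U
  haveI hN : ((finiteResidual G).subgroupOf U).Normal := hk ▸ φ.normal_ker
  obtain ⟨t, ht⟩ := hφ (Multiplicative.ofAdd 1)
  have hgen : ∀ g : U, ∃ n : ℤ, g * t ^ n ∈ (finiteResidual G).subgroupOf U := by
    intro g
    refine ⟨-(Multiplicative.toAdd (φ g)), ?_⟩
    rw [← hk, MonoidHom.mem_ker, map_mul, map_zpow, ht]
    apply Multiplicative.toAdd.injective
    rw [toAdd_mul, toAdd_zpow, toAdd_one, toAdd_ofAdd]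
    simp
  have hres : ∀ N : Subgroup U, N.FiniteIndex → (finiteResidual G).subgroupOf U ≤ N := by
    intro N hN x hx
    obtain ⟨y, hy, hyx⟩ := mem_finiteResidual.1 (Subgroup.mem_subgroupOf.1 hx) _
      (map_finiteIndex hU hN)
    have : y = x := Subtype.ext hyx
    rwa [← this]
  have hc : commutator (finiteResidual G) = ⊤ := by
    have h1 : (commutator (finiteResidual G)).map (finiteResidual G).subtype =
        (⊤ : Subgroup (finiteResidual G)).map (finiteResidual G).subtype := by
      rw [Subgroup.map_subtype_commutator, hperf, ← MonoidHom.range_eq_map,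
        Subgroup.range_subtype]
    exact Subgroup.map_injective (Subgroup.subtype_injective _) h1
  let e : (finiteResidual G).subgroupOf U ≃* finiteResidual G := Subgroup.subgroupOfEquivOfLe hRU
  have hc' : commutator ((finiteResidual G).subgroupOf U) = ⊤ := by
    have h1 := Subgroup.map_commutator (⊤ : Subgroup (finiteResidual G)) ⊤ e.symm.toMonoidHom
    have h2 : (⊤ : Subgroup (finiteResidual G)).map e.symm.toMonoidHom = ⊤ :=
      Subgroup.map_top_of_surjective _ e.symm.surjective
    rw [h2] at h1
    rw [commutator_def, ← h1, ← commutator_def, hc, h2]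
  have hK' : (K.comap e.toMonoidHom).FiniteIndex := by
    constructor
    rw [Subgroup.index_comap_of_surjective K e.surjective]
    exact hK.index_ne_zero
  have h2 := no_finite_index hS ((finiteResidual G).subgroupOf U) t hgen hres hc' _ hK'
  rw [eq_top_iff]
  intro x _
  have h3 : e.symm x ∈ K.comap e.toMonoidHom := by rw [h2]; trivial
  have h4 : e (e.symm x) ∈ K := h3
  rwa [e.apply_symm_apply] at h4

/-- The hypothesis on a group: (A) infinite, not `ℤ`, not `D_∞`, with a subgroup of finite index
without nontrivial perfect subgroups; or (B) the finite residual is not perfect or has a proper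
subgroup of finite index, and almost simple finite sections are solvable modulo the socle or there
are finite solvable quotients of unbounded order. -/
def Hyp (Q : Type*) [Group Q] : Prop :=
  (Infinite Q ∧ IsEmpty (Q ≃* Multiplicative ℤ) ∧ IsEmpty (Q ≃* DihedralGroup 0) ∧
    ∃ H : Subgroup Q, H.FiniteIndex ∧ ∀ K : Subgroup Q, K ≤ H → ⁅K, K⁆ = K → K = ⊥) ∨
  ((⁅finiteResidual Q, finiteResidual Q⁆ ≠ finiteResidual Q ∨
      ∃ K : Subgroup (finiteResidual Q), K.FiniteIndex ∧ K ≠ ⊤) ∧
    (AlmostSimpleSolvable Q ∨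
      ∃ H : Subgroup Q, H.FiniteIndex ∧ ∀ n : ℕ,
        ∃ (N : Subgroup H) (_ : N.Normal), N.FiniteIndex ∧ n ≤ N.index ∧
          Group.IsSolvable (H ⧸ N)))

theorem false_of_sfcc {Q : Type*} [Group Q] [Group.FG Q] (hQ : T1.SFCC Q) (h : Hyp Q) :
    False := by
  rcases h with h | ⟨h, hb⟩
  · exact H189.false_of_sfcc hQ (Or.inl h)
  by_cases hperf : ⁅finiteResidual Q, finiteResidual Q⁆ = finiteResidual Q
  · rcases h with h | ⟨K, hK, hKt⟩
    · exact h hperf
    · apply hKt
      by_cases hR : (finiteResidual Q).FiniteIndex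
      · rw [eq_top_iff]
        intro x _
        obtain ⟨y, hy, hyx⟩ := mem_finiteResidual.1 x.2 _ (map_finiteIndex hR hK)
        have : y = x := Subtype.ext hyx
        rwa [← this]
      · exact residual_eq_top hQ (RFS.residual_quotient hQ hR
          (hb.imp_left fun h U hU N hN hN0 S hS hs hnc hz => h U ⟨hU⟩ N hN ⟨hN0⟩ S hS hs hnc hz))
          hperf K hK
  · exact H189.false_of_sfcc hQ (Or.inr ⟨hperf, hb⟩)

section

variable (E : Type) [NormedAddCommGroup E] [NormedSpace ℝ E] [FiniteDimensional ℝ E]
    {M : Type} [MetricSpace M] [CompactSpace M] [ChartedSpace E M] [IsManifold 𝓘(ℝ, E) ∞ M]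
    [RiemannianBundle (fun x : M => TangentSpace 𝓘(ℝ, E) x)]
    [IsContMDiffRiemannianBundle 𝓘(ℝ, E) ∞ E (fun x : M => TangentSpace 𝓘(ℝ, E) x)]
    [IsRiemannianManifold 𝓘(ℝ, E) M]

include E in
theorem main (x₀ : M) {Q : Type*} [Group Q] (f : FundamentalGroup M x₀ →* Q)
    (hf : Function.Surjective f) (h : Hyp Q) :
    (primeClosedGeodesicImages M).Infinite := by
  intro hfin
  have h0 : Group.FG (FundamentalGroup M x₀) := fg_fundamentalGroup E x₀
  have h1 : Group.FG Q := Group.fg_of_surjective hf
  exact false_of_sfcc (sfcc_map (sfcc_fundamentalGroup E M x₀ hfin) f hf) h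

end

end Vale.Agent.P216.R2.H189.V2
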