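import Mathlib

set_option linter.all false

namespace Vale.Agent.P216.R2.H189.V3

namespace RowH467

open HNNExtension HNNExtension.NormalWord

variable {G : Type*} [Group G] {A B : Subgroup G} (φ : A ≃* B) {d : TransversalPair G A B}

theorem len_units (u : ℤˣ) (w : NormalWord d) :
    (unitsSMul φ u w).toList.length ≤ w.toList.length + 1 := by
  rw [unitsSMul]
  split_ifs with hcan
  · cases w using consRecOn
    · simp [Cancels] at hcan
    · simp [unitsSMulWithCancel]
      omega
  · simp

theorem len_mul (v w : NormalWord d) :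
    ((v.prod φ) • w).toList.length ≤ v.toList.length + w.toList.length := by
  induction v using consRecOn with
  | ofGroup g =>
    have e : (NormalWord.ofGroup g : NormalWord d).prod φ = of g := by
      simp [ReducedWord.prod, NormalWord.ofGroup]
    rw [e, of_smul_eq_smul, group_smul_toList]
    exact Nat.le_add_left _ _
  | cons g u v h1 h2 ih =>
    rw [prod_cons, mul_smul, mul_smul, t_pow_smul_eq_unitsSMul, of_smul_eq_smul, group_smul_toList]
    have h3 := len_units φ u (v.prod φ • w)
    rw [cons_toList, List.length_cons]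
    omega

/-- the length of an element -/
noncomputable def ell (d : TransversalPair G A B) (x : HNNExtension G A B φ) : ℕ :=
  (x • (empty : NormalWord d)).toList.length

theorem ell_mul (x y : HNNExtension G A B φ) : ell φ d (x * y) ≤ ell φ d x + ell φ d y := by
  have h := len_mul φ (x • (empty : NormalWord d)) (y • (empty : NormalWord d))
  rw [prod_smul, prod_empty, mul_one, ← mul_smul] at h
  exact h

theorem ell_red (w : ReducedWord G A B) : ell φ d (w.prod φ) = w.toList.length := by
  obtain ⟨w', h1, h2, -⟩ := ReducedWord.exists_normalWord_prod_eq φ d w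
  unfold ell
  rw [← h1, prod_smul_empty]
  have := congrArg List.length h2
  simpa using this

/-- product of a list of letters -/
def P (l : List (ℤˣ × G)) : HNNExtension G A B φ :=
  (l.map fun x => t ^ (x.1 : ℤ) * of x.2).prod

theorem P_append (l l' : List (ℤˣ × G)) : P φ (l ++ l') = P φ l * P φ l' := by
  simp [P]

theorem P_flatten (l : List (ℤˣ × G)) (j : ℕ) :
    P φ (List.replicate j l).flatten = P φ l ^ j := by
  induction j with
  | zero => simp [P]
  | succ j ih => rw [List.replicate_succ, List.flatten_cons, P_append, ih, pow_succ']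

theorem chain_of (l : List (ℤˣ × G)) (h : ∀ x ∈ l, x.2 ∉ toSubgroup A B x.1) :
    l.IsChain (fun a b => a.2 ∈ toSubgroup A B a.1 → a.1 = b.1) := by
  induction l with
  | nil => exact List.isChain_nil
  | cons a l ih =>
    refine List.isChain_cons.2 ⟨fun b _ h1 => absurd h1 (h a (by simp)), ih fun x hx => h x (by simp [hx])⟩

theorem ell_P (l : List (ℤˣ × G)) (h : ∀ x ∈ l, x.2 ∉ toSubgroup A B x.1) :
    ell φ d (P φ l) = l.length := by
  have h1 := ell_red φ (d := d) (⟨1, l, chain_of l h⟩ : ReducedWord G A B)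
  simpa [ReducedWord.prod, P] using h1

/-- the words -/
def L (b b' : G) (n : ℕ) : List (ℤˣ × G) :=
  List.replicate (n + 1) ((1 : ℤˣ), b) ++ List.replicate n ((-1 : ℤˣ), b')

theorem L_mem {b b' : G} (hb : b ∉ A) (hb' : b' ∉ B) (n : ℕ) :
    ∀ x ∈ L b b' n, x.2 ∉ toSubgroup A B x.1 := by
  intro x hx
  rcases List.mem_append.1 hx with h | h
  · rw [List.eq_of_mem_replicate h]; exact hb
  · rw [List.eq_of_mem_replicate h]; exact hb'

theorem ell_pow {b b' : G} (hb : b ∉ A) (hb' : b' ∉ B) (n j : ℕ) :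
    ell φ d (P φ (L b b' n) ^ j) = j * (2 * n + 1) := by
  rw [← P_flatten, ell_P]
  · simp [L]
    left
    omega
  · intro x hx
    obtain ⟨l, hl, hxl⟩ := List.mem_flatten.1 hx
    rw [List.eq_of_mem_replicate hl] at hxl
    exact L_mem hb hb' n x hxl

theorem le_of_conj {b b' : G} (hb : b ∉ A) (hb' : b' ∉ B) {n m : ℕ}
    (h : IsConj (P φ (L b b' m)) (P φ (L b b' n))) : n ≤ m := by
  obtain ⟨d⟩ := TransversalPair.nonempty G A B
  obtain ⟨c, hc⟩ := isConj_iff.1 h
  by_contra hnm
  set j := ell φ d c + ell φ d c⁻¹ + 1 with hj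
  have h1 : P φ (L b b' n) ^ j = c * P φ (L b b' m) ^ j * c⁻¹ := by
    rw [← hc, conj_pow]
  have h2 := ell_pow φ (d := d) hb hb' n j
  rw [h1] at h2
  have h3 := ell_mul φ (d := d) (c * P φ (L b b' m) ^ j) c⁻¹
  have h4 := ell_mul φ (d := d) c (P φ (L b b' m) ^ j)
  rw [ell_pow φ (d := d) hb hb' m j] at h4
  have h5 : j * (2 * n + 1) ≤ ell φ d c + j * (2 * m + 1) + ell φ d c⁻¹ := by omega
  have h6 : j * (2 * m + 1) + j * 2 ≤ j * (2 * n + 1) := by
    rw [← Nat.mul_add]
    exact Nat.mul_le_mul_left _ (by omega)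
  omega

/-- exponent sum -/
def e : HNNExtension G A B φ →* Multiplicative ℤ :=
  HNNExtension.lift 1 (Multiplicative.ofAdd 1) (by intro a; simp)

theorem e_P (b b' : G) (n : ℕ) : e φ (P φ (L b b' n)) = Multiplicative.ofAdd 1 := by
  unfold P L e
  rw [List.map_append, List.prod_append, List.map_replicate, List.map_replicate, List.prod_replicate,
    List.prod_replicate, map_mul, map_pow, map_pow]
  simp only [Units.val_one, zpow_one, map_mul, lift_t, lift_of, MonoidHom.one_apply, mul_one,
    Units.val_neg, zpow_neg, map_inv, inv_pow, pow_succ']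
  rw [mul_assoc, mul_inv_cancel, mul_one]

theorem e_conj {x y : HNNExtension G A B φ} (h : IsConj x y) : e φ x = e φ y := by
  obtain ⟨c, rfl⟩ := isConj_iff.1 h
  rw [map_mul, map_mul, map_inv, mul_comm (e φ c), mul_inv_cancel_right]

end RowH467

open RowH467 in
theorem rowH {G : Type*} [Group G] {A B : Subgroup G} (φ : A ≃* B) (hA : A ≠ ⊤) (hB : B ≠ ⊤)
    (F : Set (HNNExtension G A B φ)) (hF : F.Finite) :
    ∃ g : HNNExtension G A B φ, ∀ a ∈ F, ∀ k : ℤ, ¬ IsConj g (a ^ k) := by
  obtain ⟨b, hb⟩ : ∃ b, b ∉ A := by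
    by_contra h
    push Not at h
    exact hA ((Subgroup.eq_top_iff' A).2 h)
  obtain ⟨b', hb'⟩ : ∃ b, b ∉ B := by
    by_contra h
    push Not at h
    exact hB ((Subgroup.eq_top_iff' B).2 h)
  by_contra hcon
  push Not at hcon
  have hfin : Finite F := hF.to_subtype
  have key : ∀ n : ℕ, ∃ p : F × ℤˣ, IsConj (P φ (L b b' n)) ((p.1 : HNNExtension G A B φ) ^ (p.2 : ℤ)) := by
    intro n
    obtain ⟨a, ha, k, hk⟩ := hcon (P φ (L b b' n))
    have h1 := e_conj φ hk
    rw [e_P, map_zpow] at h1
    have h2 : (1 : ℤ) = k * Multiplicative.toAdd (e φ a) := by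
      have := congrArg Multiplicative.toAdd h1
      simpa using this
    have h3 : IsUnit k := isUnit_of_dvd_one ⟨_, h2⟩
    exact ⟨(⟨a, ha⟩, h3.unit), by simpa using hk⟩
  choose f hf using key
  obtain ⟨n, m, hnm, he⟩ := Finite.exists_ne_map_eq_of_infinite f
  have h1 := hf n
  rw [he] at h1
  have h2 : IsConj (P φ (L b b' n)) (P φ (L b b' m)) := h1.trans (hf m).symm
  exact hnm (le_antisymm (le_of_conj φ hb hb' h2.symm) (le_of_conj φ hb hb' h2))

end Vale.Agent.P216.R2.H189.V3
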