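import Vale.Agent.P216.R2.H189.Main2
import Vale.Agent.P216.R2.H189.RowH_helper467

/-!
# P216: closed geodesics, the finite residual and HNN extensions
-/

set_option linter.all false

open Set Topology Bundle Manifold
open scoped ContDiff

namespace Vale.Agent.P216.R2.H189.V3

open Vale.Agent.P216 Vale.Agent.P216.R2.H189

/-- (C) Some subgroup of finite index maps onto an HNN extension with both associated subgroups
proper. -/
def HNNQuotient (Q : Type*) [Group Q] : Prop :=
  ∃ H : Subgroup Q, H.FiniteIndex ∧ ∃ (G : Type) (_ : Group G) (A B : Subgroup G) (φ : A ≃* B)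
    (p : H →* HNNExtension G A B φ), Function.Surjective p ∧ A ≠ ⊤ ∧ B ≠ ⊤

theorem false_of_sfcc {Q : Type*} [Group Q] [Group.FG Q] (hQ : T1.SFCC Q)
    (h : V2.Hyp Q ∨ HNNQuotient Q) : False := by
  rcases h with h | ⟨H, hH, G, _, A, B, φ, p, hp, hA, hB⟩
  · exact V2.false_of_sfcc hQ h
  · haveI := hH
    obtain ⟨F, hF, hcov⟩ := (sfcc_map (hQ.subgroup H) p hp).fcc
    obtain ⟨g, hg⟩ := rowH φ hA hB F hF
    obtain ⟨a, ha, k, hk⟩ := hcov g
    exact hg a ha k hk

section

variable (E : Type) [NormedAddCommGroup E] [NormedSpace ℝ E] [FiniteDimensional ℝ E]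
    {M : Type} [MetricSpace M] [CompactSpace M] [ChartedSpace E M] [IsManifold 𝓘(ℝ, E) ∞ M]
    [RiemannianBundle (fun x : M => TangentSpace 𝓘(ℝ, E) x)]
    [IsContMDiffRiemannianBundle 𝓘(ℝ, E) ∞ E (fun x : M => TangentSpace 𝓘(ℝ, E) x)]
    [IsRiemannianManifold 𝓘(ℝ, E) M]

include E in
theorem main (x₀ : M) {Q : Type*} [Group Q] (f : FundamentalGroup M x₀ →* Q)
    (hf : Function.Surjective f) (h : V2.Hyp Q ∨ HNNQuotient Q) :
    (primeClosedGeodesicImages M).Infinite := by
  intro hfin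
  have h0 : Group.FG (FundamentalGroup M x₀) := fg_fundamentalGroup E x₀
  have h1 : Group.FG Q := Group.fg_of_surjective hf
  exact false_of_sfcc (sfcc_map (sfcc_fundamentalGroup E M x₀ hfin) f hf) h

end

end Vale.Agent.P216.R2.H189.V3
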