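import Mathlib

/-!
# P216, row A: compactness of the homomorphisms
-/

namespace Vale.Agent.P216.R2.H189.V2

/-- Row A. Compactness of Hom(R, T) in the product topology of R → T: the closed set of
homomorphisms which are not trivial on A is covered by the directed open sets {f | f(B) = T}. -/
theorem rowA {R T : Type*} [Group R] [Group T] [Finite T]
    (hmin : ∀ f : R →* T, (∃ r, f r ≠ 1) → Function.Surjective f) (A : Finset R) :
    ∃ B : Finset R, ∀ f : R →* T, (∀ a ∈ A, f a = 1) ∨ ∀ x : T, ∃ b ∈ B, f b = x := by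
  classical
  let _ : TopologicalSpace T := ⊥
  have : DiscreteTopology T := ⟨rfl⟩
  have : CompactSpace T := Finite.compactSpace
  let _ : Fintype T := Fintype.ofFinite T
  let C : Set (R → T) := {f | (∀ x y, f (x * y) = f x * f y) ∧ ∃ a ∈ A, f a ≠ 1}
  have hC : IsClosed C := by
    have e : C = (⋂ x, ⋂ y, {f : R → T | f (x * y) = f x * f y}) ∩
        ⋃ a ∈ A, {f : R → T | f a ≠ 1} := by
      ext f
      simp [C]
    rw [e]
    refine IsClosed.inter (isClosed_iInter fun x => isClosed_iInter fun y => ?_) ?_
    · exact (isClosed_discrete {q : T × T × T | q.1 = q.2.1 * q.2.2}).preimage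
        (f := fun f : R → T => (f (x * y), f x, f y)) (by fun_prop)
    · exact A.finite_toSet.isClosed_biUnion fun a _ =>
        (isClosed_discrete {t : T | t ≠ 1}).preimage (f := fun f : R → T => f a)
          (continuous_apply a)
  obtain ⟨B, hB⟩ := hC.isCompact.elim_directed_cover
    (fun B : Finset R => {f : R → T | ∀ x : T, ∃ b ∈ B, f b = x}) (fun B => by
      have e : {f : R → T | ∀ x : T, ∃ b ∈ B, f b = x} =
          ⋂ x : T, ⋃ b ∈ B, {f : R → T | f b = x} := by
        ext f
        simp
      rw [e]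
      exact isOpen_iInter_of_finite fun x => isOpen_biUnion fun b _ =>
        (isOpen_discrete {t : T | t = x}).preimage (f := fun f : R → T => f b)
          (continuous_apply b))
    (fun f hf => by
      obtain ⟨hmul, a, -, ha⟩ := hf
      have hs := hmin (MonoidHom.mk' f hmul) ⟨a, ha⟩
      choose r hr using hs
      refine Set.mem_iUnion.2 ⟨Finset.univ.image r, fun x => ?_⟩
      exact ⟨r x, Finset.mem_image_of_mem r (Finset.mem_univ x), hr x⟩)
    (fun B₁ B₂ => ⟨B₁ ∪ B₂, fun f hf x => by
        obtain ⟨b, hb, e⟩ := hf x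
        exact ⟨b, Finset.mem_union_left _ hb, e⟩, fun f hf x => by
        obtain ⟨b, hb, e⟩ := hf x
        exact ⟨b, Finset.mem_union_right _ hb, e⟩⟩)
  refine ⟨B, fun f => ?_⟩
  by_cases h : ∀ a ∈ A, f a = 1
  · exact Or.inl h
  · push Not at h
    exact Or.inr (hB ⟨fun x y => map_mul f x y, h⟩)

end Vale.Agent.P216.R2.H189.V2
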