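import Mathlib

namespace Vale.Agent.P216.R2.H189.V2

private theorem map_normal {H T : Type*} [Group H] [Group T] [IsSimpleGroup T] {f : H →* T}
    (hf : Function.Surjective f) (A : Subgroup H) (hA : A.Normal) :
    A.map f = ⊥ ∨ A.map f = ⊤ :=
  (hA.map f hf).eq_bot_or_eq_top

private theorem inf_top {H T : Type*} [Group H] [Group T] [IsSimpleGroup T]
    (hT : ∃ x y : T, x * y ≠ y * x) {f : H →* T} (hf : Function.Surjective f)
    (A B : Subgroup H) (hA : A.Normal) (hB : B.Normal) (h1 : A.map f = ⊤) (h2 : B.map f = ⊤) :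
    (A ⊓ B).map f = ⊤ := by
  have hN : (A ⊓ B).Normal := inferInstance
  rcases map_normal hf (A ⊓ B) hN with h | h
  · exfalso
    obtain ⟨x, y, hxy⟩ := hT
    obtain ⟨a, ha, rfl⟩ : x ∈ A.map f := by rw [h1]; trivial
    obtain ⟨b, hb, rfl⟩ : y ∈ B.map f := by rw [h2]; trivial
    have h3 : a * b * a⁻¹ * b⁻¹ ∈ A ⊓ B := by
      refine ⟨?_, B.mul_mem (hB.conj_mem b hb a) (B.inv_mem hb)⟩
      have : a * b * a⁻¹ * b⁻¹ = a * (b * a⁻¹ * b⁻¹) := by group
      rw [this]
      exact A.mul_mem ha (hA.conj_mem _ (A.inv_mem ha) b)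
    have h4 : f (a * b * a⁻¹ * b⁻¹) ∈ (A ⊓ B).map f := ⟨_, h3, rfl⟩
    rw [h, Subgroup.mem_bot] at h4
    apply hxy
    rw [map_mul, map_mul, map_mul, map_inv, map_inv, mul_inv_eq_one, mul_inv_eq_iff_eq_mul] at h4
    exact h4
  · exact h

/-- Row B. -/
theorem rowB {H T : Type*} [Group H] [Group T] [IsSimpleGroup T]
    (hT : ∃ x y : T, x * y ≠ y * x) (f : H →* T) (hf : Function.Surjective f)
    (s : Set (H →* T)) (hs : s.Finite)
    (h : ∀ g ∈ s, Function.Surjective g ∧ g.ker ≠ f.ker) (x : T) :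
    ∃ r : H, f r = x ∧ ∀ g ∈ s, g r = 1 := by
  have hone : ∀ g : H →* T, Function.Surjective g → g.ker ≠ f.ker → g.ker.map f = ⊤ := by
    intro g hg hne
    rcases map_normal hf g.ker inferInstance with h1 | h1
    · exfalso
      have hle : g.ker ≤ f.ker := by
        intro r hr
        have : f r ∈ g.ker.map f := ⟨r, hr, rfl⟩
        rw [h1, Subgroup.mem_bot] at this
        exact this
      rcases map_normal hg f.ker inferInstance with h2 | h2
      · apply hne
        refine le_antisymm hle ?_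
        intro r hr
        have : g r ∈ f.ker.map g := ⟨r, hr, rfl⟩
        rw [h2, Subgroup.mem_bot] at this
        exact this
      · obtain ⟨x, y, hxy⟩ := hT
        apply hxy
        have hall : ∀ r : H, f r = 1 := by
          intro r
          obtain ⟨k, hk, hkr⟩ : g r ∈ f.ker.map g := by rw [h2]; trivial
          have h3 : r * k⁻¹ ∈ g.ker := by
            rw [MonoidHom.mem_ker, map_mul, map_inv, hkr, mul_inv_cancel]
          have h4 := hle h3
          rw [MonoidHom.mem_ker, map_mul, map_inv] at h4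
          have h5 : f k = 1 := hk
          rw [h5, inv_one, mul_one] at h4
          exact h4
        obtain ⟨r1, rfl⟩ := hf x
        obtain ⟨r2, rfl⟩ := hf y
        rw [hall, hall]
    · exact h1
  have key : ∃ N : Subgroup H, N.Normal ∧ N.map f = ⊤ ∧ ∀ r ∈ N, ∀ g ∈ s, g r = 1 := by
    induction s, hs using Set.Finite.induction_on with
    | empty =>
      refine ⟨⊤, inferInstance, ?_, fun r _ g hg => absurd hg (Set.notMem_empty g)⟩
      rw [← MonoidHom.range_eq_map]
      exact MonoidHom.range_eq_top.mpr hf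
    | @insert g s hgs hs ih =>
      obtain ⟨N, hN, h1, h2⟩ := ih fun g hg => h g (Set.mem_insert_of_mem _ hg)
      obtain ⟨h3, h4⟩ := h g (Set.mem_insert _ _)
      refine ⟨g.ker ⊓ N, inferInstance, inf_top hT hf _ _ inferInstance hN (hone g h3 h4) h1, ?_⟩
      rintro r ⟨hr1, hr2⟩ g' hg'
      rcases Set.mem_insert_iff.mp hg' with rfl | hg''
      · exact hr1
      · exact h2 r hr2 g' hg''
  obtain ⟨N, hN, h1, h2⟩ := key
  obtain ⟨r, hr, hrx⟩ : x ∈ N.map f := by rw [h1]; trivial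
  exact ⟨r, hrx, h2 r hr⟩

/-- Row C. -/
theorem rowC {R T ι : Type*} [Group R] [Group T] [Finite T] [IsSimpleGroup T]
    (hT : ∃ x y : T, x * y ≠ y * x) (f : ι → R →* T) (B : Finset R) (a : R) (ha : a ∈ B)
    (hB : ∀ i, f i a = 1 ∨ ∀ x : T, ∃ b ∈ B, f i b = x) (i₀ : ι) (h₀ : f i₀ a ≠ 1) :
    ∃ u : R, ∀ j, f j u ≠ 1 ↔
      (f j a ≠ 1 ∧ ∀ r ∈ Subgroup.closure (B : Set R), (f j r = 1 ↔ f i₀ r = 1)) := by
  classical
  let H := Subgroup.closure (B : Set R)
  have hBH : ∀ b ∈ B, b ∈ H := fun b hb => Subgroup.subset_closure hb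
  let g : ι → H →* T := fun j => (f j).comp H.subtype
  have hg : ∀ j (r : H), g j r = f j r := fun j r => rfl
  have hsur : ∀ j, f j a ≠ 1 → Function.Surjective (g j) := by
    intro j hj x
    rcases hB j with h | h
    · exact absurd h hj
    · obtain ⟨b, hb, rfl⟩ := h x
      exact ⟨⟨b, hBH b hb⟩, rfl⟩
  have hfin : Finite (H →* T) := by
    refine Finite.of_injective (fun φ : H →* T => fun b : B => φ ⟨b.1, hBH b.1 b.2⟩) ?_
    intro φ ψ hφψ
    refine MonoidHom.eq_of_eqOn_dense (Subgroup.closure_closure_coe_preimage (k := (B : Set R))) ?_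
    intro r hr
    exact congrFun hφψ ⟨r.1, hr⟩
  let s : Set (H →* T) := {φ | Function.Surjective φ ∧ φ.ker ≠ (g i₀).ker}
  have hx : ∃ x : T, x * f i₀ a ≠ f i₀ a * x := by
    by_contra hcon
    push Not at hcon
    have hc : f i₀ a ∈ Subgroup.center T := Subgroup.mem_center_iff.mpr hcon
    rcases (inferInstance : (Subgroup.center T).Normal).eq_bot_or_eq_top with h | h
    · rw [h, Subgroup.mem_bot] at hc
      exact h₀ hc
    · obtain ⟨x, y, hxy⟩ := hT
      apply hxy
      have : y ∈ Subgroup.center T := by rw [h]; trivial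
      exact Subgroup.mem_center_iff.mp this x
  obtain ⟨x, hx⟩ := hx
  obtain ⟨r, hr1, hr2⟩ := rowB hT (g i₀) (hsur i₀ h₀) s (Set.toFinite s) (fun φ hφ => hφ) x
  have hr1' : f i₀ r = x := hr1
  refine ⟨r.1 * a * r.1⁻¹ * a⁻¹, fun j => ?_⟩
  have hu : r.1 * a * r.1⁻¹ * a⁻¹ ∈ H :=
    H.mul_mem (H.mul_mem (H.mul_mem r.2 (hBH a ha)) (H.inv_mem r.2)) (H.inv_mem (hBH a ha))
  constructor
  · intro h1
    have h2 : f j a ≠ 1 := by
      intro h2
      apply h1
      simp [h2]
    refine ⟨h2, ?_⟩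
    by_contra h3
    apply h1
    have h4 : g j ∈ s := by
      refine ⟨hsur j h2, fun h5 => h3 fun r' hr' => ?_⟩
      have : (⟨r', hr'⟩ : H) ∈ (g j).ker ↔ (⟨r', hr'⟩ : H) ∈ (g i₀).ker := by rw [h5]
      exact this
    have h6 : f j r = 1 := hr2 _ h4
    simp [h6]
  · rintro ⟨h1, h2⟩ h3
    have h4 := (h2 _ hu).mp h3
    apply hx
    rw [map_mul, map_mul, map_mul, map_inv, map_inv, mul_inv_eq_one, mul_inv_eq_iff_eq_mul,
      hr1'] at h4
    exact h4

end Vale.Agent.P216.R2.H189.V2
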