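import Mathlib

set_option autoImplicit false

namespace Vale.Agent.P216.R2.H189.V2

theorem rowB_aux1 {H T : Type*} [Group H] [Group T] [IsSimpleGroup T]
    (hT : ∃ x y : T, x * y ≠ y * x) (f : H →* T) (hf : Function.Surjective f)
    (g : H →* T) (hg : Function.Surjective g) (hk : g.ker ≠ f.ker) :
    g.ker.map f = ⊤ := by
  rcases (Subgroup.Normal.map (inferInstance : g.ker.Normal) f hf).eq_bot_or_eq_top with h | h
  · exfalso
    have h1 : g.ker ≤ f.ker := (Subgroup.map_eq_bot_iff _).1 h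
    rcases (Subgroup.Normal.map (inferInstance : f.ker.Normal) g hg).eq_bot_or_eq_top with h2 | h2
    · exact hk (le_antisymm h1 ((Subgroup.map_eq_bot_iff _).1 h2))
    · obtain ⟨x, y, hxy⟩ := hT
      have h3 : ∀ u : T, u = 1 := by
        intro u
        obtain ⟨a, rfl⟩ := hf u
        have h4 : g a ∈ f.ker.map g := by rw [h2]; trivial
        obtain ⟨k, hk1, hk2⟩ := h4
        have h5 : a * k⁻¹ ∈ g.ker := by
          rw [MonoidHom.mem_ker, map_mul, map_inv, hk2, mul_inv_cancel]
        have h6 := h1 h5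
        rw [MonoidHom.mem_ker, map_mul, map_inv, (MonoidHom.mem_ker.1 hk1), inv_one, mul_one] at h6
        exact h6
      exact hxy (by rw [h3 x, h3 y])
  · exact h

theorem rowB_aux2 {H T : Type*} [Group H] [Group T] [IsSimpleGroup T]
    (hT : ∃ x y : T, x * y ≠ y * x) (f : H →* T) (hf : Function.Surjective f)
    (A B : Subgroup H) (hA : A.Normal) (hB : B.Normal) (h1 : A.map f = ⊤) (h2 : B.map f = ⊤) :
    (A ⊓ B).map f = ⊤ := by
  have hn : (A ⊓ B).Normal := inferInstance
  rcases (Subgroup.Normal.map hn f hf).eq_bot_or_eq_top with h | h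
  · exfalso
    obtain ⟨x, y, hxy⟩ := hT
    have hx : x ∈ A.map f := by rw [h1]; trivial
    have hy : y ∈ B.map f := by rw [h2]; trivial
    obtain ⟨a, ha, rfl⟩ := hx
    obtain ⟨b, hb, rfl⟩ := hy
    have h3 : a * b * a⁻¹ * b⁻¹ ∈ A ⊓ B := by
      refine ⟨?_, ?_⟩
      · have := A.mul_mem ha (hA.conj_mem a⁻¹ (A.inv_mem ha) b)
        simpa [mul_assoc] using this
      · have := B.mul_mem (hB.conj_mem b hb a) (B.inv_mem hb)
        simpa [mul_assoc] using this
    have h4 := (Subgroup.map_eq_bot_iff _).1 h h3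
    rw [MonoidHom.mem_ker, map_mul, map_mul, map_mul, map_inv, map_inv] at h4
    apply hxy
    have h5 : f a * f b = f b * f a := by
      have := congrArg (· * f b * f a) h4
      simpa using this
    exact h5
  · exact h

/-- Row B. -/
theorem rowB {H T : Type*} [Group H] [Group T] [IsSimpleGroup T]
    (hT : ∃ x y : T, x * y ≠ y * x) (f : H →* T) (hf : Function.Surjective f)
    (s : Set (H →* T)) (hs : s.Finite)
    (h : ∀ g ∈ s, Function.Surjective g ∧ g.ker ≠ f.ker) (x : T) :
    ∃ r : H, f r = x ∧ ∀ g ∈ s, g r = 1 := by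
  have key : ∃ N : Subgroup H, N.Normal ∧ N.map f = ⊤ ∧ ∀ g ∈ s, N ≤ g.ker := by
    induction s, hs using Set.Finite.induction_on with
    | empty => exact ⟨⊤, inferInstance, by
        rw [← MonoidHom.range_eq_map]; exact MonoidHom.range_eq_top.2 hf, by simp⟩
    | @insert g s _ _ ih =>
      obtain ⟨N, hN, hN1, hN2⟩ := ih (fun g hg => h g (Set.mem_insert_of_mem _ hg))
      have hg := h g (Set.mem_insert _ _)
      refine ⟨g.ker ⊓ N, inferInstance, rowB_aux2 hT f hf _ _ inferInstance hN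
        (rowB_aux1 hT f hf g hg.1 hg.2) hN1, ?_⟩
      intro g' hg'
      rcases Set.mem_insert_iff.1 hg' with rfl | hg'
      · exact inf_le_left
      · exact inf_le_right.trans (hN2 g' hg')
  obtain ⟨N, -, hN1, hN2⟩ := key
  have hx : x ∈ N.map f := by rw [hN1]; trivial
  obtain ⟨r, hr, hrx⟩ := hx
  exact ⟨r, hrx, fun g hg => MonoidHom.mem_ker.1 (hN2 g hg hr)⟩

end Vale.Agent.P216.R2.H189.V2
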