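import Mathlib

set_option linter.all false

namespace Vale.Agent.P216.R2.H189.V2

theorem comm_top {T : Type*} [Group T] [IsSimpleGroup T] (hT : ∃ x y : T, x * y ≠ y * x) :
    ⁅(⊤ : Subgroup T), (⊤ : Subgroup T)⁆ = ⊤ := by
  have hn : (⁅(⊤ : Subgroup T), (⊤ : Subgroup T)⁆).Normal := inferInstance
  rcases hn.eq_bot_or_eq_top with h | h
  · exfalso
    obtain ⟨x, y, hxy⟩ := hT
    have h1 := Subgroup.commutator_mem_commutator (H₁ := (⊤ : Subgroup T)) (H₂ := ⊤)
      (Subgroup.mem_top x) (Subgroup.mem_top y)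
    rw [h, Subgroup.mem_bot, commutatorElement_eq_one_iff_mul_comm] at h1
    exact hxy h1
  · exact h

/-- Row B. -/
theorem rowB {H T : Type*} [Group H] [Group T] [IsSimpleGroup T]
    (hT : ∃ x y : T, x * y ≠ y * x) (f : H →* T) (hf : Function.Surjective f)
    (s : Set (H →* T)) (hs : s.Finite)
    (h : ∀ g ∈ s, Function.Surjective g ∧ g.ker ≠ f.ker) (x : T) :
    ∃ r : H, f r = x ∧ ∀ g ∈ s, g r = 1 := by
  have key : ∃ A : Subgroup H, A.Normal ∧ A.map f = ⊤ ∧ ∀ g ∈ s, A ≤ g.ker := by
    induction s, hs using Set.Finite.induction_on with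
    | empty =>
      refine ⟨⊤, inferInstance, ?_, fun g hg => absurd hg (Set.notMem_empty g)⟩
      rw [← MonoidHom.range_eq_map]
      exact MonoidHom.range_eq_top.2 hf
    | @insert g s _ _ ih =>
      obtain ⟨A, hA, hA1, hA2⟩ := ih fun g' hg' => h g' (Set.mem_insert_of_mem _ hg')
      obtain ⟨hg1, hg2⟩ := h g (Set.mem_insert _ _)
      have hB : g.ker.map f = ⊤ := by
        have hn : (g.ker.map f).Normal := Subgroup.Normal.map inferInstance f hf
        rcases hn.eq_bot_or_eq_top with h1 | h1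
        · exfalso
          have h2 : g.ker ≤ f.ker := by
            rw [Subgroup.map_eq_bot_iff] at h1
            exact h1
          have hn' : (f.ker.map g).Normal := Subgroup.Normal.map inferInstance g hg1
          rcases hn'.eq_bot_or_eq_top with h3 | h3
          · rw [Subgroup.map_eq_bot_iff] at h3
            exact hg2 (le_antisymm h2 h3)
          · -- every element of H lies in ker f
            obtain ⟨a, b, hab⟩ := hT
            have h4 : ∀ r : H, f r = 1 := by
              intro r
              have h5 : g r ∈ f.ker.map g := by rw [h3]; trivial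
              obtain ⟨k, hk, hke⟩ := Subgroup.mem_map.1 h5
              have h6 : k⁻¹ * r ∈ g.ker := by
                rw [MonoidHom.mem_ker, map_mul, map_inv, hke, inv_mul_cancel]
              have h7 := h2 h6
              rw [MonoidHom.mem_ker, map_mul, map_inv, MonoidHom.mem_ker.1 hk, inv_one,
                one_mul] at h7
              exact h7
            obtain ⟨a', rfl⟩ := hf a
            obtain ⟨b', rfl⟩ := hf b
            exact hab (by rw [h4, h4])
        · exact h1
      refine ⟨A ⊓ g.ker, inferInstance, ?_, ?_⟩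
      · rw [eq_top_iff]
        have h8 : ⁅A, g.ker⁆ ≤ A ⊓ g.ker := Subgroup.commutator_le_inf A g.ker
        have h9 : (⁅A, g.ker⁆).map f = ⊤ := by
          rw [Subgroup.map_commutator, hA1, hB, comm_top hT]
        rw [← h9]
        exact Subgroup.map_mono h8
      · intro g' hg'
        rcases Set.mem_insert_iff.1 hg' with rfl | hg'
        · exact inf_le_right
        · exact inf_le_left.trans (hA2 g' hg')
  obtain ⟨A, _, hA1, hA2⟩ := key
  have hx : x ∈ A.map f := by rw [hA1]; trivial
  obtain ⟨r, hr, hre⟩ := Subgroup.mem_map.1 hx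
  exact ⟨r, hre, fun g hg => MonoidHom.mem_ker.1 (hA2 g hg hr)⟩

/-- Row C. -/
theorem rowC {R T ι : Type*} [Group R] [Group T] [Finite T] [IsSimpleGroup T]
    (hT : ∃ x y : T, x * y ≠ y * x) (f : ι → R →* T) (B : Finset R) (a : R) (ha : a ∈ B)
    (hB : ∀ i, f i a = 1 ∨ ∀ x : T, ∃ b ∈ B, f i b = x) (i₀ : ι) (h₀ : f i₀ a ≠ 1) :
    ∃ u : R, ∀ j, f j u ≠ 1 ↔
      (f j a ≠ 1 ∧ ∀ r ∈ Subgroup.closure (B : Set R), (f j r = 1 ↔ f i₀ r = 1)) := by
  classical
  set H := Subgroup.closure (B : Set R) with hH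
  have hBH : ∀ b ∈ B, b ∈ H := fun b hb => Subgroup.subset_closure (by exact_mod_cast hb)
  let F : ι → H →* T := fun i => (f i).comp H.subtype
  have hsurj : ∀ i, f i a ≠ 1 → Function.Surjective (F i) := by
    intro i hi x
    rcases hB i with h | h
    · exact absurd h hi
    · obtain ⟨b, hb, hbe⟩ := h x
      exact ⟨⟨b, hBH b hb⟩, hbe⟩
  -- homomorphisms from H to T are finite in number
  have hfin : Finite (H →* T) := by
    refine Finite.of_injective (fun g : H →* T => fun b : B => g ⟨b.1, hBH b.1 b.2⟩) ?_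
    intro g g' hg
    ext ⟨r, hr⟩
    induction hr using Subgroup.closure_induction with
    | mem y hy => exact congrFun hg ⟨y, by exact_mod_cast hy⟩
    | one => exact (map_one g).trans (map_one g').symm
    | mul y z hy hz h1 h2 =>
      have e : (⟨y * z, mul_mem hy hz⟩ : H) = ⟨y, hy⟩ * ⟨z, hz⟩ := rfl
      rw [e, map_mul, map_mul, h1, h2]
    | inv y hy h1 =>
      have e : (⟨y⁻¹, inv_mem hy⟩ : H) = (⟨y, hy⟩ : H)⁻¹ := rfl
      rw [e, map_inv, map_inv, h1]
  let s : Set (H →* T) := {g | ∃ j, f j a ≠ 1 ∧ g = F j ∧ g.ker ≠ (F i₀).ker}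
  have hs : s.Finite := Set.toFinite s
  -- an element which does not commute with `f i₀ a`
  obtain ⟨x, hx⟩ : ∃ x : T, x * f i₀ a ≠ f i₀ a * x := by
    by_contra hc
    push Not at hc
    have hmem : f i₀ a ∈ Subgroup.center T := Subgroup.mem_center_iff.2 fun g => hc g
    have hn : (Subgroup.center T).Normal := inferInstance
    rcases hn.eq_bot_or_eq_top with h1 | h1
    · rw [h1, Subgroup.mem_bot] at hmem
      exact h₀ hmem
    · obtain ⟨y, z, hyz⟩ := hT
      have h2 : y ∈ Subgroup.center T := by rw [h1]; trivial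
      exact hyz (Subgroup.mem_center_iff.1 h2 z).symm
  obtain ⟨g, hg1, hg2⟩ := rowB hT (F i₀) (hsurj i₀ h₀) s hs (by
    rintro g ⟨j, hj, rfl, hk⟩
    exact ⟨hsurj j hj, hk⟩) x
  let a' : H := ⟨a, hBH a ha⟩
  let u : H := g * a' * g⁻¹ * a'⁻¹
  refine ⟨u, fun j => ?_⟩
  have hFj : ∀ (i : ι) (r : H), f i r = F i r := fun i r => rfl
  have hja : f j a = F j a' := rfl
  by_cases hj : f j a = 1
  · constructor
    · intro h1
      exfalso
      apply h1
      rw [hFj]
      change F j (g * a' * g⁻¹ * a'⁻¹) = 1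
      rw [map_mul, map_mul, map_mul, map_inv, map_inv, ← hja, hj]
      group
    · intro h1
      exact absurd hj h1.1
  · by_cases hk : (F j).ker = (F i₀).ker
    · have h1 : F i₀ u ≠ 1 := by
        change F i₀ (g * a' * g⁻¹ * a'⁻¹) ≠ 1
        rw [map_mul, map_mul, map_mul, map_inv, map_inv, hg1]
        intro h2
        apply hx
        have h3 : F i₀ a' = f i₀ a := rfl
        rw [h3] at h2
        have h4 := mul_inv_eq_one.1 h2
        have h5 := mul_inv_eq_iff_eq_mul.1 h4
        exact h5
      have h2 : F j u ≠ 1 := fun h3 => h1 (by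
        have h4 : u ∈ (F j).ker := h3
        rw [hk] at h4
        exact h4)
      refine ⟨fun _ => ⟨hj, fun r hr => ?_⟩, fun _ => h2⟩
      have h5 : (⟨r, hr⟩ : H) ∈ (F j).ker ↔ (⟨r, hr⟩ : H) ∈ (F i₀).ker := by rw [hk]
      exact h5
    · have h1 : F j g = 1 := hg2 (F j) ⟨j, hj, rfl, hk⟩
      constructor
      · intro h2
        exfalso
        apply h2
        rw [hFj]
        change F j (g * a' * g⁻¹ * a'⁻¹) = 1
        rw [map_mul, map_mul, map_mul, map_inv, map_inv, h1]
        group
      · intro h2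
        exfalso
        apply hk
        ext ⟨r, hr⟩
        exact h2.2 r hr

end Vale.Agent.P216.R2.H189.V2
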