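import Mathlib

/-!
# P216, rows E and F
-/

namespace Vale.Agent.P216.R2.H189.V2

/-- Row E. -/
theorem rowE (V : Set ℤ) (m : ℤ) (h : ∀ i, i + m ∈ V → i ∈ V) :
    {i | i ∈ V ∧ i + m ∉ V}.Finite := by
  rcases eq_or_ne m 0 with rfl | hm
  · convert Set.finite_empty using 1
    ext i
    simp
  have hk : ∀ (k : ℕ) (i : ℤ), i + k * m ∈ V → i ∈ V := by
    intro k
    induction k with
    | zero => intro i hi; simpa using hi
    | succ k ih =>
      intro i hi
      refine ih i (h _ ?_)
      have : i + (k : ℤ) * m + m = i + ((k + 1 : ℕ) : ℤ) * m := by push_cast; ring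
      rw [this]; exact hi
  have hlt : ∀ i j : ℤ, i ∈ V ∧ i + m ∉ V → j ∈ V ∧ j + m ∉ V → ∀ k : ℕ,
      j = i + (k + 1 : ℕ) * m → False := by
    intro i j hi hj k hkj
    apply hi.2
    refine hk k (i + m) ?_
    have : i + m + (k : ℤ) * m = j := by rw [hkj]; push_cast; ring
    rw [this]; exact hj.1
  refine Set.Finite.of_finite_image (f := fun i => i % m) ?_ ?_
  · refine (Set.finite_Ico (0 : ℤ) |m|).subset ?_
    rintro _ ⟨i, _, rfl⟩
    exact ⟨Int.emod_nonneg i hm, Int.emod_lt_abs i hm⟩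
  · intro i hi j hj hij
    obtain ⟨z, hz⟩ := Int.ModEq.dvd (show i ≡ j [ZMOD m] from hij)
    by_contra hne
    rcases lt_trichotomy z 0 with h0 | h0 | h0
    · obtain ⟨k, hk'⟩ : ∃ k : ℕ, -z = (k + 1 : ℕ) := ⟨(-z - 1).toNat, by push_cast; omega⟩
      refine hlt j i hj hi k ?_
      rw [← hk']
      linarith
    · apply hne
      rw [h0, mul_zero] at hz
      omega
    · obtain ⟨k, hk'⟩ : ∃ k : ℕ, z = (k + 1 : ℕ) := ⟨(z - 1).toNat, by push_cast; omega⟩
      refine hlt i j hi hj k ?_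
      rw [← hk']
      linarith

/-- Row F. -/
theorem rowF {R T : Type*} [Group R] [Group T] (σ : R ≃* R) (f : ℤ → R →* T)
    (hσ : ∀ i r, f i (σ r) = f (i + 1) r) (C : Set (Set ℤ)) (hC : C.Finite)
    (hfin : ∀ r : R, ∃ S ∈ C, ∃ m : ℤ, ∀ i, f i r ≠ 1 ↔ i + m ∈ S)
    (w : R) (hw : {i | f i w ≠ 1}.Finite) (hne : ∃ i, f i w ≠ 1) : False := by
  have hpow : ∀ (n : ℕ) (i : ℤ) (r : R), f i (σ^[n] r) = f (i + n) r := by
    intro n
    induction n with
    | zero => intro i r; simp
    | succ n ih =>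
      intro i r
      rw [Function.iterate_succ_apply', hσ, ih]
      congr 2
      push_cast
      ring
  obtain ⟨i₀, hi₀⟩ := hne
  have key : ∀ n : ℕ, ∃ r : R, {i | f i r ≠ 1}.Finite ∧ n ≤ {i | f i r ≠ 1}.ncard := by
    intro n
    induction n with
    | zero => exact ⟨w, hw, Nat.zero_le _⟩
    | succ n ih =>
      obtain ⟨r, hr, hrn⟩ := ih
      obtain ⟨M, hM⟩ := hr.bddBelow
      obtain ⟨L, hL⟩ := hw.bddAbove
      set N : ℕ := (L - M + 1).toNat with hN
      have hNL : L - M + 1 ≤ (N : ℤ) := Int.self_le_toNat _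
      have hdis : ∀ i, f i r ≠ 1 → f (i + N) w = 1 := by
        intro i hi
        by_contra hc
        have h1 : M ≤ i := hM hi
        have h2 : i + N ≤ L := hL hc
        omega
      have hmul : ∀ i, f i (r * σ^[N] w) = f i r * f (i + N) w := by
        intro i
        rw [map_mul, hpow]
      have hset : {i | f i (r * σ^[N] w) ≠ 1} =
          {i | f i r ≠ 1} ∪ {i | f (i + N) w ≠ 1} := by
        ext i
        show f i (r * σ^[N] w) ≠ 1 ↔ (f i r ≠ 1 ∨ f (i + N) w ≠ 1)
        rw [hmul]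
        by_cases hi : f i r = 1
        · rw [hi, one_mul]; simp
        · rw [hdis i hi, mul_one]; simp
      have hfin2 : {i : ℤ | f (i + N) w ≠ 1}.Finite := by
        have : {i : ℤ | f (i + N) w ≠ 1} = (fun i : ℤ => i + N) ⁻¹' {i | f i w ≠ 1} := rfl
        rw [this]
        exact hw.preimage (add_left_injective _).injOn
      refine ⟨r * σ^[N] w, ?_, ?_⟩
      · rw [hset]; exact hr.union hfin2
      · rw [hset, Set.ncard_union_eq ?_ hr hfin2]
        · have : 0 < {i : ℤ | f (i + N) w ≠ 1}.ncard := by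
            rw [Set.ncard_pos hfin2]
            refine ⟨i₀ - N, ?_⟩
            show f (i₀ - N + N) w ≠ 1
            rw [sub_add_cancel]
            exact hi₀
          omega
        · rw [Set.disjoint_left]
          intro i hi hi'
          exact hi' (hdis i hi)
  obtain ⟨r, hr, hrn⟩ := key (hC.toFinset.sup Set.ncard + 1)
  obtain ⟨S, hS, m, hm⟩ := hfin r
  have h1 : S = (fun i : ℤ => i + m) '' {i | f i r ≠ 1} := by
    ext x
    constructor
    · intro hx
      refine ⟨x - m, ?_, by simp⟩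
      show f (x - m) r ≠ 1
      rw [hm, sub_add_cancel]
      exact hx
    · rintro ⟨i, hi, rfl⟩
      exact (hm i).1 hi
  have h2 : S.ncard = {i | f i r ≠ 1}.ncard := by
    rw [h1, Set.ncard_image_of_injective _ (add_left_injective m)]
  have h3 : S.ncard ≤ hC.toFinset.sup Set.ncard :=
    Finset.le_sup (f := Set.ncard) (hC.mem_toFinset.2 hS)
  omega

end Vale.Agent.P216.R2.H189.V2
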