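import Mathlib

/-! Rows E and F -/

namespace Vale.Agent.P216.R2.H189.V2

theorem rowE (V : Set ℤ) (m : ℤ) (h : ∀ i, i + m ∈ V → i ∈ V) :
    {i | i ∈ V ∧ i + m ∉ V}.Finite := by
  by_cases hm : m = 0
  · subst hm
    have : {i : ℤ | i ∈ V ∧ i + 0 ∉ V} = ∅ := by
      ext i
      simp
    rw [this]
    exact Set.finite_empty
  · have hdown : ∀ (k : ℕ) (i : ℤ), i + ((k : ℤ) + 1) * m ∈ V → i + m ∈ V := by
      intro k
      induction k with
      | zero => intro i hi; simpa using hi
      | succ k ih =>
        intro i hi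
        apply ih
        apply h
        have e : i + ((k : ℤ) + 1) * m + m = i + (((k + 1 : ℕ) : ℤ) + 1) * m := by
          push_cast; ring
        rw [e]; exact hi
    refine Set.Finite.of_finite_image (f := fun i => i % m) ?_ ?_
    · apply (Set.finite_Ico (0 : ℤ) |m|).subset
      rintro _ ⟨i, -, rfl⟩
      exact ⟨Int.emod_nonneg i hm, Int.emod_lt_abs i hm⟩
    · intro i hi j hj hij
      by_contra hne
      obtain ⟨k, hk⟩ : ∃ k, j = i + k * m := by
        have hd : m ∣ j - i := Int.ModEq.dvd (show i ≡ j [ZMOD m] from hij)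
        obtain ⟨k, hk⟩ := hd
        exact ⟨k, by rw [mul_comm k m, ← hk]; ring⟩
      rcases lt_trichotomy k 0 with hk0 | hk0 | hk0
      · obtain ⟨n, rfl⟩ : ∃ n : ℕ, k = -((n : ℤ) + 1) := ⟨(-k - 1).toNat, by omega⟩
        apply hj.2
        apply hdown n j
        have e : j + ((n : ℤ) + 1) * m = i := by rw [hk]; ring
        rw [e]; exact hi.1
      · apply hne
        rw [hk, hk0]; ring
      · obtain ⟨n, rfl⟩ : ∃ n : ℕ, k = (n : ℤ) + 1 := ⟨(k - 1).toNat, by omega⟩
        apply hi.2
        apply hdown n i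
        rw [← hk]; exact hj.1

theorem rowF {R T : Type*} [Group R] [Group T] (σ : R ≃* R) (f : ℤ → R →* T)
    (hσ : ∀ i r, f i (σ r) = f (i + 1) r) (C : Set (Set ℤ)) (hC : C.Finite)
    (hfin : ∀ r : R, ∃ S ∈ C, ∃ m : ℤ, ∀ i, f i r ≠ 1 ↔ i + m ∈ S)
    (w : R) (hw : {i | f i w ≠ 1}.Finite) (hne : ∃ i, f i w ≠ 1) : False := by
  have hit : ∀ (n : ℕ) (i : ℤ) (r : R), f i (σ^[n] r) = f (i + n) r := by
    intro n
    induction n with
    | zero => intro i r; simp
    | succ n ih =>
      intro i r
      rw [Function.iterate_succ_apply', hσ, ih]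
      congr 2
      push_cast
      ring
  obtain ⟨N, hN⟩ := (hC.image Set.ncard).bddAbove
  have hbd : ∀ r : R, {i | f i r ≠ 1}.ncard ≤ N := by
    intro r
    obtain ⟨S, hS, m, hm⟩ := hfin r
    have h1 : S = (fun i => i + m) '' {i | f i r ≠ 1} := by
      ext j
      constructor
      · intro hj
        refine ⟨j - m, ?_, sub_add_cancel j m⟩
        change f (j - m) r ≠ 1
        rw [hm, sub_add_cancel]
        exact hj
      · rintro ⟨i, hi, rfl⟩
        exact (hm i).1 hi
    have h2 : S.ncard = {i | f i r ≠ 1}.ncard := by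
      rw [h1]
      exact Set.ncard_image_of_injective _ (add_left_injective m)
    rw [← h2]
    exact hN ⟨S, hS, rfl⟩
  have hgrow : ∀ n : ℕ, ∃ r : R, {i | f i r ≠ 1}.Finite ∧ n ≤ {i | f i r ≠ 1}.ncard := by
    intro n
    induction n with
    | zero => exact ⟨w, hw, Nat.zero_le _⟩
    | succ n ih =>
      obtain ⟨r, hr, hn⟩ := ih
      obtain ⟨M, hM⟩ := hw.bddAbove
      obtain ⟨K, hK⟩ := hr.bddBelow
      obtain ⟨l, hl⟩ : ∃ l : ℕ, M - K < l := ⟨(M - K + 1).toNat, by omega⟩
      have hdis : ∀ i, f i r ≠ 1 → f (i + l) w = 1 := by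
        intro i hi
        by_contra hc
        have h1 : K ≤ i := hK hi
        have h2 : i + l ≤ M := hM hc
        omega
      have hset : {i | f i (r * σ^[l] w) ≠ 1} = {i | f i r ≠ 1} ∪ {i | f (i + l) w ≠ 1} := by
        ext i
        simp only [Set.mem_union, Set.mem_ofPred_eq, map_mul, hit]
        constructor
        · intro h
          by_contra hc
          push Not at hc
          rw [hc.1, hc.2, mul_one] at h
          exact h rfl
        · rintro (h | h)
          · rw [hdis i h, mul_one]; exact h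
          · have : f i r = 1 := by
              by_contra hc
              exact h (hdis i hc)
            rw [this, one_mul]; exact h
      have hset2 : {i | f (i + l) w ≠ 1} = (fun i => i - (l : ℤ)) '' {i | f i w ≠ 1} := by
        ext j
        constructor
        · intro hj
          exact ⟨j + l, hj, add_sub_cancel_right j (l : ℤ)⟩
        · rintro ⟨i, hi, rfl⟩
          change f (i - l + l) w ≠ 1
          rw [sub_add_cancel]; exact hi
      have hfin2 : {i | f (i + l) w ≠ 1}.Finite := by
        rw [hset2]; exact hw.image _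
      refine ⟨r * σ^[l] w, ?_, ?_⟩
      · rw [hset]; exact hr.union hfin2
      · rw [hset, Set.ncard_union_eq ?_ hr hfin2]
        · have h3 : 0 < {i | f (i + l) w ≠ 1}.ncard := by
            rw [Set.ncard_pos hfin2]
            obtain ⟨i, hi⟩ := hne
            refine ⟨i - l, ?_⟩
            change f (i - l + l) w ≠ 1
            rw [sub_add_cancel]; exact hi
          omega
        · rw [Set.disjoint_left]
          intro i hi hi'
          exact hi' (hdis i hi)
  obtain ⟨r, -, hr⟩ := hgrow (N + 1)
  have := hbd r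
  omega

end Vale.Agent.P216.R2.H189.V2
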