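import Mathlib

set_option linter.all false

namespace Vale.Agent.P216.R2.H189.V2

/-- Row E. -/
theorem rowE (V : Set ℤ) (m : ℤ) (h : ∀ i, i + m ∈ V → i ∈ V) :
    {i | i ∈ V ∧ i + m ∉ V}.Finite := by
  by_cases hm0 : m = 0
  · subst hm0
    convert Set.finite_empty
    ext i
    simp
  have hk : ∀ (k : ℕ) (i : ℤ), i + k * m ∈ V → i ∈ V := by
    intro k
    induction k with
    | zero => intro i hi; simpa using hi
    | succ k ih =>
      intro i hi
      refine ih i (h _ ?_)
      have : i + k * m + m = i + ((k + 1 : ℕ) : ℤ) * m := by push_cast; ring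
      rw [this]
      exact hi
  -- two elements in the same class coincide
  have hinj : Set.InjOn (fun i : ℤ => i % m) {i | i ∈ V ∧ i + m ∉ V} := by
    intro i hi j hj hij
    have hd : m ∣ j - i := Int.ModEq.dvd hij
    obtain ⟨c, hc⟩ := hd
    rcases lt_trichotomy c 0 with h1 | h1 | h1
    · exfalso
      -- i = j + (-c) * m
      refine hj.2 (hk (-c - 1).toNat (j + m) ?_)
      have h2 : (((-c - 1).toNat : ℕ) : ℤ) = -c - 1 := Int.toNat_of_nonneg (by omega)
      rw [h2]
      have h3 : j + m + (-c - 1) * m = i := by linear_combination hc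
      rw [h3]
      exact hi.1
    · rw [h1, mul_zero] at hc
      omega
    · exfalso
      refine hi.2 (hk (c - 1).toNat (i + m) ?_)
      have h2 : (((c - 1).toNat : ℕ) : ℤ) = c - 1 := Int.toNat_of_nonneg (by omega)
      rw [h2]
      have h3 : i + m + (c - 1) * m = j := by linear_combination -hc
      rw [h3]
      exact hj.1
  refine Set.Finite.of_finite_image ?_ hinj
  refine (Set.finite_Ico (0 : ℤ) |m|).subset ?_
  rintro _ ⟨i, _, rfl⟩
  exact ⟨Int.emod_nonneg _ hm0, Int.emod_lt_abs _ hm0⟩

end Vale.Agent.P216.R2.H189.V2
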