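import Mathlib.Data.Set.Finite.Lattice
import Mathlib.Data.Set.Card
import Mathlib.Data.Int.Interval
import Mathlib.Order.Interval.Set.Basic
import Mathlib.Algebra.Group.Hom.Basic
import Mathlib.Algebra.Group.Equiv.Basic
import Mathlib.Tactic

/-!
P216 (helper548): row E.
-/

namespace Vale.Agent.P216.R2.H189.V2

private lemma down (V : Set ℤ) (m : ℤ) (h : ∀ i, i + m ∈ V → i ∈ V) (k : ℕ) :
    ∀ i : ℤ, i + k * m ∈ V → i ∈ V := by
  induction k with
  | zero => intro i hi; simpa using hi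
  | succ k ih =>
    intro i hi
    apply ih
    apply h
    have e : i + (k : ℤ) * m + m = i + ((k + 1 : ℕ) : ℤ) * m := by push_cast; ring
    rw [e]; exact hi

/-- Row E. -/
theorem rowE (V : Set ℤ) (m : ℤ) (h : ∀ i, i + m ∈ V → i ∈ V) :
    {i | i ∈ V ∧ i + m ∉ V}.Finite := by
  rcases eq_or_ne m 0 with rfl | hm
  · have e : {i : ℤ | i ∈ V ∧ i + 0 ∉ V} = ∅ := by
      ext i; simp
    rw [e]; exact Set.finite_empty
  · have key : ∀ i ∈ {i | i ∈ V ∧ i + m ∉ V}, ∀ j ∈ {i | i ∈ V ∧ i + m ∉ V},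
        ∀ k : ℕ, j = i + ((k + 1 : ℕ) : ℤ) * m → False := by
      intro i hi j hj k e
      apply hi.2
      apply down V m h k
      have e' : i + m + (k : ℤ) * m = j := by rw [e]; push_cast; ring
      rw [e']; exact hj.1
    apply Set.Finite.of_finite_image (f := fun i : ℤ => i % m)
    · apply (Set.finite_Ico (0 : ℤ) |m|).subset
      rintro _ ⟨i, _, rfl⟩
      exact ⟨Int.emod_nonneg _ hm, Int.emod_lt_abs _ hm⟩
    · intro i hi j hj hij
      simp only at hij
      have hd : m ∣ j - i :=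
        Int.dvd_of_emod_eq_zero (Int.emod_eq_emod_iff_emod_sub_eq_zero.mp hij.symm)
      obtain ⟨k, hk⟩ := hd
      rcases lt_trichotomy k 0 with hk0 | hk0 | hk0
      · exfalso
        obtain ⟨n, hn⟩ : ∃ n : ℕ, -k = ((n + 1 : ℕ) : ℤ) := ⟨(-k).toNat - 1, by omega⟩
        apply key j hj i hi n
        rw [← hn]
        linarith
      · rw [hk0] at hk; linarith
      · exfalso
        obtain ⟨n, hn⟩ : ∃ n : ℕ, k = ((n + 1 : ℕ) : ℤ) := ⟨k.toNat - 1, by omega⟩
        apply key i hi j hj n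
        rw [← hn]
        linarith

end Vale.Agent.P216.R2.H189.V2
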