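import Mathlib

set_option linter.all false

namespace Vale.Agent.P216.R2.H189.V2

/-- Row F. -/
theorem rowF {R T : Type*} [Group R] [Group T] (σ : R ≃* R) (f : ℤ → R →* T)
    (hσ : ∀ i r, f i (σ r) = f (i + 1) r) (C : Set (Set ℤ)) (hC : C.Finite)
    (hfin : ∀ r : R, ∃ S ∈ C, ∃ m : ℤ, ∀ i, f i r ≠ 1 ↔ i + m ∈ S)
    (w : R) (hw : {i | f i w ≠ 1}.Finite) (hne : ∃ i, f i w ≠ 1) : False := by
  have hσn : ∀ (n : ℕ) (i : ℤ) (r : R), f i ((σ ^ n) r) = f (i + n) r := by
    intro n
    induction n with
    | zero => intro i r; simp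
    | succ n ih =>
      intro i r
      rw [pow_succ', MulAut.mul_apply, hσ, ih]
      congr 1
      push_cast
      ring_nf
  -- elements of large finite support
  have main : ∀ n : ℕ, ∃ r : R, {i | f i r ≠ 1}.Finite ∧ n ≤ {i | f i r ≠ 1}.ncard := by
    intro n
    induction n with
    | zero => exact ⟨w, hw, Nat.zero_le _⟩
    | succ n ih =>
      obtain ⟨r, hr, hn⟩ := ih
      -- a translate of the support of w which avoids the support of r
      obtain ⟨N, hN⟩ : ∃ N : ℕ, ∀ i, f i r ≠ 1 → f (i + N) w = 1 := by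
        obtain ⟨a, ha⟩ := hr.bddBelow
        obtain ⟨b, hb⟩ := hw.bddAbove
        refine ⟨(b - a + 1).toNat, fun i hi => ?_⟩
        by_contra hc
        have h1 := ha hi
        have h2 := hb hc
        have h3 := Int.self_le_toNat (b - a + 1)
        omega
      obtain ⟨i₀, hi₀⟩ := hne
      have hval : ∀ i, f i (r * (σ ^ N) w) = f i r * f (i + N) w := by
        intro i
        rw [map_mul, hσn]
      have hsub : {i | f i (r * (σ ^ N) w) ≠ 1} ⊆
          {i | f i r ≠ 1} ∪ (fun i : ℤ => i + N) ⁻¹' {i | f i w ≠ 1} := by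
        intro i hi
        by_contra hc
        rw [Set.mem_union, not_or] at hc
        have h1 : f i r = 1 := not_not.1 hc.1
        have h2 : f (i + N) w = 1 := not_not.1 hc.2
        exact hi (by rw [hval, h1, h2, one_mul])
      have hinj : Function.Injective (fun i : ℤ => i + (N : ℤ)) := fun a b h => by
        simpa using h
      have hfin1 : ((fun i : ℤ => i + N) ⁻¹' {i | f i w ≠ 1}).Finite :=
        hw.preimage hinj.injOn
      have hF : {i | f i (r * (σ ^ N) w) ≠ 1}.Finite := (hr.union hfin1).subset hsub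
      refine ⟨r * (σ ^ N) w, hF, ?_⟩
      -- the point i₀ - N is new
      have hnew : f (i₀ - N) r = 1 := by
        by_contra hc
        have h1 := hN _ hc
        rw [sub_add_cancel] at h1
        exact hi₀ h1
      have hins : insert (i₀ - (N : ℤ)) {i | f i r ≠ 1} ⊆ {i | f i (r * (σ ^ N) w) ≠ 1} := by
        intro i hi
        rcases Set.mem_insert_iff.1 hi with rfl | hi
        · change f _ _ ≠ 1
          rw [hval, hnew, one_mul, sub_add_cancel]
          exact hi₀
        · change f _ _ ≠ 1
          rw [hval, hN i hi, mul_one]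
          exact hi
      have h2 := Set.ncard_le_ncard hins hF
      rw [Set.ncard_insert_of_notMem (by simp [hnew]) hr] at h2
      omega
  -- bound from the finitely many types
  obtain ⟨M, hM⟩ : ∃ M : ℕ, ∀ S ∈ C, S.ncard ≤ M := by
    obtain ⟨M, hM⟩ := (hC.image Set.ncard).bddAbove
    exact ⟨M, fun S hS => hM ⟨S, hS, rfl⟩⟩
  obtain ⟨r, hr, hn⟩ := main (M + 1)
  obtain ⟨S, hS, m, hm⟩ := hfin r
  have hSe : S = (fun i : ℤ => i + m) '' {i | f i r ≠ 1} := by
    ext k
    constructor
    · intro hk
      refine ⟨k - m, ?_, by simp⟩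
      exact (hm (k - m)).2 (by simpa using hk)
    · rintro ⟨i, hi, rfl⟩
      exact (hm i).1 hi
  have hcard : S.ncard = {i | f i r ≠ 1}.ncard := by
    rw [hSe]
    exact Set.ncard_image_of_injective _ fun a b h => by simpa using h
  have := hM S hS
  omega

end Vale.Agent.P216.R2.H189.V2
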