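import Mathlib.Data.Set.Finite.Lattice
import Mathlib.Data.Set.Card
import Mathlib.Data.Int.Interval
import Mathlib.Order.Interval.Set.Basic
import Mathlib.Algebra.Group.Hom.Basic
import Mathlib.Algebra.Group.Equiv.Basic
import Mathlib.Tactic

/-!
P216 (helper548): row F.
-/

namespace Vale.Agent.P216.R2.H189.V2

/-- Row F. -/
theorem rowF {R T : Type*} [Group R] [Group T] (σ : R ≃* R) (f : ℤ → R →* T)
    (hσ : ∀ i r, f i (σ r) = f (i + 1) r) (C : Set (Set ℤ)) (hC : C.Finite)
    (hfin : ∀ r : R, ∃ S ∈ C, ∃ m : ℤ, ∀ i, f i r ≠ 1 ↔ i + m ∈ S)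
    (w : R) (hw : {i | f i w ≠ 1}.Finite) (hne : ∃ i, f i w ≠ 1) : False := by
  have hpow : ∀ (N : ℕ) (i : ℤ) (r : R), f i ((σ^[N]) r) = f (i + N) r := by
    intro N
    induction N with
    | zero => intro i r; simp
    | succ N ih =>
      intro i r
      rw [Function.iterate_succ_apply', hσ, ih]
      have e : i + 1 + (N : ℤ) = i + ((N + 1 : ℕ) : ℤ) := by push_cast; ring
      rw [e]
  have key : ∀ n : ℕ, ∃ w : R, {i | f i w ≠ 1}.Finite ∧ n + 1 ≤ {i | f i w ≠ 1}.ncard := by
    intro n
    induction n with
    | zero =>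
      refine ⟨w, hw, ?_⟩
      rw [zero_add]
      exact (Set.ncard_pos hw).mpr hne
    | succ n ih =>
      obtain ⟨v, hv, hn⟩ := ih
      obtain ⟨b, hb⟩ := hv.bddAbove
      obtain ⟨c, hc⟩ := hv.bddBelow
      have hne' : {i | f i v ≠ 1}.Nonempty := by
        rw [← Set.ncard_pos hv]; omega
      set N : ℕ := (b - c + 1).toNat with hN
      have hNle : b - c + 1 ≤ (N : ℤ) := Int.self_le_toNat _
      have hsupp : {i | f i (v * (σ^[N]) v) ≠ 1} =
          {i | f i v ≠ 1} ∪ (fun i : ℤ => i - N) '' {i | f i v ≠ 1} := by
        ext i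
        have hdisj : f i v ≠ 1 → f (i + N) v = 1 := by
          intro h1
          by_contra h2
          have h3 := hb (show f (i + N) v ≠ 1 from h2)
          have h4 := hc (show f i v ≠ 1 from h1)
          linarith
        simp only [Set.mem_ofPred_eq, Set.mem_union, Set.mem_image, map_mul, hpow]
        constructor
        · intro h1
          by_cases h2 : f i v = 1
          · right
            refine ⟨i + N, ?_, by ring⟩
            rw [h2, one_mul] at h1
            exact h1
          · left; exact h2
        · rintro (h1 | ⟨j, h1, rfl⟩)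
          · rw [hdisj h1, mul_one]; exact h1
          · have h5 : f (j - N) v = 1 := by
              by_contra h2
              have h6 := hdisj h2
              rw [sub_add_cancel] at h6
              exact h1 h6
            rw [h5, one_mul, sub_add_cancel]; exact h1
      have hinj : Function.Injective (fun i : ℤ => i - (N : ℤ)) := fun i j h => by
        simpa using h
      have hfin2 : ((fun i : ℤ => i - (N : ℤ)) '' {i | f i v ≠ 1}).Finite := hv.image _
      refine ⟨v * (σ^[N]) v, ?_, ?_⟩
      · rw [hsupp]; exact hv.union hfin2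
      · rw [hsupp, Set.ncard_union_eq _ hv hfin2, Set.ncard_image_of_injective _ hinj]
        · omega
        · rw [Set.disjoint_left]
          rintro i hi ⟨j, hj, rfl⟩
          have h3 := hb hj
          have h4 := hc hi
          simp only at h4
          linarith
  obtain ⟨B, hB⟩ := (hC.image Set.ncard).bddAbove
  obtain ⟨v, hv, hn⟩ := key B
  obtain ⟨S, hS, m, hm⟩ := hfin v
  have e : (fun i : ℤ => i + m) '' {i | f i v ≠ 1} = S := by
    ext i
    constructor
    · rintro ⟨j, hj, rfl⟩
      exact (hm j).mp hj
    · intro hi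
      refine ⟨i - m, (hm (i - m)).mpr (by simpa using hi), by simp⟩
  have hcard : S.ncard = {i | f i v ≠ 1}.ncard := by
    rw [← e]
    exact Set.ncard_image_of_injective _ (add_left_injective m)
  have := hB ⟨S, hS, rfl⟩
  omega

end Vale.Agent.P216.R2.H189.V2
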