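import Mathlib

set_option linter.all false

namespace Vale.Agent.P216.R2.H189.V2

/-- Row G. -/
theorem rowG {G : Type*} [Group G] (R : Subgroup G) [R.Normal] (t : G)
    (hgen : ∀ g : G, ∃ n : ℤ, g * t ^ n ∈ R)
    (hres : ∀ N : Subgroup G, N.FiniteIndex → R ≤ N) {T : Type*} [Group T] [Finite T]
    (hT : ∃ x y : T, x * y ≠ y * x) (φ : R →* T) (hφ : Function.Surjective φ) (i j : ℤ)
    (h : ∀ r : R, φ (MulAut.conjNormal (t ^ i) r) = 1 ↔ φ (MulAut.conjNormal (t ^ j) r) = 1) :
    i = j := by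
  by_contra hij
  have hmul : ∀ (a b : G) (r : R), MulAut.conjNormal (a * b) r =
      MulAut.conjNormal a (MulAut.conjNormal b r) := by
    intro a b r
    rw [map_mul, MulAut.mul_apply]
  have hone : ∀ r : R, MulAut.conjNormal (1 : G) r = r := by
    intro r
    rw [map_one, MulAut.one_apply]
  set m : ℤ := j - i with hm
  have hm0 : m ≠ 0 := sub_ne_zero.2 fun h => hij h.symm
  have hA : ∀ r : R, φ (MulAut.conjNormal (t ^ m) r) = 1 ↔ φ r = 1 := by
    intro r
    have h1 := h (MulAut.conjNormal (t ^ (-i)) r)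
    rw [← hmul, ← hmul, ← zpow_add, ← zpow_add, add_neg_cancel, zpow_zero, hone,
      ← sub_eq_add_neg] at h1
    exact h1.symm
  have hq : ∀ (q : ℤ) (r : R), φ (MulAut.conjNormal (t ^ (m * q)) r) = 1 ↔ φ r = 1 := by
    intro q
    induction q using Int.induction_on with
    | zero =>
      intro r
      rw [mul_zero, zpow_zero, hone]
    | succ k ih =>
      intro r
      rw [mul_add, mul_one, add_comm, zpow_add, hmul, hA, ih]
    | pred k ih =>
      intro r
      rw [← hA, ← hmul, ← zpow_add]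
      have : m + m * (-(k : ℤ) - 1) = m * (-(k : ℤ)) := by ring
      rw [this, ih]
  -- the values
  have hfac : ∀ g : G, ∃ (l : Set.Ico (0 : ℤ) |m|) (β : T → T), ∀ r : R,
      φ (MulAut.conjNormal g r) = β (φ (MulAut.conjNormal (t ^ (l : ℤ)) r)) := by
    intro g
    obtain ⟨n, hn⟩ := hgen g
    have hl : (-n) % m ∈ Set.Ico (0 : ℤ) |m| := ⟨Int.emod_nonneg _ hm0, Int.emod_lt_abs _ hm0⟩
    have hg : g = (g * t ^ n) * t ^ (-n) := by group
    have hdiv : -n = m * ((-n) / m) + (-n) % m := (Int.mul_ediv_add_emod (-n) m).symm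
    have hker : ∀ r : R, φ (MulAut.conjNormal (t ^ ((-n) % m)) r) = 1 →
        φ (MulAut.conjNormal g r) = 1 := by
      intro r hr
      have h1 : φ (MulAut.conjNormal (t ^ (-n)) r) = 1 := by
        rw [hdiv, zpow_add, hmul, hq]
        exact hr
      have h2 : MulAut.conjNormal g r =
          ⟨g * t ^ n, hn⟩ * MulAut.conjNormal (t ^ (-n)) r * (⟨g * t ^ n, hn⟩ : R)⁻¹ := by
        apply Subtype.ext
        simp only [MulAut.conjNormal_apply, Subgroup.coe_mul, InvMemClass.coe_inv]
        group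
      rw [h2, map_mul, map_mul, h1, mul_one, ← map_mul, mul_inv_cancel, map_one]
    classical
    refine ⟨⟨_, hl⟩, fun x => if hx : ∃ r : R, φ (MulAut.conjNormal (t ^ ((-n) % m)) r) = x then
      φ (MulAut.conjNormal g hx.choose) else 1, fun r => ?_⟩
    have hx : ∃ r' : R, φ (MulAut.conjNormal (t ^ ((-n) % m)) r') =
      φ (MulAut.conjNormal (t ^ ((-n) % m)) r) := ⟨r, rfl⟩
    simp only
    rw [dif_pos hx]
    have h3 := hx.choose_spec
    have h4 := hker (r * hx.choose⁻¹) (by
      rw [map_mul, map_mul, map_inv, map_inv, h3, mul_inv_cancel])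
    rw [map_mul, map_mul, map_inv, map_inv, mul_inv_eq_one] at h4
    exact h4
  -- the stabilizer
  let S : Subgroup G :=
    { carrier := {g | ∀ r : R, φ (MulAut.conjNormal g r) = φ r}
      mul_mem' := by
        intro a b ha hb r
        rw [hmul, ha, hb]
      one_mem' := by
        intro r
        rw [hone]
      inv_mem' := by
        intro a ha r
        rw [← ha, ← hmul, mul_inv_cancel, hone] }
  choose l β hlβ using hfac
  have hS : ∀ a b : G, l a⁻¹ = l b⁻¹ → β a⁻¹ = β b⁻¹ → a⁻¹ * b ∈ S := by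
    intro a b h1 h2 r
    rw [hmul, hlβ, h1, h2, ← hlβ, ← hmul, inv_mul_cancel, hone]
  have : Finite (G ⧸ S) := by
    have hfin : Finite (Set.Ico (0 : ℤ) |m| × (T → T)) := inferInstance
    refine Finite.of_injective (fun q : G ⧸ S => (l (Quotient.out q)⁻¹, β (Quotient.out q)⁻¹)) ?_
    intro q q' hqq
    rw [Prod.mk.injEq] at hqq
    have h1 := hS _ _ hqq.1 hqq.2
    rw [← QuotientGroup.out_eq' q, ← QuotientGroup.out_eq' q']
    exact QuotientGroup.eq.2 h1
  have hSf : S.FiniteIndex := Subgroup.finiteIndex_of_finite_quotient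
  have hRS := hres S hSf
  obtain ⟨x, y, hxy⟩ := hT
  obtain ⟨a, rfl⟩ := hφ x
  obtain ⟨b, rfl⟩ := hφ y
  refine hxy ?_
  have h1 : φ (MulAut.conjNormal (a : G) b) = φ b := hRS a.2 b
  have h2 : MulAut.conjNormal (a : G) b = a * b * a⁻¹ := by
    apply Subtype.ext
    simp only [MulAut.conjNormal_apply, Subgroup.coe_mul, InvMemClass.coe_inv]
  rw [h2, map_mul, map_inv, mul_inv_eq_iff_eq_mul] at h1
  rw [← map_mul, h1]

end Vale.Agent.P216.R2.H189.V2
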