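import Mathlib

namespace Vale.Agent.P216.R2.H189.V2

theorem rowG {G : Type*} [Group G] (R : Subgroup G) [R.Normal] (t : G)
    (hgen : ∀ g : G, ∃ n : ℤ, g * t ^ n ∈ R)
    (hres : ∀ N : Subgroup G, N.FiniteIndex → R ≤ N) {T : Type*} [Group T] [Finite T]
    (hT : ∃ x y : T, x * y ≠ y * x) (φ : R →* T) (hφ : Function.Surjective φ) (i j : ℤ)
    (h : ∀ r : R, φ (MulAut.conjNormal (t ^ i) r) = 1 ↔ φ (MulAut.conjNormal (t ^ j) r) = 1) :
    i = j := by
  classical
  by_contra hij
  have hc : ∀ (g k : G) (r : R),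
      MulAut.conjNormal (g * k) r = MulAut.conjNormal g (MulAut.conjNormal k r) := by
    intro g k r
    rw [map_mul]
    rfl
  have hc1 : ∀ r : R, MulAut.conjNormal (1 : G) r = r := by
    intro r
    rw [map_one]
    rfl
  have hs : ∀ (s : R) (r : R), φ (MulAut.conjNormal (s : G) r) = φ s * φ r * (φ s)⁻¹ := by
    intro s r
    have : MulAut.conjNormal (s : G) r = s * r * s⁻¹ := by
      ext
      simp [MulAut.conjNormal_apply]
    rw [this, map_mul, map_mul, map_inv]
  let P : AddSubgroup ℤ :=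
    { carrier := {n | ∀ r : R, φ (MulAut.conjNormal (t ^ n) r) = 1 ↔ φ r = 1}
      zero_mem' := by
        intro r
        rw [zpow_zero, hc1]
      add_mem' := by
        intro a b ha hb r
        rw [zpow_add, hc]
        exact (ha _).trans (hb r)
      neg_mem' := by
        intro a ha r
        have h1 := ha (MulAut.conjNormal (t ^ (-a)) r)
        rw [← hc, ← zpow_add, add_neg_cancel, zpow_zero, hc1] at h1
        exact h1.symm }
  have hP : j - i ∈ P := by
    intro r
    have h1 := h (MulAut.conjNormal (t ^ (-i)) r)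
    rw [← hc, ← hc, ← zpow_add, ← zpow_add, add_neg_cancel, zpow_zero, hc1,
      ← sub_eq_add_neg] at h1
    exact h1.symm
  obtain ⟨m, hm⟩ : ∃ m, m = j - i := ⟨_, rfl⟩
  rw [← hm] at hP
  have hm0 : m ≠ 0 := by omega
  have hPq : ∀ q : ℤ, m * q ∈ P := by
    intro q
    have := P.zsmul_mem hP q
    rwa [smul_eq_mul, mul_comm] at this
  have key : ∀ g : G, ∃ l : Fin m.natAbs, ∃ β : T → T, ∀ r : R,
      φ (MulAut.conjNormal g r) = β (φ (MulAut.conjNormal (t ^ ((l : ℕ) : ℤ)) r)) := by
    intro g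
    obtain ⟨k, hk⟩ := hgen g
    have hl0 : 0 ≤ (-k) % m := Int.emod_nonneg _ hm0
    have hl1 : (-k) % m < |m| := Int.emod_lt_abs _ hm0
    have hl2 : (((-k) % m).toNat : ℤ) = (-k) % m := Int.toNat_of_nonneg hl0
    refine ⟨⟨((-k) % m).toNat, by rw [← Int.natCast_natAbs] at hl1; omega⟩, ?_⟩
    change ∃ β : T → T, ∀ r : R,
      φ (MulAut.conjNormal g r) = β (φ (MulAut.conjNormal (t ^ ((((-k) % m).toNat : ℕ) : ℤ)) r))
    rw [hl2]
    set l := (-k) % m with hl
    have hker : ∀ u : R, φ (MulAut.conjNormal (t ^ l) u) = 1 → φ (MulAut.conjNormal g u) = 1 := by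
      intro u hu
      have e1 : g = ((⟨g * t ^ k, hk⟩ : R) : G) * (t ^ (m * (-k / m)) * t ^ l) := by
        change g = (g * t ^ k) * (t ^ (m * (-k / m)) * t ^ l)
        rw [← zpow_add, hl, Int.mul_ediv_add_emod, mul_assoc, ← zpow_add, add_neg_cancel,
          zpow_zero, mul_one]
      rw [e1, hc, hs, hc]
      have h2 := (hPq (-k / m) (MulAut.conjNormal (t ^ l) u)).2 hu
      rw [h2]
      simp
    have hsurj : Function.Surjective (fun r : R => φ (MulAut.conjNormal (t ^ l) r)) :=
      hφ.comp (MulAut.conjNormal (t ^ l)).surjective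
    choose ρ hρ using hsurj
    refine ⟨fun x => φ (MulAut.conjNormal g (ρ x)), fun r => ?_⟩
    have h3 := hρ (φ (MulAut.conjNormal (t ^ l) r))
    have h4 := hker (r * (ρ (φ (MulAut.conjNormal (t ^ l) r)))⁻¹) (by
      rw [map_mul, map_mul, map_inv, map_inv]
      change φ (MulAut.conjNormal (t ^ l) (ρ (φ (MulAut.conjNormal (t ^ l) r)))) = _ at h3
      rw [h3, mul_inv_cancel])
    rw [map_mul, map_mul, map_inv, map_inv, mul_inv_eq_one] at h4
    exact h4
  let C : Subgroup G :=
    { carrier := {g | ∀ r : R, φ (MulAut.conjNormal g r) = φ r}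
      one_mem' := by
        intro r
        rw [hc1]
      mul_mem' := by
        intro a b ha hb r
        rw [hc]
        exact (ha _).trans (hb r)
      inv_mem' := by
        intro a ha r
        have h1 := ha (MulAut.conjNormal a⁻¹ r)
        rw [← hc, mul_inv_cancel, hc1] at h1
        exact h1.symm }
  let A : (Fin m.natAbs × (T → T)) → (R → T) := fun p r =>
    p.2 (φ (MulAut.conjNormal (t ^ ((p.1 : ℕ) : ℤ)) r))
  have hA : ∀ g : G, (fun r : R => φ (MulAut.conjNormal g r)) ∈ Set.range A := by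
    intro g
    obtain ⟨l, β, hβ⟩ := key g
    exact ⟨(l, β), funext fun r => (hβ r).symm⟩
  have hfin : Finite (G ⧸ C) := by
    have hrange : Finite (Set.range A) := Set.finite_range A
    refine Finite.of_injective
      (fun q : G ⧸ C => (⟨fun r : R => φ (MulAut.conjNormal (q.out)⁻¹ r), hA _⟩ : Set.range A)) ?_
    intro q q' hqq
    have h1 : (fun r : R => φ (MulAut.conjNormal (q.out)⁻¹ r)) =
        fun r : R => φ (MulAut.conjNormal (q'.out)⁻¹ r) := congrArg Subtype.val hqq
    rw [← q.out_eq', ← q'.out_eq']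
    refine QuotientGroup.eq.2 ?_
    intro r
    have h2 := congrFun h1 (MulAut.conjNormal q'.out r)
    simp only [← hc] at h2
    rw [h2, inv_mul_cancel, hc1]
  have hCi : C.FiniteIndex := Subgroup.finiteIndex_of_finite_quotient
  have hRC : R ≤ C := hres C hCi
  obtain ⟨x, y, hxy⟩ := hT
  obtain ⟨a, rfl⟩ := hφ x
  obtain ⟨b, rfl⟩ := hφ y
  have h5 : φ (MulAut.conjNormal (a : G) b) = φ b := hRC a.2 b
  rw [hs, mul_inv_eq_iff_eq_mul] at h5
  exact hxy h5

end Vale.Agent.P216.R2.H189.V2
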