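import Mathlib

/-!
# P216, row G for PerfectResidual v2
-/

namespace Vale.Agent.P216.R2.H189.V2

/-- Row G. -/
theorem rowG {G : Type*} [Group G] (R : Subgroup G) [R.Normal] (t : G)
    (hgen : ∀ g : G, ∃ n : ℤ, g * t ^ n ∈ R)
    (hres : ∀ N : Subgroup G, N.FiniteIndex → R ≤ N) {T : Type*} [Group T] [Finite T]
    (hT : ∃ x y : T, x * y ≠ y * x) (φ : R →* T) (hφ : Function.Surjective φ) (i j : ℤ)
    (h : ∀ r : R, φ (MulAut.conjNormal (t ^ i) r) = 1 ↔ φ (MulAut.conjNormal (t ^ j) r) = 1) :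
    i = j := by
  by_contra hij
  let c : G →* MulAut R := MulAut.conjNormal
  have hc : ∀ (a b : G) (r : R), c (a * b) r = c a (c b r) := fun a b r => by
    rw [map_mul, MulAut.mul_apply]
  have hcR : ∀ (s r : R), c (s : G) r = s * r * s⁻¹ := fun s r => by
    apply Subtype.ext
    simp [c, MulAut.conjNormal_apply]
  have h' : ∀ r : R, φ (c (t ^ i) r) = 1 ↔ φ (c (t ^ j) r) = 1 := h
  set m : ℤ := j - i with hm
  have hm0 : m ≠ 0 := fun h0 => hij (by omega)
  -- the kernels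
  have hker : ∀ r : R, φ r = 1 ↔ φ (c (t ^ m) r) = 1 := by
    intro r
    have h1 := h' (c (t ^ (-i)) r)
    rw [← hc, ← hc, ← zpow_add, ← zpow_add, add_neg_cancel, zpow_zero, map_one,
      MulAut.one_apply] at h1
    exact h1
  -- factoring
  have hfac : ∀ ψ : R →* T, (∀ r, φ r = 1 → ψ r = 1) → ∃ β : T → T, ∀ r, ψ r = β (φ r) := by
    intro ψ hψ
    refine ⟨fun x => ψ (Function.surjInv hφ x), fun r => ?_⟩
    have h1 : φ (r * (Function.surjInv hφ (φ r))⁻¹) = 1 := by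
      rw [map_mul, map_inv, Function.surjInv_eq hφ, mul_inv_cancel]
    have h2 := hψ _ h1
    rw [map_mul, map_inv, mul_inv_eq_one] at h2
    exact h2
  have hstep : ∃ β : T → T, ∀ r, φ (c (t ^ m) r) = β (φ r) :=
    hfac (φ.comp (c (t ^ m)).toMonoidHom) fun r hr => (hker r).1 hr
  have hstep' : ∃ β : T → T, ∀ r, φ (c (t ^ (-m)) r) = β (φ r) := by
    refine hfac (φ.comp (c (t ^ (-m))).toMonoidHom) fun r hr => ?_
    change φ (c (t ^ (-m)) r) = 1
    rw [hker, ← hc, ← zpow_add, add_neg_cancel, zpow_zero, map_one, MulAut.one_apply]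
    exact hr
  have hpow : ∀ q : ℕ, (∃ β : T → T, ∀ r, φ (c (t ^ (m * q)) r) = β (φ r)) ∧
      ∃ β : T → T, ∀ r, φ (c (t ^ (-(m * q))) r) = β (φ r) := by
    intro q
    induction q with
    | zero => exact ⟨⟨id, fun r => by simp⟩, ⟨id, fun r => by simp⟩⟩
    | succ q ih =>
      obtain ⟨⟨β, hβ⟩, ⟨γ, hγ⟩⟩ := ih
      obtain ⟨β', hβ'⟩ := hstep
      obtain ⟨γ', hγ'⟩ := hstep'
      refine ⟨⟨β' ∘ β, fun r => ?_⟩, ⟨γ' ∘ γ, fun r => ?_⟩⟩
      · have e : m * ((q + 1 : ℕ) : ℤ) = m + m * q := by push_cast; ring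
        rw [e, zpow_add, hc, hβ', hβ]
        rfl
      · have e : -(m * ((q + 1 : ℕ) : ℤ)) = -m + -(m * q) := by push_cast; ring
        rw [e, zpow_add, hc, hγ', hγ]
        rfl
  have hzpow : ∀ q : ℤ, ∃ β : T → T, ∀ r, φ (c (t ^ (m * q)) r) = β (φ r) := by
    intro q
    obtain ⟨n, rfl | rfl⟩ := q.eq_nat_or_neg
    · exact (hpow n).1
    · obtain ⟨β, hβ⟩ := (hpow n).2
      refine ⟨β, fun r => ?_⟩
      rw [mul_neg]
      exact hβ r
  -- finitely many maps
  have hpair : ∀ g : G, ∃ bl : (T → T) × Fin m.natAbs, ∀ r,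
      φ (c g⁻¹ r) = bl.1 (φ (c (t ^ ((bl.2 : ℕ) : ℤ)) r)) := by
    intro g
    obtain ⟨n, hn⟩ := hgen g⁻¹
    let s : R := ⟨g⁻¹ * t ^ n, hn⟩
    have hg : g⁻¹ = (s : G) * t ^ (-n) := by
      change g⁻¹ = g⁻¹ * t ^ n * t ^ (-n)
      rw [mul_assoc, ← zpow_add, add_neg_cancel, zpow_zero, mul_one]
    have h0 : 0 ≤ (-n) % m := Int.emod_nonneg _ hm0
    have h1 : (-n) % m < m.natAbs := by
      have := Int.emod_lt_abs (-n) hm0
      rwa [Int.abs_eq_natAbs] at this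
    have h2 : (((-n) % m).toNat : ℤ) = (-n) % m := Int.toNat_of_nonneg h0
    have h3 : ((-n) % m).toNat < m.natAbs := by omega
    obtain ⟨β, hβ⟩ := hzpow ((-n) / m)
    refine ⟨(fun x => φ s * β x * (φ s)⁻¹, ⟨_, h3⟩), fun r => ?_⟩
    have h4 : t ^ (-n) = t ^ (m * ((-n) / m)) * t ^ ((-n) % m) := by
      rw [← zpow_add, Int.mul_ediv_add_emod]
    rw [hg, h4, hc, hcR, map_mul, map_mul, map_inv, hc, hβ, h2]
  choose pr hpr using hpair
  -- the subgroup
  let C : Subgroup G :=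
    { carrier := {g | ∀ r, φ (c g r) = φ r}
      one_mem' := fun r => by simp
      mul_mem' := by
        intro a b ha hb r
        rw [hc, ha, hb]
      inv_mem' := by
        intro a ha r
        have h1 := ha (c a⁻¹ r)
        rw [← hc, mul_inv_cancel, map_one, MulAut.one_apply] at h1
        exact h1.symm }
  have hfin : Finite (G ⧸ C) := by
    refine Finite.of_injective (fun q : G ⧸ C => pr q.out) fun q q' hq => ?_
    have hq' : pr q.out = pr q'.out := hq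
    have h1 : ∀ r, φ (c (q.out)⁻¹ r) = φ (c (q'.out)⁻¹ r) := by
      intro r
      rw [hpr q.out r, hpr q'.out r, hq']
    have h2 : (q.out)⁻¹ * q'.out ∈ C := by
      intro r
      rw [hc, h1, ← hc, inv_mul_cancel, map_one, MulAut.one_apply]
    have h3 : (QuotientGroup.mk q.out : G ⧸ C) = QuotientGroup.mk q'.out := QuotientGroup.eq.2 h2
    rwa [QuotientGroup.out_eq', QuotientGroup.out_eq'] at h3
  have hRC : R ≤ C := hres C Subgroup.finiteIndex_of_finite_quotient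
  obtain ⟨x, y, hxy⟩ := hT
  obtain ⟨a, rfl⟩ := hφ x
  obtain ⟨b, rfl⟩ := hφ y
  have h1 : φ (c (a : G) b) = φ b := hRC a.2 b
  rw [hcR, map_mul, map_mul, map_inv] at h1
  exact hxy (mul_inv_eq_iff_eq_mul.1 h1)

end Vale.Agent.P216.R2.H189.V2
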