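import Mathlib

/-!
# P216, PerfectResidual v2, row G
-/

set_option autoImplicit false

namespace Vale.Agent.P216.R2.H189.V2

/-- Row G. -/
theorem rowG {G : Type*} [Group G] (R : Subgroup G) [R.Normal] (t : G)
    (hgen : ∀ g : G, ∃ n : ℤ, g * t ^ n ∈ R)
    (hres : ∀ N : Subgroup G, N.FiniteIndex → R ≤ N) {T : Type*} [Group T] [Finite T]
    (hT : ∃ x y : T, x * y ≠ y * x) (φ : R →* T) (hφ : Function.Surjective φ) (i j : ℤ)
    (h : ∀ r : R, φ (MulAut.conjNormal (t ^ i) r) = 1 ↔ φ (MulAut.conjNormal (t ^ j) r) = 1) :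
    i = j := by
  classical
  by_contra hij
  -- composition
  have hcomp : ∀ (a b : G) (r : R), MulAut.conjNormal (a * b) r
      = MulAut.conjNormal a (MulAut.conjNormal b r) := by
    intro a b r
    rw [map_mul]
    rfl
  -- periodicity of the kernels
  have hper : ∀ (a : ℤ) (r : R), φ (MulAut.conjNormal (t ^ a) r) = 1 ↔
      φ (MulAut.conjNormal (t ^ (a + (j - i))) r) = 1 := by
    intro a r
    have h1 := h (MulAut.conjNormal (t ^ (a - i)) r)
    rw [← hcomp, ← hcomp, ← zpow_add, ← zpow_add] at h1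
    have e1 : i + (a - i) = a := by ring
    have e2 : j + (a - i) = a + (j - i) := by ring
    rw [e1, e2] at h1
    exact h1
  have hperq : ∀ (q a : ℤ) (r : R), φ (MulAut.conjNormal (t ^ a) r) = 1 ↔
      φ (MulAut.conjNormal (t ^ (a + (j - i) * q)) r) = 1 := by
    intro q
    induction q using Int.induction_on with
    | zero => intro a r; simp
    | succ k ih =>
      intro a r
      rw [ih a r, hper (a + (j - i) * k) r]
      have e : a + (j - i) * k + (j - i) = a + (j - i) * ((k : ℤ) + 1) := by ring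
      rw [e]
    | pred k ih =>
      intro a r
      rw [ih a r]
      rw [hper (a + (j - i) * (-(k : ℤ) - 1)) r]
      have e : a + (j - i) * (-(k : ℤ) - 1) + (j - i) = a + (j - i) * (-(k : ℤ)) := by ring
      rw [e]
  have hsurj : ∀ g : G, Function.Surjective fun r : R => φ (MulAut.conjNormal g r) :=
    fun g => hφ.comp (MulAut.conjNormal g).surjective
  have hm0 : (j - i) ≠ 0 := sub_ne_zero.2 (Ne.symm hij)
  -- finitely many conjugates
  have hfin : (Set.range fun g : G => fun r : R => φ (MulAut.conjNormal g r)).Finite := by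
    have h1 : (Set.range fun p : (T → T) × Fin (j - i).natAbs => fun r : R =>
        p.1 (φ (MulAut.conjNormal (t ^ ((p.2 : ℕ) : ℤ)) r))).Finite := Set.finite_range _
    apply h1.subset
    rintro f ⟨g, rfl⟩
    obtain ⟨n, hn⟩ := hgen g
    have hl0 : 0 ≤ (-n) % (j - i) := Int.emod_nonneg _ hm0
    have hl1 : (-n) % (j - i) < |j - i| := Int.emod_lt_abs _ hm0
    have hl2 : ((-n) % (j - i)).toNat < (j - i).natAbs := by
      have e : (|j - i| : ℤ) = ((j - i).natAbs : ℤ) := Int.abs_eq_natAbs _
      omega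
    have hl3 : ((((-n) % (j - i)).toNat : ℕ) : ℤ) = (-n) % (j - i) := Int.toNat_of_nonneg hl0
    choose pre hpre using hsurj (t ^ ((-n) % (j - i)))
    refine ⟨(fun x => φ ⟨_, hn⟩ * φ (MulAut.conjNormal (t ^ (-n)) (pre x)) * (φ ⟨_, hn⟩)⁻¹,
      ⟨_, hl2⟩), ?_⟩
    funext r
    show φ ⟨_, hn⟩ * φ (MulAut.conjNormal (t ^ (-n)) (pre (φ (MulAut.conjNormal
      (t ^ ((((-n) % (j - i)).toNat : ℕ) : ℤ)) r)))) * (φ ⟨_, hn⟩)⁻¹ = φ (MulAut.conjNormal g r)
    rw [hl3]
    -- the values of `ψ_{-n}` at `r` and at the chosen preimage agree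
    have h2 : φ (MulAut.conjNormal (t ^ (-n)) (pre (φ (MulAut.conjNormal
        (t ^ ((-n) % (j - i))) r)))) = φ (MulAut.conjNormal (t ^ (-n)) r) := by
      have h3 := hpre (φ (MulAut.conjNormal (t ^ ((-n) % (j - i))) r))
      simp only at h3
      have h4 : φ (MulAut.conjNormal (t ^ ((-n) % (j - i)))
          (pre (φ (MulAut.conjNormal (t ^ ((-n) % (j - i))) r)) * r⁻¹)) = 1 := by
        rw [map_mul, map_mul, map_inv, map_inv, h3, mul_inv_cancel]
      rw [hperq ((-n) / (j - i))] at h4
      have e : (-n) % (j - i) + (j - i) * ((-n) / (j - i)) = -n := Int.emod_add_mul_ediv _ _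
      rw [e, map_mul, map_mul, map_inv, map_inv, mul_inv_eq_one] at h4
      exact h4
    rw [h2, ← map_inv, ← map_mul, ← map_mul]
    congr 1
    apply Subtype.ext
    simp only [Subgroup.coe_mul, Subgroup.coe_inv, MulAut.conjNormal_apply]
    group
  -- the stabiliser
  let C : Subgroup G :=
    { carrier := {g | ∀ r : R, φ (MulAut.conjNormal g r) = φ r}
      one_mem' := by
        intro r
        rw [map_one]
        rfl
      mul_mem' := by
        intro a b ha hb r
        rw [hcomp, ha, hb]
      inv_mem' := by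
        intro a ha r
        have h1 := ha (MulAut.conjNormal a⁻¹ r)
        rw [← hcomp, mul_inv_cancel, map_one] at h1
        exact h1.symm }
  have hC : C.FiniteIndex := by
    have hF : Finite (Set.range fun g : G => fun r : R => φ (MulAut.conjNormal g r)) :=
      hfin.to_subtype
    let F : G ⧸ C → Set.range fun g : G => fun r : R => φ (MulAut.conjNormal g r) :=
      fun x => ⟨fun r => φ (MulAut.conjNormal (Quotient.out x)⁻¹ r), ⟨_, rfl⟩⟩
    have hFi : Function.Injective F := by
      intro x y hxy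
      have h1 : ∀ r : R, φ (MulAut.conjNormal (Quotient.out x)⁻¹ r)
          = φ (MulAut.conjNormal (Quotient.out y)⁻¹ r) := by
        intro r
        exact congrFun (congrArg Subtype.val hxy) r
      rw [← QuotientGroup.out_eq' x, ← QuotientGroup.out_eq' y, QuotientGroup.eq]
      intro r
      rw [hcomp, h1, ← hcomp, inv_mul_cancel, map_one]
      rfl
    have : Finite (G ⧸ C) := Finite.of_injective F hFi
    exact Subgroup.finiteIndex_of_finite_quotient
  have hRC := hres C hC
  obtain ⟨x, y, hxy⟩ := hT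
  obtain ⟨a, rfl⟩ := hφ x
  obtain ⟨b, rfl⟩ := hφ y
  apply hxy
  have h1 : φ (MulAut.conjNormal (a : G) b) = φ b := hRC a.2 b
  have h2 : (MulAut.conjNormal (a : G) b : R) = a * b * a⁻¹ := by
    apply Subtype.ext
    simp [MulAut.conjNormal_apply]
  rw [h2, map_mul, map_mul, map_inv, mul_inv_eq_iff_eq_mul] at h1
  exact h1

end Vale.Agent.P216.R2.H189.V2
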