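import Mathlib

/-!
# P216 : row G
-/

namespace Vale.Agent.P216.R2.H189.V2

/-- Row G. -/
theorem rowG {G : Type*} [Group G] (R : Subgroup G) [R.Normal] (t : G)
    (hgen : ∀ g : G, ∃ n : ℤ, g * t ^ n ∈ R)
    (hres : ∀ N : Subgroup G, N.FiniteIndex → R ≤ N) {T : Type*} [Group T] [Finite T]
    (hT : ∃ x y : T, x * y ≠ y * x) (φ : R →* T) (hφ : Function.Surjective φ) (i j : ℤ)
    (h : ∀ r : R, φ (MulAut.conjNormal (t ^ i) r) = 1 ↔ φ (MulAut.conjNormal (t ^ j) r) = 1) :
    i = j := by
  classical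
  by_contra hij
  obtain ⟨x, y, hxy⟩ := hT
  set c : G →* MulAut R := MulAut.conjNormal with hc
  obtain ⟨m, hm⟩ : ∃ m : ℤ, m = j - i := ⟨_, rfl⟩
  have hm0 : m ≠ 0 := by omega
  let P : Subgroup (MulAut R) :=
    { carrier := {τ | ∀ r, φ (τ r) = 1 ↔ φ r = 1}
      mul_mem' := fun {a b} ha hb r => by
        rw [MulAut.mul_apply]
        exact (ha (b r)).trans (hb r)
      one_mem' := fun r => by simp
      inv_mem' := fun {a} ha r => by
        have := ha (a⁻¹ r)
        rw [MulAut.apply_inv_self] at this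
        exact this.symm }
  have hP : c (t ^ m) ∈ P := by
    intro r
    have h1 := h (c (t ^ (-i)) r)
    rw [← MulAut.mul_apply, ← MulAut.mul_apply, ← map_mul, ← map_mul, ← zpow_add, ← zpow_add] at h1
    have e1 : i + -i = 0 := by ring
    have e2 : j + -i = m := by rw [hm]; ring
    rw [e1, e2, zpow_zero, map_one, MulAut.one_apply] at h1
    exact h1.symm
  have hbeta : ∀ τ ∈ P, ∃ β : T → T, ∀ r, φ (τ r) = β (φ r) := by
    intro τ hτ
    choose s hs using hφ
    refine ⟨fun z => φ (τ (s z)), fun r => ?_⟩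
    have h1 : φ (τ (r * (s (φ r))⁻¹)) = 1 := by
      rw [hτ, map_mul, map_inv, hs, mul_inv_cancel]
    rw [map_mul, map_inv, map_mul, map_inv, mul_inv_eq_one] at h1
    exact h1
  let F : G → R → T := fun g r => φ (c g⁻¹ r)
  have hfin : (Set.range F).Finite := by
    refine (Set.finite_range (fun p : Fin m.natAbs × (T → T) => fun r : R =>
      p.2 (φ (c (t ^ (p.1 : ℤ)) r)))).subset ?_
    rintro _ ⟨g, rfl⟩
    obtain ⟨n, hn⟩ := hgen g
    have hl0 : 0 ≤ n % m := Int.emod_nonneg n hm0
    have hl1 : n % m < m.natAbs := by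
      have := Int.emod_lt_abs n hm0
      rw [Int.abs_eq_natAbs] at this
      exact this
    obtain ⟨l, hl⟩ := Int.eq_ofNat_of_zero_le hl0
    have hlm : l < m.natAbs := by
      rw [hl] at hl1
      exact_mod_cast hl1
    have hnq : n = m * (n / m) + l := by
      rw [← hl]
      exact (Int.mul_ediv_add_emod n m).symm
    obtain ⟨β, hβ⟩ := hbeta ((c (t ^ m)) ^ (n / m)) (P.zpow_mem hP _)
    set s' : R := c (t ^ (l : ℤ)) ⟨(g * t ^ n)⁻¹, R.inv_mem hn⟩ with hs'
    refine ⟨(⟨l, hlm⟩, fun z => β (φ s' * z * (φ s')⁻¹)), ?_⟩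
    funext r
    simp only [F]
    rw [← map_inv, ← map_mul, ← map_mul, ← hβ]
    congr 1
    apply Subtype.ext
    rw [← map_zpow, ← zpow_mul, MulAut.conjNormal_apply, MulAut.conjNormal_apply]
    simp only [hs', Subgroup.coe_mul, Subgroup.coe_inv, hc, MulAut.conjNormal_apply]
    have e3 : t ^ n = t ^ (m * (n / m)) * t ^ (l : ℤ) := by rw [← zpow_add, ← hnq]
    have e4 : t ^ (m * (n / m)) = t ^ n * (t ^ (l : ℤ))⁻¹ := by rw [e3]; group
    rw [e4]
    group
  let C : Subgroup G :=
    { carrier := {g | ∀ r, φ (c g r) = φ r}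
      mul_mem' := fun {a b} ha hb r => by
        rw [map_mul, MulAut.mul_apply]
        exact (ha (c b r)).trans (hb r)
      one_mem' := fun r => by simp
      inv_mem' := fun {a} ha r => by
        have := ha (c a⁻¹ r)
        rw [map_inv, MulAut.apply_inv_self] at this
        rw [map_inv]
        exact this.symm }
  have hC : Finite (G ⧸ C) := by
    have hfin' : Finite (Set.range F) := hfin
    let Φ : G ⧸ C → Set.range F := Quotient.lift (fun g => ⟨F g, g, rfl⟩) (by
      intro a b hab
      have hab' : a⁻¹ * b ∈ C := QuotientGroup.leftRel_apply.1 hab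
      apply Subtype.ext
      funext r
      simp only [F]
      have h1 := hab' (c b⁻¹ r)
      rw [← MulAut.mul_apply, ← map_mul, mul_inv_cancel_right] at h1
      exact h1)
    refine Finite.of_injective Φ ?_
    intro u v
    refine Quotient.inductionOn₂ u v fun a b hab => ?_
    have h1 : F a = F b := congrArg Subtype.val hab
    refine Quotient.sound ?_
    refine QuotientGroup.leftRel_apply.2 ?_
    intro r
    have h2 := congrFun h1 (c b r)
    simp only [F] at h2
    rw [← MulAut.mul_apply, ← MulAut.mul_apply, ← map_mul, ← map_mul, inv_mul_cancel, map_one,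
      MulAut.one_apply] at h2
    exact h2
  have hR := hres C (Subgroup.finiteIndex_of_finite_quotient)
  obtain ⟨u, rfl⟩ := hφ x
  obtain ⟨v, rfl⟩ := hφ y
  apply hxy
  have h1 : φ (c (u : G) v) = φ v := hR u.2 v
  have h2 : c (u : G) v = u * v * u⁻¹ := by
    apply Subtype.ext
    rw [MulAut.conjNormal_apply]
    simp
  rw [h2, map_mul, map_mul, map_inv, mul_inv_eq_iff_eq_mul] at h1
  exact h1

end Vale.Agent.P216.R2.H189.V2
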