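import Mathlib

set_option linter.all false

namespace Vale.Agent.P216.R2.H189.V3

open HNNExtension HNNExtension.NormalWord

section

variable {G : Type*} [Group G] {A B : Subgroup G} {φ : A ≃* B}

theorem len_unitsSMul {d : TransversalPair G A B} (u : ℤˣ) (w : NormalWord d) :
    (unitsSMul φ u w).toList.length ≤ w.toList.length + 1 := by
  by_cases h : Cancels u w
  · simp only [unitsSMul, h, dite_true]
    induction w using consRecOn with
    | ofGroup g => simp [Cancels] at h
    | cons g u' w h1 h2 _ =>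
      simp only [unitsSMulWithCancel, consRecOn_cons, group_smul_toList, cons_toList,
        List.length_cons]
      omega
  · simp only [unitsSMul, dif_neg h, cons_toList, group_smul_toList, List.length_cons]
    exact le_rfl

theorem exists_L (d : TransversalPair G A B) (g : HNNExtension G A B φ) :
    ∃ L : ℕ, ∀ w : NormalWord d, (g • w).toList.length ≤ w.toList.length + L ∧
      (g⁻¹ • w).toList.length ≤ w.toList.length + L := by
  induction g using HNNExtension.induction_on with
  | of g =>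
    refine ⟨0, fun w => ⟨?_, ?_⟩⟩
    · rw [of_smul_eq_smul, group_smul_toList]; exact le_rfl
    · rw [← map_inv, of_smul_eq_smul, group_smul_toList]; exact le_rfl
  | t =>
    refine ⟨1, fun w => ⟨?_, ?_⟩⟩
    · rw [t_smul_eq_unitsSMul]; exact len_unitsSMul _ _
    · have h := t_pow_smul_eq_unitsSMul φ (-1) w
      simp only [Units.val_neg, Units.val_one, zpow_neg, zpow_one] at h
      rw [h]
      exact len_unitsSMul _ _
  | mul x y hx hy =>
    obtain ⟨L₁, h₁⟩ := hx
    obtain ⟨L₂, h₂⟩ := hy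
    refine ⟨L₁ + L₂, fun w => ⟨?_, ?_⟩⟩
    · rw [mul_smul]
      have := (h₁ (y • w)).1
      have := (h₂ w).1
      omega
    · rw [mul_inv_rev, mul_smul]
      have := (h₂ (x⁻¹ • w)).2
      have := (h₁ w).2
      omega
  | inv x hx =>
    obtain ⟨L, h⟩ := hx
    refine ⟨L, fun w => ⟨(h w).2, ?_⟩⟩
    rw [inv_inv]
    exact (h w).1

/-- the product of a list of letters -/
def pr (φ : A ≃* B) (l : List (ℤˣ × G)) : HNNExtension G A B φ :=
  (l.map (fun x => t ^ (x.1 : ℤ) * of x.2)).prod

theorem pr_append (l l' : List (ℤˣ × G)) : pr φ (l ++ l') = pr φ l * pr φ l' := by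
  simp [pr]

theorem pr_len (d : TransversalPair G A B) (l : List (ℤˣ × G)) (w : NormalWord d) :
    (pr φ l • w).toList.length ≤ w.toList.length + l.length := by
  induction l with
  | nil => simp [pr]
  | cons a l ih =>
    have h1 : pr φ (a :: l) = t ^ (a.1 : ℤ) * (of a.2 * pr φ l) := by
      simp [pr, mul_assoc]
    rw [h1, mul_smul, mul_smul, t_pow_smul_eq_unitsSMul, of_smul_eq_smul]
    have h2 := len_unitsSMul (φ := φ) a.1 (a.2 • pr φ l • w)
    rw [group_smul_toList] at h2
    rw [List.length_cons]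
    omega

theorem pr_reduced (d : TransversalPair G A B) (l : List (ℤˣ × G))
    (hl : l.IsChain (fun a b => a.2 ∈ toSubgroup A B a.1 → a.1 = b.1)) :
    (pr φ l • (NormalWord.empty : NormalWord d)).toList.length = l.length := by
  obtain ⟨w', h1, h2, _⟩ := ReducedWord.exists_normalWord_prod_eq φ d ⟨1, l, hl⟩
  have h3 : pr φ l = w'.prod φ := by
    rw [h1]
    simp [ReducedWord.prod, pr]
  rw [h3, prod_smul_empty]
  have h4 := congrArg List.length h2
  simpa using h4

theorem chain_of (l : List (ℤˣ × G)) (h : ∀ a ∈ l, a.2 ∉ toSubgroup A B a.1) :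
    l.IsChain (fun a b => a.2 ∈ toSubgroup A B a.1 → a.1 = b.1) := by
  induction l with
  | nil => exact List.isChain_nil
  | cons a l ih =>
    refine List.isChain_cons.2 ⟨fun y _ hy => absurd hy (h a (by simp)), ih fun x hx =>
      h x (by simp [hx])⟩

/-- the letters of `g_n` -/
def gl (b b' : G) (n : ℕ) : List (ℤˣ × G) :=
  List.replicate (n + 1) (1, b) ++ List.replicate n (-1, b')

/-- repeated -/
def rep {α : Type*} (l : List α) : ℕ → List α
  | 0 => []
  | n + 1 => l ++ rep l n

theorem rep_len {α : Type*} (l : List α) (j : ℕ) : (rep l j).length = j * l.length := by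
  induction j with
  | zero => simp [rep]
  | succ j ih => rw [rep, List.length_append, ih]; ring

theorem rep_mem {α : Type*} (l : List α) (j : ℕ) (a : α) (h : a ∈ rep l j) : a ∈ l := by
  induction j with
  | zero => simp [rep] at h
  | succ j ih =>
    rw [rep, List.mem_append] at h
    exact h.elim id ih

theorem pr_rep (l : List (ℤˣ × G)) (j : ℕ) : pr φ (rep l j) = pr φ l ^ j := by
  induction j with
  | zero => simp [rep, pr]
  | succ j ih => rw [rep, pr_append, ih, pow_succ']

theorem gl_len (b b' : G) (n : ℕ) : (gl b b' n).length = 2 * n + 1 := by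
  simp [gl]; omega

/-- the exponent of `t` -/
noncomputable def ex (φ : A ≃* B) : HNNExtension G A B φ →* Multiplicative ℤ :=
  HNNExtension.lift 1 (Multiplicative.ofAdd 1) (by intro a; simp)

theorem ex_gl (b b' : G) (n : ℕ) : ex φ (pr φ (gl b b' n)) = Multiplicative.ofAdd 1 := by
  have h : pr φ (gl b b' n) = (t * of b) ^ (n + 1) * (t⁻¹ * of b') ^ n := by
    simp [pr, gl]
  rw [h, map_mul, map_pow, map_pow, map_mul, map_mul, map_inv]
  have h1 : ex φ t = Multiplicative.ofAdd 1 := by simp [ex]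
  have h2 : ∀ g : G, ex φ (of g) = 1 := by intro g; simp [ex]
  rw [h1, h2, h2, mul_one, mul_one, pow_succ', mul_assoc, ← mul_pow, mul_inv_cancel, one_pow,
    mul_one]

theorem not_conj {b b' : G} (hb : b ∉ A) (hb' : b' ∉ B) {m n : ℕ} (hmn : m < n)
    (h : IsConj (pr φ (gl b b' m)) (pr φ (gl b b' n))) : False := by
  obtain ⟨d⟩ := TransversalPair.nonempty G A B
  obtain ⟨c, hc⟩ := isConj_iff.1 h
  obtain ⟨L, hL⟩ := exists_L d c
  set K := (c⁻¹ • (NormalWord.empty : NormalWord d)).toList.length with hK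
  have hall : ∀ k, ∀ a ∈ gl b b' k, a.2 ∉ toSubgroup A B a.1 := by
    intro k a ha
    rw [gl, List.mem_append, List.mem_replicate, List.mem_replicate] at ha
    rcases ha with ⟨_, rfl⟩ | ⟨_, rfl⟩
    · exact hb
    · exact hb'
  have key : ∀ j : ℕ, j * (2 * n + 1) ≤ K + j * (2 * m + 1) + L := by
    intro j
    have h1 : pr φ (rep (gl b b' n) j) = c * (pr φ (rep (gl b b' m) j) * c⁻¹) := by
      rw [pr_rep, pr_rep, ← hc, conj_pow, mul_assoc]
    have h2 := pr_reduced (φ := φ) d (rep (gl b b' n) j)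
      (chain_of _ fun a ha => hall n a (rep_mem _ _ _ ha))
    rw [rep_len, gl_len, h1, mul_smul, mul_smul] at h2
    have h3 := (hL (pr φ (rep (gl b b' m) j) • c⁻¹ • NormalWord.empty)).1
    have h4 := pr_len (φ := φ) d (rep (gl b b' m) j) (c⁻¹ • NormalWord.empty)
    rw [rep_len, gl_len] at h4
    omega
  have h5 := key (K + L + 1)
  have h6 : (K + L + 1) * (2 * m + 3) ≤ (K + L + 1) * (2 * n + 1) :=
    Nat.mul_le_mul_left _ (by omega)
  nlinarith

end

theorem rowH {G : Type*} [Group G] {A B : Subgroup G} (φ : A ≃* B) (hA : A ≠ ⊤) (hB : B ≠ ⊤)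
    (F : Set (HNNExtension G A B φ)) (hF : F.Finite) :
    ∃ g : HNNExtension G A B φ, ∀ a ∈ F, ∀ k : ℤ, ¬ IsConj g (a ^ k) := by
  by_contra hcon
  push Not at hcon
  obtain ⟨b, hb⟩ : ∃ b, b ∉ A := by
    by_contra hc
    push Not at hc
    exact hA (eq_top_iff.2 fun x _ => hc x)
  obtain ⟨b', hb'⟩ : ∃ b, b ∉ B := by
    by_contra hc
    push Not at hc
    exact hB (eq_top_iff.2 fun x _ => hc x)
  have hfin : (F ∪ (fun a => a⁻¹) '' F).Finite := hF.union (hF.image _)
  have hn : ∀ n : ℕ, ∃ c ∈ F ∪ (fun a => a⁻¹) '' F, IsConj (pr φ (gl b b' n)) c := by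
    intro n
    obtain ⟨a, ha, k, hk⟩ := hcon (pr φ (gl b b' n))
    have h1 : ex φ (pr φ (gl b b' n)) = ex φ (a ^ k) := by
      obtain ⟨c, hc⟩ := isConj_iff.1 hk
      rw [← hc, map_mul, map_mul, mul_comm (ex φ c), mul_assoc, ← map_mul, mul_inv_cancel,
        map_one, mul_one]
    rw [ex_gl, map_zpow] at h1
    have h2 : (1 : ℤ) = k * Multiplicative.toAdd (ex φ a) := by
      have h3 := congrArg Multiplicative.toAdd h1
      simpa using h3
    rcases Int.eq_one_or_neg_one_of_mul_eq_one h2.symm with h3 | h3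
    · rw [h3, zpow_one] at hk
      exact ⟨a, Or.inl ha, hk⟩
    · rw [h3, zpow_neg, zpow_one] at hk
      exact ⟨a⁻¹, Or.inr ⟨a, ha, rfl⟩, hk⟩
  choose c hc1 hc2 using hn
  obtain ⟨m, n, hmn, he⟩ := hfin.exists_lt_map_eq_of_forall_mem hc1
  refine not_conj (φ := φ) hb hb' hmn ?_
  have h1 := hc2 m
  rw [he] at h1
  exact h1.trans (hc2 n).symm

end Vale.Agent.P216.R2.H189.V3
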