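import Mathlib

set_option linter.all false

/-!
An HNN extension with proper associated subgroups is not covered by the conjugates of finitely
many cyclic subgroups.
-/

namespace Vale.Agent.P216.R2.H189.V3.X15

open HNNExtension HNNExtension.NormalWord Multiplicative

variable {G : Type*} [Group G] {A B : Subgroup G} {φ : A ≃* B}

lemma len_unitsSMul {d : TransversalPair G A B} (φ : A ≃* B) (u : ℤˣ) (w : NormalWord d) :
    (unitsSMul φ u w).toList.length ≤ w.toList.length + 1 ∧
      w.toList.length ≤ (unitsSMul φ u w).toList.length + 1 := by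
  have key : ∀ (u : ℤˣ) (w : NormalWord d),
      (unitsSMul φ u w).toList.length ≤ w.toList.length + 1 := by
    intro u w
    by_cases h : Cancels u w
    · unfold unitsSMul
      simp only [dif_pos h]
      cases w using consRecOn with
      | ofGroup g => simp [Cancels] at h
      | cons g u' w h1 h2 ih =>
        simp only [unitsSMulWithCancel, consRecOn_cons, group_smul_toList, cons_toList,
          List.length_cons]
        omega
    · unfold unitsSMul
      simp only [dif_neg h]
      simp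
  refine ⟨key u w, ?_⟩
  have := key (-u) (unitsSMul φ u w)
  rwa [unitsSMul_neg] at this

lemma t_bound {d : TransversalPair G A B} (w : NormalWord d) :
    ((t : HNNExtension G A B φ) • w).toList.length ≤ w.toList.length + 1 ∧
      w.toList.length ≤ ((t : HNNExtension G A B φ) • w).toList.length + 1 := by
  rw [t_smul_eq_unitsSMul]
  exact len_unitsSMul φ 1 w

lemma tinv_bound {d : TransversalPair G A B} (w : NormalWord d) :
    ((t⁻¹ : HNNExtension G A B φ) • w).toList.length ≤ w.toList.length + 1 := by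
  have h := (t_bound (φ := φ) ((t⁻¹ : HNNExtension G A B φ) • w)).2
  rwa [smul_inv_smul] at h

lemma exists_bound (d : TransversalPair G A B) (x : HNNExtension G A B φ) :
    ∃ N : ℕ, ∀ w : NormalWord d, (x • w).toList.length ≤ w.toList.length + N ∧
      w.toList.length ≤ (x • w).toList.length + N := by
  induction x using HNNExtension.induction_on with
  | of g => exact ⟨0, fun w => by rw [of_smul_eq_smul]; simp⟩
  | t => exact ⟨1, fun w => t_bound w⟩
  | mul x y hx hy =>
    obtain ⟨N, hN⟩ := hx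
    obtain ⟨M, hM⟩ := hy
    refine ⟨N + M, fun w => ?_⟩
    rw [mul_smul]
    obtain ⟨h1, h2⟩ := hN (y • w)
    obtain ⟨h3, h4⟩ := hM w
    exact ⟨by omega, by omega⟩
  | inv x hx =>
    obtain ⟨N, hN⟩ := hx
    refine ⟨N, fun w => ?_⟩
    have h := hN (x⁻¹ • w)
    rw [smul_inv_smul] at h
    exact ⟨by omega, by omega⟩

/-- the element `t b t⁻¹ b'` -/
def ww (φ : A ≃* B) (b b' : G) : HNNExtension G A B φ := t * of b * t⁻¹ * of b'

/-- the element `t (t b t⁻¹ b')^n` -/
def gg (φ : A ≃* B) (b b' : G) (n : ℕ) : HNNExtension G A B φ := t * ww φ b b' ^ n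

lemma of_len {d : TransversalPair G A B} (φ : A ≃* B) (g : G) (w : NormalWord d) :
    ((of g : HNNExtension G A B φ) • w).toList.length = w.toList.length := by
  rw [of_smul_eq_smul]
  simp

lemma ww_bound {d : TransversalPair G A B} (b b' : G) (w : NormalWord d) :
    (ww φ b b' • w).toList.length ≤ w.toList.length + 2 := by
  unfold ww
  rw [mul_smul, mul_smul, mul_smul]
  have h1 := (t_bound (φ := φ) ((of b : HNNExtension G A B φ) •
    ((t⁻¹ : HNNExtension G A B φ) • ((of b' : HNNExtension G A B φ) • w)))).1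
  have h2 := tinv_bound (φ := φ) ((of b' : HNNExtension G A B φ) • w)
  have h3 := of_len φ b' w
  have h4 := of_len φ b ((t⁻¹ : HNNExtension G A B φ) • ((of b' : HNNExtension G A B φ) • w))
  omega

lemma ww_pow_bound {d : TransversalPair G A B} (b b' : G) (n : ℕ) (w : NormalWord d) :
    (ww φ b b' ^ n • w).toList.length ≤ w.toList.length + 2 * n := by
  induction n with
  | zero => simp
  | succ n ih =>
    rw [pow_succ', mul_smul]
    have := ww_bound (φ := φ) b b' (ww φ b b' ^ n • w)
    omega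

lemma gg_bound {d : TransversalPair G A B} (b b' : G) (n : ℕ) (w : NormalWord d) :
    (gg φ b b' n • w).toList.length ≤ w.toList.length + (1 + 2 * n) := by
  unfold gg
  rw [mul_smul]
  have h1 := (t_bound (φ := φ) (ww φ b b' ^ n • w)).1
  have h2 := ww_pow_bound (φ := φ) b b' n w
  omega

lemma gg_pow_bound {d : TransversalPair G A B} (b b' : G) (n j : ℕ) (w : NormalWord d) :
    (gg φ b b' n ^ j • w).toList.length ≤ w.toList.length + j * (1 + 2 * n) := by
  induction j with
  | zero => simp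
  | succ j ih =>
    rw [pow_succ', mul_smul, Nat.succ_mul]
    have := gg_bound (φ := φ) b b' n (gg φ b b' n ^ j • w)
    omega

/-- reduced lists which do not start with `t⁻¹` -/
def Good (A B : Subgroup G) (l : List (ℤˣ × G)) : Prop :=
  l.IsChain (fun a b => a.2 ∈ toSubgroup A B a.1 → a.1 = b.1) ∧ ∀ x ∈ l.head?, x.1 = 1

/-- the product of a list -/
def val (φ : A ≃* B) (l : List (ℤˣ × G)) : HNNExtension G A B φ :=
  (l.map (fun x => t ^ (x.1 : ℤ) * of x.2)).prod

lemma good_one {l : List (ℤˣ × G)} (h : Good A B l) : Good A B ((1, 1) :: l) := by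
  refine ⟨List.isChain_cons.2 ⟨fun y hy _ => ?_, h.1⟩, by simp⟩
  exact (h.2 y hy).symm

lemma good_two {b b' : G} (hb : b ∉ A) (hb' : b' ∉ B) {l : List (ℤˣ × G)} (h : Good A B l) :
    Good A B ((1, b) :: (-1, b') :: l) := by
  refine ⟨List.isChain_cons.2 ⟨fun y hy hm => ?_, List.isChain_cons.2 ⟨fun y hy hm => ?_, h.1⟩⟩,
    by simp⟩
  · exact absurd (by simpa using hm) hb
  · exact absurd (by simpa using hm) hb'

lemma list_ww {b b' : G} (hb : b ∉ A) (hb' : b' ∉ B) (n : ℕ) {l : List (ℤˣ × G)}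
    (h : Good A B l) : ∃ l' : List (ℤˣ × G), Good A B l' ∧ l'.length = l.length + 2 * n ∧
      val φ l' = ww φ b b' ^ n * val φ l := by
  induction n with
  | zero => exact ⟨l, h, by simp, by simp⟩
  | succ n ih =>
    obtain ⟨l', h1, h2, h3⟩ := ih
    refine ⟨(1, b) :: (-1, b') :: l', good_two hb hb' h1, by simp [h2]; omega, ?_⟩
    rw [pow_succ', mul_assoc, ← h3]
    simp [val, ww, mul_assoc]

lemma list_gg {b b' : G} (hb : b ∉ A) (hb' : b' ∉ B) (n j : ℕ) :
    ∃ l : List (ℤˣ × G), Good A B l ∧ l.length = j * (1 + 2 * n) ∧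
      val φ l = gg φ b b' n ^ j := by
  induction j with
  | zero => exact ⟨[], ⟨List.isChain_nil, by simp⟩, by simp, by simp [val]⟩
  | succ j ih =>
    obtain ⟨l, h1, h2, h3⟩ := ih
    obtain ⟨l', h4, h5, h6⟩ := list_ww (φ := φ) hb hb' n h1
    refine ⟨(1, 1) :: l', good_one h4, by simp only [List.length_cons, h5, h2]; ring, ?_⟩
    rw [pow_succ', ← h3, gg, mul_assoc, ← h6]
    simp [val]

lemma gg_pow_len {d : TransversalPair G A B} {b b' : G} (hb : b ∉ A) (hb' : b' ∉ B) (n j : ℕ) :
    (gg φ b b' n ^ j • (NormalWord.empty : NormalWord d)).toList.length = j * (1 + 2 * n) := by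
  obtain ⟨l, h1, h2, h3⟩ := list_gg (φ := φ) hb hb' n j
  obtain ⟨w', hw1, hw2, -⟩ := ReducedWord.exists_normalWord_prod_eq φ d ⟨1, l, h1.1⟩
  have h4 : w'.prod φ = gg φ b b' n ^ j := by
    rw [hw1, ← h3]
    simp [ReducedWord.prod, val]
  rw [← h4, prod_smul_empty, ← h2]
  have := congrArg List.length hw2
  simpa using this

lemma le_of_conj {b b' : G} (hb : b ∉ A) (hb' : b' ∉ B) {m n : ℕ}
    (h : IsConj (gg φ b b' m) (gg φ b b' n)) : n ≤ m := by
  obtain ⟨x, hx⟩ := isConj_iff.1 h
  obtain ⟨d⟩ := TransversalPair.nonempty G A B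
  obtain ⟨N, hN⟩ := exists_bound d x
  by_contra hlt
  push Not at hlt
  set K := ((x⁻¹ • (NormalWord.empty : NormalWord d)).toList).length with hK
  set j := N + K + 1 with hj
  have h1 := gg_pow_len (φ := φ) (d := d) hb hb' n j
  rw [← hx, conj_pow, mul_smul, mul_smul] at h1
  have h2 := (hN (gg φ b b' m ^ j • (x⁻¹ • (NormalWord.empty : NormalWord d)))).1
  have h3 := gg_pow_bound (φ := φ) b b' m j (x⁻¹ • (NormalWord.empty : NormalWord d))
  have h4 : j * (1 + 2 * m) + 2 * j ≤ j * (1 + 2 * n) := by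
    have : 1 + 2 * m + 2 ≤ 1 + 2 * n := by omega
    calc j * (1 + 2 * m) + 2 * j = j * (1 + 2 * m + 2) := by ring
      _ ≤ j * (1 + 2 * n) := Nat.mul_le_mul_left _ this
  omega

end Vale.Agent.P216.R2.H189.V3.X15

namespace Vale.Agent.P216.R2.H189.V3

open HNNExtension Multiplicative X15

theorem rowH {G : Type*} [Group G] {A B : Subgroup G} (φ : A ≃* B) (hA : A ≠ ⊤) (hB : B ≠ ⊤)
    (F : Set (HNNExtension G A B φ)) (hF : F.Finite) :
    ∃ g : HNNExtension G A B φ, ∀ a ∈ F, ∀ k : ℤ, ¬ IsConj g (a ^ k) := by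
  by_contra hcon
  push Not at hcon
  obtain ⟨b, hb⟩ : ∃ b, b ∉ A := by
    by_contra h
    push Not at h
    exact hA ((Subgroup.eq_top_iff' A).2 h)
  obtain ⟨b', hb'⟩ : ∃ b', b' ∉ B := by
    by_contra h
    push Not at h
    exact hB ((Subgroup.eq_top_iff' B).2 h)
  choose a ha k hk using fun n : ℕ => hcon (gg φ b b' n)
  let e : HNNExtension G A B φ →* Multiplicative ℤ :=
    lift 1 (ofAdd 1) (by intro a; simp)
  have he : ∀ n, e (gg φ b b' n) = ofAdd 1 := by
    intro n
    simp [gg, ww, e]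
  have hk1 : ∀ n, k n = 1 ∨ k n = -1 := by
    intro n
    have h1 : e (gg φ b b' n) = e (a n ^ k n) := isConj_iff_eq.1 (e.map_isConj (hk n))
    rw [he, map_zpow] at h1
    have h2 : (1 : ℤ) = k n * toAdd (e (a n)) := by
      have := congrArg toAdd h1
      simpa using this
    exact Int.eq_one_or_neg_one_of_mul_eq_one h2.symm
  have hfin : (F ×ˢ ({1, -1} : Set ℤ)).Finite := hF.prod (by simp)
  obtain ⟨n, -, m, -, hnm, heq⟩ := Set.infinite_univ.exists_ne_map_eq_of_mapsTo
    (f := fun n : ℕ => (a n, k n)) (t := F ×ˢ ({1, -1} : Set ℤ))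
    (fun n _ => ⟨ha n, by rcases hk1 n with h | h <;> simp [h]⟩) hfin
  simp only [Prod.mk.injEq] at heq
  have h1 : IsConj (gg φ b b' n) (gg φ b b' m) := by
    have h2 := hk n
    rw [heq.1, heq.2] at h2
    exact h2.trans (hk m).symm
  exact hnm (le_antisymm (le_of_conj hb hb' h1.symm) (le_of_conj hb hb' h1))

end Vale.Agent.P216.R2.H189.V3
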