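import Mathlib

set_option linter.all false

/-! P216 row H: in an HNN extension over two proper subgroups no finite set of elements has powers
that meet all conjugacy classes. -/

namespace Vale.Agent.P216.R2.H189.V3

open HNNExtension HNNExtension.NormalWord

namespace H239

variable {G : Type*} [Group G] {A B : Subgroup G} {φ : A ≃* B} {d : TransversalPair G A B}

theorem len_units (u : ℤˣ) (w : NormalWord d) :
    (unitsSMul φ u w).toList.length ≤ w.toList.length + 1 := by
  unfold unitsSMul
  split_ifs with h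
  · cases w using consRecOn with
    | ofGroup => simp [Cancels] at h
    | cons g u' w h1 h2 =>
      simp only [unitsSMulWithCancel, consRecOn_cons, group_smul_toList, cons_toList,
        List.length_cons]
      omega
  · simp only [cons_toList, List.length_cons, group_smul_toList]
    omega

/-- the normal form gets longer by at most `K` -/
def Cst (d : TransversalPair G A B) (K : ℕ) (x : HNNExtension G A B φ) : Prop :=
  ∀ w : NormalWord d, (x • w).toList.length ≤ w.toList.length + K

theorem cst_of (g : G) : Cst d 0 (of g : HNNExtension G A B φ) := by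
  intro w
  rw [of_smul_eq_smul, group_smul_toList]
  omega

theorem cst_t : Cst d 1 (t : HNNExtension G A B φ) := by
  intro w
  rw [t_smul_eq_unitsSMul]
  exact len_units 1 w

theorem cst_tinv : Cst d 1 (t⁻¹ : HNNExtension G A B φ) := by
  intro w
  have h := t_pow_smul_eq_unitsSMul φ (-1) w
  have e : (t ^ (((-1 : ℤˣ)) : ℤ) : HNNExtension G A B φ) = t⁻¹ := by simp
  rw [e] at h
  rw [h]
  exact len_units (-1) w

theorem cst_mul {K L : ℕ} {x y : HNNExtension G A B φ} (hx : Cst d K x) (hy : Cst d L y) :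
    Cst d (K + L) (x * y) := by
  intro w
  rw [mul_smul]
  have h1 := hx (y • w)
  have h2 := hy w
  omega

theorem cst_pow {K : ℕ} {x : HNNExtension G A B φ} (hx : Cst d K x) (n : ℕ) :
    Cst d (n * K) (x ^ n) := by
  induction n with
  | zero =>
    intro w
    simp
  | succ n ih =>
    rw [pow_succ, add_mul, one_mul]
    exact cst_mul ih hx

theorem exists_cst (x : HNNExtension G A B φ) : ∃ K, Cst d K x ∧ Cst d K x⁻¹ := by
  induction x using HNNExtension.induction_on with
  | of g =>
    refine ⟨0, cst_of g, ?_⟩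
    rw [← map_inv]
    exact cst_of g⁻¹
  | t => exact ⟨1, cst_t, cst_tinv⟩
  | mul x y hx hy =>
    obtain ⟨K, hK, hK'⟩ := hx
    obtain ⟨L, hL, hL'⟩ := hy
    refine ⟨K + L, cst_mul hK hL, ?_⟩
    rw [mul_inv_rev, add_comm]
    exact cst_mul hL' hK'
  | inv x hx =>
    obtain ⟨K, hK, hK'⟩ := hx
    exact ⟨K, hK', by rwa [inv_inv]⟩

/-- the elements `g_n` -/
def gn (φ : A ≃* B) (b b' : G) (n : ℕ) : HNNExtension G A B φ :=
  t * (t * of b * t⁻¹ * of b') ^ n

theorem cst_gn (b b' : G) (n : ℕ) : Cst d (1 + 2 * n) (gn φ b b' n) := by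
  unfold gn
  have h := cst_pow (cst_mul (cst_mul (cst_mul (cst_t (φ := φ) (d := d)) (cst_of b)) cst_tinv)
    (cst_of b')) n
  have h2 := cst_mul (cst_t (φ := φ) (d := d)) h
  have e : 1 + n * (1 + 0 + 1 + 0) = 1 + 2 * n := by ring
  rwa [e] at h2

/-- a block -/
def W (b b' : G) : ℕ → List (ℤˣ × G) → List (ℤˣ × G)
  | 0, l => l
  | n + 1, l => (1, b) :: (-1, b') :: W b b' n l

/-- the word for `g_n ^ j` -/
def P (b b' : G) (n : ℕ) : ℕ → List (ℤˣ × G)
  | 0 => []
  | j + 1 => (1, 1) :: W b b' n (P b b' n j)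

theorem len_W (b b' : G) (n : ℕ) (l : List (ℤˣ × G)) :
    (W b b' n l).length = 2 * n + l.length := by
  induction n with
  | zero => simp [W]
  | succ n ih =>
    simp only [W, List.length_cons, ih]
    omega

theorem len_P (b b' : G) (n j : ℕ) : (P b b' n j).length = j * (1 + 2 * n) := by
  induction j with
  | zero => simp [P]
  | succ j ih =>
    simp only [P, List.length_cons, len_W, ih]
    ring

theorem chain_W {b b' : G} (hb : b ∉ A) (hb' : b' ∉ B) (n : ℕ) {l : List (ℤˣ × G)}
    (hl : l.IsChain fun a b => a.2 ∈ toSubgroup A B a.1 → a.1 = b.1)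
    (h1 : ∀ x ∈ l.head?, x.1 = 1) :
    ((W b b' n l).IsChain fun a b => a.2 ∈ toSubgroup A B a.1 → a.1 = b.1) ∧
      ∀ x ∈ (W b b' n l).head?, x.1 = 1 := by
  induction n with
  | zero => exact ⟨hl, h1⟩
  | succ n ih =>
    refine ⟨?_, ?_⟩
    · simp only [W]
      refine List.isChain_cons.2 ⟨fun y hy h => absurd h hb, List.isChain_cons.2
        ⟨fun y hy h => absurd h hb', ih.1⟩⟩
    · simp [W]

theorem chain_P {b b' : G} (hb : b ∉ A) (hb' : b' ∉ B) (n j : ℕ) :
    ((P b b' n j).IsChain fun a b => a.2 ∈ toSubgroup A B a.1 → a.1 = b.1) ∧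
      ∀ x ∈ (P b b' n j).head?, x.1 = 1 := by
  induction j with
  | zero => exact ⟨List.isChain_nil, by simp [P]⟩
  | succ j ih =>
    obtain ⟨h1, h2⟩ := chain_W hb hb' n ih.1 ih.2
    refine ⟨?_, by simp [P]⟩
    simp only [P]
    exact List.isChain_cons.2 ⟨fun y hy _ => (h2 y hy).symm, h1⟩

/-- the product of a list -/
def pr (φ : A ≃* B) (l : List (ℤˣ × G)) : HNNExtension G A B φ :=
  (l.map (fun x => t ^ (x.1 : ℤ) * of x.2)).prod

theorem pr_cons (x : ℤˣ × G) (l : List (ℤˣ × G)) :
    pr φ (x :: l) = t ^ (x.1 : ℤ) * of x.2 * pr φ l := by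
  simp [pr]

theorem pr_W (b b' : G) (n : ℕ) (l : List (ℤˣ × G)) :
    pr φ (W b b' n l) = (t * of b * t⁻¹ * of b') ^ n * pr φ l := by
  induction n with
  | zero => simp [W]
  | succ n ih =>
    simp only [W, pr_cons, ih, pow_succ']
    simp [mul_assoc]

theorem pr_P (b b' : G) (n j : ℕ) : pr φ (P b b' n j) = gn φ b b' n ^ j := by
  induction j with
  | zero => simp [P, pr]
  | succ j ih =>
    simp only [P, pr_cons, pr_W, ih, pow_succ', gn]
    simp [mul_assoc]

theorem len_pow {b b' : G} (hb : b ∉ A) (hb' : b' ∉ B) (n j : ℕ) :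
    ((gn φ b b' n ^ j) • (empty : NormalWord d)).toList.length = j * (1 + 2 * n) := by
  let w : ReducedWord G A B := ⟨1, P b b' n j, (chain_P hb hb' n j).1⟩
  have h : ((gn φ b b' n ^ j) • (empty : NormalWord d)).toReducedWord.prod φ = w.prod φ := by
    rw [prod_smul, prod_empty, mul_one]
    have : w.prod φ = of 1 * pr φ (P b b' n j) := rfl
    rw [this, pr_P, map_one, one_mul]
  have h2 := (ReducedWord.map_fst_eq_and_of_prod_eq φ h).1
  have h3 := congrArg List.length h2
  rw [List.length_map, List.length_map] at h3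
  rw [h3]
  exact len_P b b' n j

theorem le_of_conj {b b' : G} (hb : b ∉ A) (hb' : b' ∉ B) {m n : ℕ}
    (h : IsConj (gn φ b b' n) (gn φ b b' m)) : m ≤ n := by
  obtain ⟨d⟩ := TransversalPair.nonempty G A B
  obtain ⟨c, hc⟩ := isConj_iff.1 h
  obtain ⟨K, hK, hK'⟩ := exists_cst (d := d) c
  by_contra hlt
  have key : ∀ j : ℕ, j * (1 + 2 * m) ≤ j * (1 + 2 * n) + 2 * K := by
    intro j
    have h1 := len_pow (φ := φ) (d := d) hb hb' m j
    rw [← hc, conj_pow] at h1
    have h2 := cst_mul (cst_mul hK (cst_pow (cst_gn (φ := φ) (d := d) b b' n) j)) hK'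
      (empty : NormalWord d)
    rw [h1] at h2
    simp only [empty_toList, List.length_nil] at h2
    omega
  have h1 := key (2 * K + 1)
  have h3 : (2 * K + 1) * (1 + 2 * n) + (2 * K + 1) * 2 ≤ (2 * K + 1) * (1 + 2 * m) := by
    rw [← mul_add]
    exact Nat.mul_le_mul_left _ (by omega)
  omega

end H239

open H239 in
theorem rowH {G : Type*} [Group G] {A B : Subgroup G} (φ : A ≃* B) (hA : A ≠ ⊤) (hB : B ≠ ⊤)
    (F : Set (HNNExtension G A B φ)) (hF : F.Finite) :
    ∃ g : HNNExtension G A B φ, ∀ a ∈ F, ∀ k : ℤ, ¬ IsConj g (a ^ k) := by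
  obtain ⟨b, hb⟩ : ∃ b, b ∉ A := by
    by_contra h
    push Not at h
    exact hA ((Subgroup.eq_top_iff' A).2 h)
  obtain ⟨b', hb'⟩ : ∃ b', b' ∉ B := by
    by_contra h
    push Not at h
    exact hB ((Subgroup.eq_top_iff' B).2 h)
  by_contra hcon
  push Not at hcon
  choose a ha k hk using fun n : ℕ => hcon (gn φ b b' n)
  let e : HNNExtension G A B φ →* Multiplicative ℤ :=
    HNNExtension.lift 1 (Multiplicative.ofAdd 1) (by intro a; simp)
  have het : e t = Multiplicative.ofAdd 1 := lift_t _ _ _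
  have heo : ∀ g, e (of g) = 1 := fun g => lift_of _ _ _ g
  have heg : ∀ n, e (gn φ b b' n) = Multiplicative.ofAdd 1 := by
    intro n
    unfold gn
    rw [map_mul, map_pow, map_mul, map_mul, map_mul, map_inv, het, heo, heo]
    simp
  have hek : ∀ n, k n * Multiplicative.toAdd (e (a n)) = 1 := by
    intro n
    obtain ⟨c, hc⟩ := isConj_iff.1 (hk n)
    have h := congrArg e hc
    rw [map_mul, map_mul, map_inv, mul_right_comm, mul_inv_cancel, one_mul, heg, map_zpow] at h
    have h2 := congrArg Multiplicative.toAdd h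
    rw [toAdd_ofAdd, toAdd_zpow, smul_eq_mul] at h2
    exact h2.symm
  have hinj : Function.Injective a := by
    intro n m hnm
    have hkk : k n = k m := by
      have h1 := hek n
      have h2 := hek m
      rw [← hnm] at h2
      have h3 : Multiplicative.toAdd (e (a n)) ≠ 0 := by
        intro h
        rw [h, mul_zero] at h1
        exact zero_ne_one h1
      exact mul_right_cancel₀ h3 (h1.trans h2.symm)
    have h1 : IsConj (gn φ b b' n) (gn φ b b' m) := by
      refine (hk n).trans ?_
      rw [hnm, hkk]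
      exact (hk m).symm
    exact le_antisymm (le_of_conj hb hb' h1.symm) (le_of_conj hb hb' h1)
  exact (Set.infinite_of_injective_forall_mem hinj ha) hF

end Vale.Agent.P216.R2.H189.V3
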