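import Mathlib

set_option linter.all false

/-! Row H: HNN extensions over proper subgroups are not covered by the conjugates of finitely many
cyclic groups. -/

namespace Vale.Agent.P216.R2.H189.V3

namespace RowH311

open HNNExtension HNNExtension.NormalWord

section

variable {G : Type*} [Group G] {A B : Subgroup G} {φ : A ≃* B} {d : TransversalPair G A B}

theorem len_units (u : ℤˣ) (w : NormalWord d) :
    (unitsSMul φ u w).toList.length ≤ w.toList.length + 1 := by
  unfold unitsSMul
  split_ifs with h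
  · cases w using consRecOn with
    | ofGroup g => simp [Cancels] at h
    | cons g u' w h1 h2 _ =>
      simp only [unitsSMulWithCancel, consRecOn_cons, group_smul_toList, cons_toList,
        List.length_cons]
      omega
  · simp

theorem le_prod (l : List (ℤˣ × G)) (w : NormalWord d) :
    (((l.map fun x => (t : HNNExtension G A B φ) ^ (x.1 : ℤ) * of x.2).prod) • w).toList.length ≤
      w.toList.length + l.length := by
  induction l with
  | nil => simp
  | cons a l ih =>
    rw [List.map_cons, List.prod_cons, mul_smul, mul_smul, t_pow_smul_eq_unitsSMul,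
      of_smul_eq_smul]
    refine (len_units _ _).trans ?_
    rw [group_smul_toList, List.length_cons]
    omega

/-- number of letters `t` of the normal form -/
noncomputable def len (d : TransversalPair G A B) (x : HNNExtension G A B φ) : ℕ :=
  (x • (empty : NormalWord d)).toList.length

theorem prod_self (x : HNNExtension G A B φ) : (x • (empty : NormalWord d)).prod φ = x := by
  rw [prod_smul, prod_empty, mul_one]

theorem smul_le (x : HNNExtension G A B φ) (w : NormalWord d) :
    (x • w).toList.length ≤ w.toList.length + len d x := by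
  have h1 := prod_self (d := d) x
  have h2 : x • w = (x • (empty : NormalWord d)).head •
      (((x • (empty : NormalWord d)).toList.map fun y =>
        (t : HNNExtension G A B φ) ^ (y.1 : ℤ) * of y.2).prod • w) := by
    rw [← of_smul_eq_smul (φ := φ), ← mul_smul]
    conv_lhs => rw [← h1]
    rfl
  rw [h2, group_smul_toList]
  exact le_prod _ _

theorem len_mul (x y : HNNExtension G A B φ) : len d (x * y) ≤ len d x + len d y := by
  unfold len
  rw [mul_smul]
  have := smul_le x (y • (empty : NormalWord d))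
  unfold len at this
  omega

/-- `x` is the product of a reduced list of length `k`, which does not begin with `t⁻¹` -/
def Rep (x : HNNExtension G A B φ) (k : ℕ) : Prop :=
  ∃ l : List (ℤˣ × G), l.IsChain (fun a b => a.2 ∈ toSubgroup A B a.1 → a.1 = b.1) ∧
    (∀ a ∈ l.head?, a.1 = 1) ∧ l.length = k ∧
    (l.map fun x => (t : HNNExtension G A B φ) ^ (x.1 : ℤ) * of x.2).prod = x

theorem rep_len {x : HNNExtension G A B φ} {k : ℕ} (h : Rep x k) : len d x = k := by
  obtain ⟨l, hl, -, hk, hx⟩ := h
  obtain ⟨w', h1, h2, -⟩ := ReducedWord.exists_normalWord_prod_eq φ d ⟨1, l, hl⟩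
  have h3 : w'.prod φ = x := by
    rw [h1, ReducedWord.prod]
    simp only [map_one, one_mul]
    exact hx
  have h4 : x • (empty : NormalWord d) = w' := by rw [← h3, prod_smul_empty]
  have h5 := congrArg List.length h2
  rw [List.length_map, List.length_map] at h5
  unfold len
  rw [h4, h5]
  exact hk

theorem rep_one : Rep (1 : HNNExtension G A B φ) 0 := ⟨[], List.isChain_nil, by simp, rfl, rfl⟩

theorem rep_t {x : HNNExtension G A B φ} {k : ℕ} (h : Rep x k) : Rep (t * x) (k + 1) := by
  obtain ⟨l, hl, hh, hk, hx⟩ := h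
  refine ⟨(1, 1) :: l, List.isChain_cons.2 ⟨?_, hl⟩, ?_, ?_, ?_⟩
  · intro y hy _
    exact (hh y hy).symm
  · intro a ha
    simp only [List.head?_cons, Option.mem_def, Option.some.injEq] at ha
    rw [← ha]
  · rw [List.length_cons, hk]
  · rw [List.map_cons, List.prod_cons, hx]
    simp

theorem rep_w {b b' : G} (hb : b ∉ A) (hb' : b' ∉ B) {x : HNNExtension G A B φ} {k : ℕ}
    (h : Rep x k) : Rep (t * of b * t⁻¹ * of b' * x) (k + 2) := by
  obtain ⟨l, hl, hh, hk, hx⟩ := h
  refine ⟨(1, b) :: (-1, b') :: l, List.isChain_cons.2 ⟨?_, List.isChain_cons.2 ⟨?_, hl⟩⟩,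
    ?_, ?_, ?_⟩
  · intro y _ h1
    exact absurd h1 hb
  · intro y _ h1
    exact absurd h1 hb'
  · intro a ha
    simp only [List.head?_cons, Option.mem_def, Option.some.injEq] at ha
    rw [← ha]
  · rw [List.length_cons, List.length_cons, hk]
  · rw [List.map_cons, List.map_cons, List.prod_cons, List.prod_cons, hx]
    simp [mul_assoc]

/-- the elements -/
def gn (φ : A ≃* B) (b b' : G) (n : ℕ) : HNNExtension G A B φ :=
  t * (t * of b * t⁻¹ * of b') ^ n

theorem rep_pow_w {b b' : G} (hb : b ∉ A) (hb' : b' ∉ B) (n : ℕ) {x : HNNExtension G A B φ}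
    {k : ℕ} (h : Rep x k) : Rep ((t * of b * t⁻¹ * of b') ^ n * x) (k + 2 * n) := by
  induction n with
  | zero => simpa using h
  | succ n ih =>
    have h1 := rep_w hb hb' ih
    rw [pow_succ', mul_assoc]
    exact h1

theorem rep_gn {b b' : G} (hb : b ∉ A) (hb' : b' ∉ B) (n j : ℕ) :
    Rep (gn φ b b' n ^ j) (j * (2 * n + 1)) := by
  induction j with
  | zero => simpa using rep_one
  | succ j ih =>
    have h1 := rep_t (rep_pow_w hb hb' n ih)
    have h2 : gn φ b b' n ^ (j + 1) =
        t * ((t * of b * t⁻¹ * of b') ^ n * gn φ b b' n ^ j) := by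
      rw [pow_succ', ← mul_assoc]
      rfl
    rw [h2]
    have h3 : (j + 1) * (2 * n + 1) = j * (2 * n + 1) + 2 * n + 1 := by ring
    rw [h3]
    exact h1

theorem conj_le {b b' : G} (hb : b ∉ A) (hb' : b' ∉ B) {n m : ℕ}
    (h : IsConj (gn φ b b' n) (gn φ b b' m)) : m ≤ n := by
  obtain ⟨d⟩ := TransversalPair.nonempty G A B
  obtain ⟨x, hx⟩ := isConj_iff.1 h
  by_contra hlt
  rw [not_le] at hlt
  have key : ∀ j : ℕ, j * (2 * m + 1) ≤ len d x + j * (2 * n + 1) + len d x⁻¹ := by
    intro j
    have h1 : gn φ b b' m ^ j = x * gn φ b b' n ^ j * x⁻¹ := by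
      rw [← hx, conj_pow]
    have h2 := rep_len (d := d) (rep_gn (φ := φ) hb hb' m j)
    have h3 := rep_len (d := d) (rep_gn (φ := φ) hb hb' n j)
    have h4 := len_mul (d := d) (x * gn φ b b' n ^ j) x⁻¹
    have h5 := len_mul (d := d) x (gn φ b b' n ^ j)
    rw [← h1] at h4
    omega
  have h6 := key (len d x + len d x⁻¹ + 1)
  have h7 : (len d x + len d x⁻¹ + 1) * (2 * n + 1) + (len d x + len d x⁻¹ + 1) * 2 ≤
      (len d x + len d x⁻¹ + 1) * (2 * m + 1) := by
    rw [← mul_add]
    exact Nat.mul_le_mul_left _ (by omega)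
  omega

end

end RowH311

open HNNExtension RowH311 in
theorem rowH {G : Type*} [Group G] {A B : Subgroup G} (φ : A ≃* B) (hA : A ≠ ⊤) (hB : B ≠ ⊤)
    (F : Set (HNNExtension G A B φ)) (hF : F.Finite) :
    ∃ g : HNNExtension G A B φ, ∀ a ∈ F, ∀ k : ℤ, ¬ IsConj g (a ^ k) := by
  classical
  obtain ⟨b, hb⟩ : ∃ b, b ∉ A := by
    by_contra h
    push Not at h
    exact hA (eq_top_iff.2 fun x _ => h x)
  obtain ⟨b', hb'⟩ : ∃ b, b ∉ B := by
    by_contra h
    push Not at h
    exact hB (eq_top_iff.2 fun x _ => h x)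
  let e : HNNExtension G A B φ →* Multiplicative ℤ :=
    HNNExtension.lift 1 (Multiplicative.ofAdd 1) (by intro a; simp)
  have he : ∀ n, e (gn φ b b' n) = Multiplicative.ofAdd 1 := by
    intro n
    simp only [gn, e, map_mul, map_pow, map_inv, lift_t, lift_of, MonoidHom.one_apply, mul_one,
      mul_inv_cancel, one_pow]
  by_contra hcon
  push Not at hcon
  choose a ha k hk using fun n : ℕ => hcon (gn φ b b' n)
  have hk1 : ∀ n, k n = 1 ∨ k n = -1 := by
    intro n
    obtain ⟨x, hx⟩ := isConj_iff.1 (hk n)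
    have h1 := congrArg e hx
    rw [map_mul, map_mul, map_inv, he, mul_inv_cancel_comm, map_zpow] at h1
    have h2 : (1 : ℤ) = k n * Multiplicative.toAdd (e (a n)) := by
      have := congrArg Multiplicative.toAdd h1
      rw [toAdd_ofAdd, toAdd_zpow, smul_eq_mul] at this
      exact this
    exact Int.eq_one_or_neg_one_of_mul_eq_one h2.symm
  haveI : Finite F := hF
  let f : ℕ → F × Bool := fun n => (⟨a n, ha n⟩, decide (k n = 1))
  obtain ⟨n, m, hnm, hf⟩ := Finite.exists_ne_map_eq_of_infinite f
  have h1 : a n = a m := congrArg (fun q => (q.1 : HNNExtension G A B φ)) hf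
  have h2 : decide (k n = 1) = decide (k m = 1) := congrArg Prod.snd hf
  have h3 : k n = k m := by
    rcases hk1 n with h4 | h4 <;> rcases hk1 m with h5 | h5 <;> rw [h4, h5] at h2 ⊢
    · simp at h2
    · simp at h2
  have h4 : IsConj (gn φ b b' n) (gn φ b b' m) := by
    refine (hk n).trans ?_
    rw [h1, h3]
    exact (hk m).symm
  exact hnm (le_antisymm (conj_le hb hb' h4.symm) (conj_le hb hb' h4))

end Vale.Agent.P216.R2.H189.V3
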