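import Mathlib

namespace Vale.Agent.P216.R2.H189.V3

open HNNExtension HNNExtension.NormalWord

section len

variable {G : Type*} [Group G] {A B : Subgroup G} (φ : A ≃* B) {d : TransversalPair G A B}

theorem len_units (u : ℤˣ) (w : NormalWord d) :
    (unitsSMul φ u w).toList.length ≤ w.toList.length + 1 := by
  unfold unitsSMul
  split_ifs with h
  · cases w using consRecOn with
    | ofGroup g => simp [Cancels] at h
    | cons g u' w h1 h2 ih =>
      simp only [unitsSMulWithCancel, consRecOn_cons, group_smul_toList, cons_toList,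
        List.length_cons]
      omega
  · simp

theorem len_prod (w v : NormalWord d) :
    ((w.prod φ) • v).toList.length ≤ v.toList.length + w.toList.length := by
  induction w using consRecOn with
  | ofGroup g =>
    have : ((ofGroup g : NormalWord d).prod φ) = HNNExtension.of g := by
      simp [ReducedWord.prod]
    rw [this, of_smul_eq_smul, group_smul_toList]
    omega
  | cons g u w h1 h2 ih =>
    rw [prod_cons, mul_smul, mul_smul, of_smul_eq_smul, group_smul_toList,
      t_pow_smul_eq_unitsSMul, cons_toList, List.length_cons]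
    have := len_units φ u ((w.prod φ) • v)
    omega

variable (d) in
noncomputable def ell (x : HNNExtension G A B φ) : ℕ :=
  (x • (NormalWord.empty : NormalWord d)).toList.length

theorem ell_mul (x y : HNNExtension G A B φ) : ell φ d (x * y) ≤ ell φ d x + ell φ d y := by
  have hx : ((x • (NormalWord.empty : NormalWord d)).prod φ) = x := by
    rw [prod_smul, prod_empty, mul_one]
  have := len_prod φ (x • (NormalWord.empty : NormalWord d)) (y • (NormalWord.empty : NormalWord d))
  rw [hx] at this
  unfold ell
  rw [mul_smul]
  omega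

theorem ell_red (w : ReducedWord G A B) : ell φ d (w.prod φ) = w.toList.length := by
  obtain ⟨w', h1, h2, _⟩ := ReducedWord.exists_normalWord_prod_eq φ d w
  unfold ell
  rw [← h1, prod_smul_empty]
  have := congrArg List.length h2
  simpa using this

end len

theorem rowH {G : Type*} [Group G] {A B : Subgroup G} (φ : A ≃* B) (hA : A ≠ ⊤) (hB : B ≠ ⊤)
    (F : Set (HNNExtension G A B φ)) (hF : F.Finite) :
    ∃ g : HNNExtension G A B φ, ∀ a ∈ F, ∀ k : ℤ, ¬ IsConj g (a ^ k) := by
  classical
  by_contra hcon
  push Not at hcon
  obtain ⟨d⟩ := TransversalPair.nonempty G A B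
  obtain ⟨b, hb⟩ : ∃ b : G, b ∉ A := by
    by_contra h
    push Not at h
    exact hA (eq_top_iff.mpr fun x _ => h x)
  obtain ⟨b', hb'⟩ : ∃ b : G, b ∉ B := by
    by_contra h
    push Not at h
    exact hB (eq_top_iff.mpr fun x _ => h x)
  let X : List (ℤˣ × G) := [(1, b), (-1, b')]
  let L : ℕ → List (ℤˣ × G) := fun n => (1, b) :: (List.replicate n X).flatten
  let ev : List (ℤˣ × G) → HNNExtension G A B φ := fun l =>
    (l.map fun x => (t ^ (x.1 : ℤ) * of x.2 : HNNExtension G A B φ)).prod
  have ev_app : ∀ l l', ev (l ++ l') = ev l * ev l' := by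
    intro l l'
    simp only [ev, List.map_append, List.prod_append]
  have hrep : ∀ (l : List (ℤˣ × G)) (n : ℕ), ev (List.replicate n l).flatten = ev l ^ n := by
    intro l n
    induction n with
    | zero => simp [ev]
    | succ n ih => rw [List.replicate_succ, List.flatten_cons, ev_app, ih, pow_succ']
  have hmem : ∀ n, ∀ x ∈ L n, x.2 ∉ toSubgroup A B x.1 := by
    intro n x hx
    have : x = (1, b) ∨ x = (-1, b') := by
      simp only [L, X, List.mem_cons, List.mem_flatten] at hx
      rcases hx with h | ⟨l, hl, hx⟩
      · exact Or.inl h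
      · have := List.eq_of_mem_replicate hl
        subst this
        simpa using hx
    rcases this with rfl | rfl
    · exact hb
    · exact hb'
  let w : ℕ → ℕ → ReducedWord G A B := fun n j =>
    { head := 1
      toList := (List.replicate j (L n)).flatten
      chain := by
        refine List.Pairwise.isChain (List.pairwise_of_forall_mem_list ?_)
        intro x hx y _ hxs
        exfalso
        obtain ⟨l, hl, hx⟩ := List.mem_flatten.mp hx
        have := List.eq_of_mem_replicate hl
        subst this
        exact hmem n x hx hxs }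
  let g : ℕ → HNNExtension G A B φ := fun n => ev (L n)
  have hw : ∀ n j, (w n j).prod φ = g n ^ j := by
    intro n j
    have : (w n j).prod φ = ev (List.replicate j (L n)).flatten := by
      simp only [w, ReducedWord.prod, map_one, one_mul, ev]
    rw [this, hrep]
  have hlen : ∀ n j, (w n j).toList.length = j * (1 + 2 * n) := by
    intro n j
    simp only [w, L, X, List.length_flatten, List.map_replicate, List.sum_replicate,
      List.length_cons, List.length_nil, smul_eq_mul]
    ring
  have hell : ∀ n j, ell φ d (g n ^ j) = j * (1 + 2 * n) := by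
    intro n j
    rw [← hw, ell_red, hlen]
  have hconj : ∀ n m, IsConj (g n) (g m) → m ≤ n := by
    intro n m h
    obtain ⟨c, hc⟩ := isConj_iff.mp h
    by_contra hlt
    push Not at hlt
    have key : ∀ j, j * (1 + 2 * m) ≤ ell φ d c + j * (1 + 2 * n) + ell φ d c⁻¹ := by
      intro j
      have h1 : g m ^ j = c * g n ^ j * c⁻¹ := by
        rw [← hc, conj_pow]
      have h2 := ell_mul φ (d := d) (c * g n ^ j) c⁻¹
      have h3 := ell_mul φ (d := d) c (g n ^ j)
      rw [← h1] at h2
      rw [hell] at h2 h3
      omega
    have := key (ell φ d c + ell φ d c⁻¹ + 1)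
    nlinarith
  let e : HNNExtension G A B φ →* Multiplicative ℤ :=
    HNNExtension.lift 1 (Multiplicative.ofAdd 1) (by intro a; simp)
  have he_t : e t = Multiplicative.ofAdd 1 := HNNExtension.lift_t _ _ _
  have he_of : ∀ x, e (of x) = 1 := fun x => by
    simp [e]
  have heg : ∀ n, e (g n) = Multiplicative.ofAdd 1 := by
    intro n
    have h1 : ev (L n) = ev [(1, b)] * ev X ^ n := by
      rw [← hrep, ← ev_app]
      rfl
    have h2 : e (ev [(1, b)]) = Multiplicative.ofAdd 1 := by
      simp [ev, he_t, he_of]
    have h3 : e (ev X) = 1 := by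
      simp [ev, X, he_t, he_of]
    simp only [g]
    rw [h1, map_mul, map_pow, h2, h3, one_pow, mul_one]
  have hall : ∀ n : ℕ, ∃ a : F, ∃ u : ℤˣ, IsConj (g n) (a.1 ^ (u : ℤ)) := by
    intro n
    obtain ⟨a, ha, k, hk⟩ := hcon (g n)
    have h1 : e (g n) = e (a ^ k) := by
      obtain ⟨c, hc⟩ := isConj_iff.mp hk
      rw [← hc, map_mul, map_mul, map_inv, mul_comm (e c), mul_assoc, mul_inv_cancel, mul_one]
    rw [heg, map_zpow] at h1
    have h2 : (1 : ℤ) = k * Multiplicative.toAdd (e a) := by
      have := congrArg Multiplicative.toAdd h1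
      simpa using this
    have h3 : IsUnit k := IsUnit.of_mul_eq_one _ h2.symm
    obtain ⟨u, rfl⟩ := h3
    exact ⟨⟨a, ha⟩, u, hk⟩
  choose a u hau using hall
  haveI : Finite F := hF
  obtain ⟨n, m, hnm, hf⟩ := Finite.exists_ne_map_eq_of_infinite (fun n => (a n, u n))
  have h1 : a n = a m := (Prod.mk.inj hf).1
  have h2 : u n = u m := (Prod.mk.inj hf).2
  have h3 : IsConj (g n) (g m) := by
    have := (hau m).symm
    rw [← h1, ← h2] at this
    exact (hau n).trans this
  exact hnm (le_antisymm (hconj m n h3.symm) (hconj n m h3))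

end Vale.Agent.P216.R2.H189.V3
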