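import Mathlib

/-!
# P216, row H: HNN extensions with proper associated subgroups are not covered by the conjugates
of finitely many cyclic subgroups
-/

namespace Vale.Agent.P216.R2.H189.V3

namespace RowH379

open HNNExtension HNNExtension.NormalWord

variable {G : Type*} [Group G] {A B : Subgroup G} (φ : A ≃* B)

theorem len_units {d : TransversalPair G A B} (u : ℤˣ) (w : NormalWord d) :
    (unitsSMul φ u w).toList.length ≤ w.toList.length + 1 := by
  classical
  unfold unitsSMul
  split_ifs with h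
  · cases w using consRecOn with
    | ofGroup g => simp [Cancels] at h
    | cons g u' w h1 h2 ih =>
      simp only [unitsSMulWithCancel, consRecOn_cons, group_smul_toList, cons_toList,
        List.length_cons]
      omega
  · simp

/-- the number of letters `t` in the normal form -/
noncomputable def len (d : TransversalPair G A B) (x : HNNExtension G A B φ) : ℕ :=
  (x • (NormalWord.empty : NormalWord d)).toList.length

theorem len_raw {d : TransversalPair G A B} (l : List (ℤˣ × G)) (w : NormalWord d) :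
    (((l.map (fun x => (t : HNNExtension G A B φ) ^ (x.1 : ℤ) * of x.2)).prod) •
      w).toList.length ≤ l.length + w.toList.length := by
  induction l with
  | nil => simp
  | cons a l ih =>
    rw [List.map_cons, List.prod_cons, mul_smul, mul_smul, t_pow_smul_eq_unitsSMul,
      of_smul_eq_smul]
    refine (len_units φ _ _).trans ?_
    rw [group_smul_toList, List.length_cons]
    omega

theorem len_mul (d : TransversalPair G A B) (x y : HNNExtension G A B φ) :
    len φ d (x * y) ≤ len φ d x + len φ d y := by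
  have hx : x = (x • (NormalWord.empty : NormalWord d)).prod φ := by simp
  unfold len
  have h1 : (x * y) • (NormalWord.empty : NormalWord d) =
      (of (x • (NormalWord.empty : NormalWord d)).head * (((x • (NormalWord.empty :
        NormalWord d)).toList.map (fun x => (t : HNNExtension G A B φ) ^ (x.1 : ℤ) *
          of x.2)).prod)) • (y • (NormalWord.empty : NormalWord d)) := by
    rw [mul_smul]
    exact congrArg (fun z => z • (y • (NormalWord.empty : NormalWord d))) hx
  rw [h1, mul_smul, of_smul_eq_smul, group_smul_toList]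
  exact len_raw φ _ _

theorem len_red (d : TransversalPair G A B) (w : ReducedWord G A B) :
    len φ d (w.prod φ) = w.toList.length := by
  obtain ⟨w', h1, h2, -⟩ := HNNExtension.ReducedWord.exists_normalWord_prod_eq φ d w
  unfold len
  rw [← h1, prod_smul_empty]
  simpa using congrArg List.length h2

/-- `x` has a reduced word with `k` letters `t ^ (±1)`, the first of which is `t` -/
def P (x : HNNExtension G A B φ) (k : ℕ) : Prop :=
  ∃ w : ReducedWord G A B, w.head = 1 ∧ w.prod φ = x ∧ w.toList.length = k ∧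
    ∀ a ∈ w.toList.head?, a.1 = 1

theorem P_one : P φ 1 0 :=
  ⟨ReducedWord.empty G A B, rfl, by simp [ReducedWord.prod], rfl, by simp⟩

theorem P_t {x : HNNExtension G A B φ} {k : ℕ} (h : P φ x k) : P φ (t * x) (k + 1) := by
  obtain ⟨w, h1, h2, h3, h4⟩ := h
  refine ⟨⟨1, (1, 1) :: w.toList, List.isChain_cons.2 ⟨fun y hy _ => (h4 y hy).symm, w.chain⟩⟩,
    rfl, ?_, by simp [h3], by simp⟩
  rw [← h2]
  simp [ReducedWord.prod, h1]

theorem P_w {b b' : G} (hb : b ∉ A) (hb' : b' ∉ B) {x : HNNExtension G A B φ} {k : ℕ}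
    (h : P φ x k) : P φ (t * of b * t⁻¹ * of b' * x) (k + 2) := by
  obtain ⟨w, h1, h2, h3, h4⟩ := h
  refine ⟨⟨1, (1, b) :: (-1, b') :: w.toList, List.isChain_cons.2 ⟨?_, List.isChain_cons.2
    ⟨?_, w.chain⟩⟩⟩, rfl, ?_, by simp [h3], by simp⟩
  · intro y _ hy
    exact absurd hy hb
  · intro y _ hy
    exact absurd hy hb'
  · rw [← h2]
    simp [ReducedWord.prod, h1, mul_assoc]

theorem P_wn {b b' : G} (hb : b ∉ A) (hb' : b' ∉ B) (n : ℕ) {x : HNNExtension G A B φ} {k : ℕ}
    (h : P φ x k) : P φ ((t * of b * t⁻¹ * of b') ^ n * x) (k + 2 * n) := by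
  induction n with
  | zero => simpa using h
  | succ n ih =>
    have := P_w φ hb hb' ih
    rw [pow_succ', mul_assoc]
    convert this using 1
    ring

theorem P_g {b b' : G} (hb : b ∉ A) (hb' : b' ∉ B) (n j : ℕ) :
    P φ ((t * (t * of b * t⁻¹ * of b') ^ n) ^ j) (j * (2 * n + 1)) := by
  induction j with
  | zero => simpa using P_one φ
  | succ j ih =>
    have := P_t φ (P_wn φ hb hb' n ih)
    rw [pow_succ', mul_assoc]
    convert this using 1
    ring

theorem len_g (d : TransversalPair G A B) {b b' : G} (hb : b ∉ A) (hb' : b' ∉ B) (n j : ℕ) :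
    len φ d ((t * (t * of b * t⁻¹ * of b') ^ n) ^ j) = j * (2 * n + 1) := by
  obtain ⟨w, -, h2, h3, -⟩ := P_g φ hb hb' n j
  rw [← h2, len_red, h3]

theorem key (d : TransversalPair G A B) {b b' : G} (hb : b ∉ A) (hb' : b' ∉ B) {n m : ℕ}
    (h : IsConj (t * (t * of b * t⁻¹ * of b') ^ n : HNNExtension G A B φ)
      (t * (t * of b * t⁻¹ * of b') ^ m)) : m ≤ n := by
  obtain ⟨x, hx⟩ := isConj_iff.1 h
  by_contra hnm
  set j := len φ d x + len φ d x⁻¹ + 1 with hj
  have h1 : len φ d ((t * (t * of b * t⁻¹ * of b') ^ m) ^ j) ≤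
      len φ d x + len φ d ((t * (t * of b * t⁻¹ * of b') ^ n) ^ j) + len φ d x⁻¹ := by
    rw [← hx, conj_pow]
    refine (len_mul φ d _ _).trans ?_
    have := len_mul φ d x ((t * (t * of b * t⁻¹ * of b') ^ n) ^ j)
    omega
  rw [len_g φ d hb hb', len_g φ d hb hb'] at h1
  have h2 : j * (2 * n + 1) + j ≤ j * (2 * m + 1) := by
    have : j * (2 * n + 1) + j = j * (2 * n + 2) := by ring
    rw [this]
    exact Nat.mul_le_mul_left _ (by omega)
  omega

end RowH379

open HNNExtension HNNExtension.NormalWord RowH379 in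
theorem rowH {G : Type*} [Group G] {A B : Subgroup G} (φ : A ≃* B) (hA : A ≠ ⊤) (hB : B ≠ ⊤)
    (F : Set (HNNExtension G A B φ)) (hF : F.Finite) :
    ∃ g : HNNExtension G A B φ, ∀ a ∈ F, ∀ k : ℤ, ¬ IsConj g (a ^ k) := by
  classical
  by_contra hcon
  push Not at hcon
  obtain ⟨b, hb⟩ : ∃ b, b ∉ A := by
    by_contra h
    push Not at h
    exact hA ((Subgroup.eq_top_iff' A).2 h)
  obtain ⟨b', hb'⟩ : ∃ b, b ∉ B := by
    by_contra h
    push Not at h
    exact hB ((Subgroup.eq_top_iff' B).2 h)
  obtain ⟨d⟩ := TransversalPair.nonempty G A B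
  let e : HNNExtension G A B φ →* Multiplicative ℤ :=
    lift 1 (Multiplicative.ofAdd 1) (fun a => by simp)
  have he : ∀ n : ℕ, e (t * (t * of b * t⁻¹ * of b') ^ n) = Multiplicative.ofAdd 1 := by
    intro n
    simp [e]
  have hS : (F ∪ (fun x => x⁻¹) '' F).Finite := hF.union (hF.image _)
  have h1 : ∀ n : ℕ, ∃ c : (F ∪ (fun x => x⁻¹) '' F : Set (HNNExtension G A B φ)),
      IsConj (t * (t * of b * t⁻¹ * of b') ^ n : HNNExtension G A B φ) c := by
    intro n
    obtain ⟨a, ha, k, hk⟩ := hcon (t * (t * of b * t⁻¹ * of b') ^ n)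
    have h2 := isConj_iff_eq.1 (e.map_isConj hk)
    rw [he, map_zpow] at h2
    have h3 : k * Multiplicative.toAdd (e a) = 1 := by
      have := congrArg Multiplicative.toAdd h2
      simpa using this.symm
    rcases Int.eq_one_or_neg_one_of_mul_eq_one h3 with h | h
    · refine ⟨⟨a, Or.inl ha⟩, ?_⟩
      simpa [h] using hk
    · refine ⟨⟨a⁻¹, Or.inr ⟨a, ha, rfl⟩⟩, ?_⟩
      simpa [h] using hk
  choose c hc using h1
  have : Finite (F ∪ (fun x => x⁻¹) '' F : Set (HNNExtension G A B φ)) := hS.to_subtype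
  obtain ⟨n, m, hnm, hcc⟩ := Finite.exists_ne_map_eq_of_infinite c
  have h4 := (hc n).trans (hcc ▸ (hc m).symm)
  exact hnm (le_antisymm (key φ d hb hb' h4.symm) (key φ d hb hb' h4))

end Vale.Agent.P216.R2.H189.V3
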