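import Mathlib

/-!
# P216, row H: HNN extensions with proper associated subgroups have infinitely many classes
-/

open HNNExtension HNNExtension.NormalWord

namespace Vale.Agent.P216.R2.H189.V3

section

variable {G : Type*} [Group G] {A B : Subgroup G} (φ : A ≃* B)

theorem unitsSMul_length (d : TransversalPair G A B) (u : ℤˣ) (w : NormalWord d) :
    (unitsSMul φ u w).toList.length ≤ w.toList.length + 1 := by
  by_cases hc : Cancels u w
  · rw [unitsSMul, dif_pos hc]
    induction w using consRecOn with
    | ofGroup g => simp [Cancels] at hc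
    | cons g u' w h1 h2 ih =>
      have e : (unitsSMulWithCancel φ u (cons g u' w h1 h2) hc).toList = w.toList := rfl
      rw [e, cons_toList, List.length_cons]
      omega
  · rw [unitsSMul, dif_neg hc]
    simp

theorem smul_length (d : TransversalPair G A B) (v : NormalWord d) : ∀ w : NormalWord d,
    ((v.prod φ) • w).toList.length ≤ v.toList.length + w.toList.length := by
  induction v using consRecOn with
  | ofGroup g =>
    intro w
    have : (ofGroup g : NormalWord d).prod φ = of g := by simp [ReducedWord.prod, ofGroup]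
    rw [this, of_smul_eq_smul]
    simp
  | cons g u v h1 h2 ih =>
    intro w
    rw [prod_cons, mul_smul, mul_smul, of_smul_eq_smul, t_pow_smul_eq_unitsSMul,
      group_smul_toList, cons_toList, List.length_cons]
    have h3 := unitsSMul_length φ d u ((v.prod φ) • w)
    have h4 := ih w
    omega

/-- The number of letters `t` or `t⁻¹` in the normal form. -/
noncomputable def len (d : TransversalPair G A B) (x : HNNExtension G A B φ) : ℕ :=
  (x • (empty : NormalWord d)).toList.length

theorem len_mul (d : TransversalPair G A B) (x y : HNNExtension G A B φ) :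
    len φ d (x * y) ≤ len φ d x + len φ d y := by
  have h := smul_length φ d (x • (empty : NormalWord d)) (y • (empty : NormalWord d))
  rw [prod_smul, prod_empty, mul_one] at h
  unfold len
  rwa [mul_smul]

theorem len_reduced (d : TransversalPair G A B) (w : ReducedWord G A B) :
    len φ d (w.prod φ) = w.toList.length := by
  obtain ⟨w', h1, h2, -⟩ := ReducedWord.exists_normalWord_prod_eq φ d w
  have h3 : (w'.prod φ) • (empty : NormalWord d) = w' := prod_smul_empty φ w'
  unfold len
  rw [← h1, h3]
  simpa using congrArg List.length h2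

/-- The product of a list of letters. -/
def P (l : List (ℤˣ × G)) : HNNExtension G A B φ :=
  (l.map fun x => t ^ (x.1 : ℤ) * of x.2).prod

theorem P_append (l l' : List (ℤˣ × G)) : P φ (l ++ l') = P φ l * P φ l' := by
  simp [P]

theorem chain_of (l : List (ℤˣ × G)) (hl : ∀ a ∈ l, a.2 ∉ toSubgroup A B a.1) :
    l.IsChain (fun a b => a.2 ∈ toSubgroup A B a.1 → a.1 = b.1) := by
  induction l with
  | nil => exact List.isChain_nil
  | cons a l ih =>
    refine List.isChain_cons.2 ⟨fun b _ h => absurd h (hl a (by simp)), ih fun c hc => hl c ?_⟩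
    simp [hc]

theorem len_P (d : TransversalPair G A B) (l : List (ℤˣ × G))
    (hl : ∀ a ∈ l, a.2 ∉ toSubgroup A B a.1) : len φ d (P φ l) = l.length := by
  have h := len_reduced φ d { head := 1, toList := l, chain := chain_of l hl }
  rw [← h]
  simp [ReducedWord.prod, P]

/-- The list `y (y z)^n`. -/
def lst (b b' : G) : ℕ → List (ℤˣ × G)
  | 0 => [(1, b)]
  | n + 1 => (1, b) :: (-1, b') :: lst b b' n

omit [Group G] in
theorem lst_length (b b' : G) (n : ℕ) : (lst b b' n).length = 2 * n + 1 := by
  induction n with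
  | zero => rfl
  | succ n ih => simp [lst, ih]; omega

theorem lst_good {b b' : G} (hb : b ∉ A) (hb' : b' ∉ B) (n : ℕ) :
    ∀ a ∈ lst b b' n, a.2 ∉ toSubgroup A B a.1 := by
  induction n with
  | zero => intro a ha; simp [lst] at ha; subst ha; simpa using hb
  | succ n ih =>
    intro a ha
    simp only [lst, List.mem_cons] at ha
    rcases ha with rfl | rfl | ha
    · simpa using hb
    · simpa using hb'
    · exact ih a ha

theorem pow_list {b b' : G} (hb : b ∉ A) (hb' : b' ∉ B) (n j : ℕ) :
    ∃ l : List (ℤˣ × G), (∀ a ∈ l, a.2 ∉ toSubgroup A B a.1) ∧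
      P φ l = P φ (lst b b' n) ^ j ∧ l.length = j * (2 * n + 1) := by
  induction j with
  | zero => exact ⟨[], by simp, by simp [P], by simp⟩
  | succ j ih =>
    obtain ⟨l, h1, h2, h3⟩ := ih
    refine ⟨lst b b' n ++ l, ?_, ?_, ?_⟩
    · intro a ha
      rcases List.mem_append.1 ha with h | h
      · exact lst_good hb hb' n a h
      · exact h1 a h
    · rw [P_append, h2, pow_succ']
    · rw [List.length_append, h3, lst_length]; ring

theorem le_of_conj {b b' : G} (hb : b ∉ A) (hb' : b' ∉ B) {n m : ℕ}
    (h : IsConj (P φ (lst b b' m)) (P φ (lst b b' n))) : n ≤ m := by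
  obtain ⟨d⟩ := TransversalPair.nonempty G A B
  obtain ⟨c, hc⟩ := isConj_iff.1 h
  by_contra hnm
  push Not at hnm
  set j : ℕ := len φ d c + len φ d c⁻¹ + 1 with hj
  obtain ⟨l, h1, h2, h3⟩ := pow_list φ hb hb' n j
  obtain ⟨l', h1', h2', h3'⟩ := pow_list φ hb hb' m j
  have e : P φ l = c * P φ l' * c⁻¹ := by
    rw [h2, h2', ← hc, conj_pow]
  have k1 := len_mul φ d (c * P φ l') c⁻¹
  have k2 := len_mul φ d c (P φ l')
  rw [← e, len_P φ d l h1] at k1
  rw [len_P φ d l' h1'] at k2
  have k3 : j * (2 * n + 1) ≤ len φ d c + j * (2 * m + 1) + len φ d c⁻¹ := by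
    rw [h3] at k1
    rw [h3'] at k2
    omega
  have k4 : j * (2 * m + 1) + j * 2 ≤ j * (2 * n + 1) := by
    rw [← Nat.mul_add]
    exact Nat.mul_le_mul_left _ (by omega)
  omega

end

theorem rowH {G : Type*} [Group G] {A B : Subgroup G} (φ : A ≃* B) (hA : A ≠ ⊤) (hB : B ≠ ⊤)
    (F : Set (HNNExtension G A B φ)) (hF : F.Finite) :
    ∃ g : HNNExtension G A B φ, ∀ a ∈ F, ∀ k : ℤ, ¬ IsConj g (a ^ k) := by
  obtain ⟨b, hb⟩ : ∃ b, b ∉ A := by
    by_contra h
    push Not at h
    exact hA ((Subgroup.eq_top_iff' A).2 h)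
  obtain ⟨b', hb'⟩ : ∃ b, b ∉ B := by
    by_contra h
    push Not at h
    exact hB ((Subgroup.eq_top_iff' B).2 h)
  by_contra hcon
  push Not at hcon
  let e : HNNExtension G A B φ →* Multiplicative ℤ :=
    HNNExtension.lift 1 (Multiplicative.ofAdd 1) (by intro a; simp)
  have he : ∀ n, e (P φ (lst b b' n)) = Multiplicative.ofAdd 1 := by
    intro n
    induction n with
    | zero => simp [P, lst, e]
    | succ n ih =>
      have : P φ (lst b b' (n + 1)) = (t ^ (1 : ℤ) * of b) * ((t ^ (-1 : ℤ) * of b') *
        P φ (lst b b' n)) := by simp [P, lst]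
      rw [this, map_mul, map_mul e (t ^ (-1 : ℤ) * of b'), ih]
      simp [e]
  choose a ha k hk using fun n => hcon (P φ (lst b b' n))
  have hk1 : ∀ n, k n = 1 ∨ k n = -1 := by
    intro n
    have h1 : IsConj (e (P φ (lst b b' n))) (e (a n ^ k n)) := e.map_isConj (hk n)
    rw [isConj_iff_eq, he, map_zpow] at h1
    have h2 : (1 : ℤ) = k n * Multiplicative.toAdd (e (a n)) := by
      have := congrArg Multiplicative.toAdd h1
      simpa using this
    exact Int.isUnit_iff.1 (IsUnit.of_mul_eq_one _ h2.symm)
  have _ : Finite F := hF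
  have _ : Finite ({1, -1} : Set ℤ) := Set.toFinite _
  let f : ℕ → F × ({1, -1} : Set ℤ) := fun n => (⟨a n, ha n⟩, ⟨k n, by simpa using hk1 n⟩)
  obtain ⟨n, m, hnm, hf⟩ := Finite.exists_ne_map_eq_of_infinite f
  have h1 : a n = a m :=
    congrArg (fun p : F × ({1, -1} : Set ℤ) => (p.1 : HNNExtension G A B φ)) hf
  have h2 : k n = k m := congrArg (fun p : F × ({1, -1} : Set ℤ) => (p.2 : ℤ)) hf
  have h3 : IsConj (P φ (lst b b' n)) (P φ (lst b b' m)) := by
    refine (hk n).trans ?_
    rw [h1, h2]
    exact (hk m).symm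
  exact hnm (le_antisymm (le_of_conj φ hb hb' h3.symm) (le_of_conj φ hb hb' h3))

end Vale.Agent.P216.R2.H189.V3
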