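import Mathlib

/-!
# P216, row H: HNN extensions are not finitely many conjugacy classes of cyclic groups
-/

namespace Vale.Agent.P216.R2.H189.V3

open HNNExtension HNNExtension.NormalWord

namespace H481

section

variable {G : Type*} [Group G] {A B : Subgroup G} {φ : A ≃* B} {d : TransversalPair G A B}

theorem len_units (u : ℤˣ) (w : NormalWord d) :
    (unitsSMul φ u w).toList.length ≤ w.toList.length + 1 := by
  unfold unitsSMul
  by_cases h : Cancels u w
  · simp only [dif_pos h]
    induction w using consRecOn with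
    | ofGroup g => simp [Cancels] at h
    | cons g u' w h1 h2 _ =>
      simp only [unitsSMulWithCancel, consRecOn_cons, group_smul_toList, cons_toList,
        List.length_cons]
      omega
  · simp only [dif_neg h]
    simp

theorem len_act (w₁ w : NormalWord d) :
    ((w₁.prod φ : HNNExtension G A B φ) • w).toList.length ≤
      w₁.toList.length + w.toList.length := by
  induction w₁ using consRecOn with
  | ofGroup g =>
    have h : (ofGroup g : NormalWord d).prod φ = of g := by simp [ofGroup, ReducedWord.prod]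
    rw [h, of_smul_eq_smul, group_smul_toList]
    simp
  | cons g u w' h1 h2 ih =>
    rw [prod_cons, mul_smul, mul_smul, of_smul_eq_smul, group_smul_toList,
      t_pow_smul_eq_unitsSMul]
    refine (len_units u _).trans ?_
    simp only [cons_toList, List.length_cons]
    omega

variable (φ d) in
/-- the length -/
noncomputable def ell (x : HNNExtension G A B φ) : ℕ :=
  (x • (NormalWord.empty : NormalWord d)).toList.length

theorem ell_mul (x y : HNNExtension G A B φ) : ell φ d (x * y) ≤ ell φ d x + ell φ d y := by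
  have h : (x • (NormalWord.empty : NormalWord d)).prod φ = x := by simp
  have h1 := len_act (φ := φ) (x • (NormalWord.empty : NormalWord d)) (y • NormalWord.empty)
  rw [h, ← mul_smul] at h1
  exact h1

theorem ell_red (w : ReducedWord G A B) : ell φ d (w.prod φ) = w.toList.length := by
  obtain ⟨w', h1, h2, -⟩ := ReducedWord.exists_normalWord_prod_eq φ d w
  have h3 : ell φ d (w.prod φ) = w'.toList.length := by
    unfold ell
    rw [← h1, prod_smul_empty]
  have h4 := congrArg List.length h2
  rw [List.length_map, List.length_map] at h4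
  rw [h3, h4]

variable (φ) in
/-- `t b t⁻¹ b'` -/
def wd (b b' : G) : HNNExtension G A B φ := t * of b * (t⁻¹ * of b')

theorem red_word {b b' : G} (hb : b ∉ A) (hb' : b' ∉ B) (s : List Bool) :
    ∃ W : ReducedWord G A B, W.head = 1 ∧
      W.prod φ = (s.map fun c => if c then (t : HNNExtension G A B φ) else wd φ b b').prod ∧
      W.toList.length = (s.map fun c => if c then 1 else 2).sum ∧
      ∀ y ∈ W.toList.head?, y.1 = 1 := by
  induction s with
  | nil => exact ⟨ReducedWord.empty G A B, rfl, by simp [ReducedWord.prod], by simp, by simp⟩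
  | cons c s ih =>
    obtain ⟨W, h1, h2, h3, h4⟩ := ih
    have h2' : (W.toList.map fun x => t ^ (x.1 : ℤ) * of x.2).prod =
        (s.map fun c => if c then (t : HNNExtension G A B φ) else wd φ b b').prod := by
      rw [← h2, ReducedWord.prod, h1, map_one, one_mul]
    cases c with
    | true =>
      refine ⟨⟨1, (1, 1) :: W.toList, ?_⟩, rfl, ?_, ?_, ?_⟩
      · rw [List.isChain_cons]
        exact ⟨fun y hy _ => (h4 y hy).symm, W.chain⟩
      · simp [ReducedWord.prod, h2']
      · simp [h3]; omega
      · simp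
    | false =>
      refine ⟨⟨1, (1, b) :: (-1, b') :: W.toList, ?_⟩, rfl, ?_, ?_, ?_⟩
      · rw [List.isChain_cons_cons, List.isChain_cons]
        refine ⟨fun h => absurd h hb, fun y hy h => absurd h hb', W.chain⟩
      · simp [ReducedWord.prod, h2', wd, mul_assoc]
      · simp [h3]; omega
      · simp

/-- the pattern of `(t w ^ n) ^ j` -/
def pat (n : ℕ) : ℕ → List Bool
  | 0 => []
  | j + 1 => true :: (List.replicate n false ++ pat n j)

theorem pat_prod {M : Type*} [Monoid M] (x y : M) (n j : ℕ) :
    ((pat n j).map fun c => if c then x else y).prod = (x * y ^ n) ^ j := by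
  induction j with
  | zero => simp [pat]
  | succ j ih =>
    rw [pat, List.map_cons, List.prod_cons, List.map_append, List.prod_append, ih,
      List.map_replicate, List.prod_replicate, pow_succ' (x * y ^ n), mul_assoc]
    simp

theorem pat_len (n j : ℕ) : ((pat n j).map fun c => if c then 1 else 2).sum = j * (1 + 2 * n) := by
  induction j with
  | zero => simp [pat]
  | succ j ih =>
    rw [pat, List.map_cons, List.sum_cons, List.map_append, List.sum_append, ih,
      List.map_replicate, List.sum_replicate]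
    simp
    ring

theorem ell_pow {b b' : G} (hb : b ∉ A) (hb' : b' ∉ B) (n j : ℕ) :
    ell φ d ((t * wd φ b b' ^ n) ^ j) = j * (1 + 2 * n) := by
  obtain ⟨W, -, h2, h3, -⟩ := red_word (φ := φ) hb hb' (pat n j)
  rw [pat_prod] at h2
  rw [pat_len] at h3
  rw [← h2, ell_red, h3]

theorem conj_le {b b' : G} (hb : b ∉ A) (hb' : b' ∉ B) {n m : ℕ}
    (h : IsConj (t * wd φ b b' ^ n : HNNExtension G A B φ) (t * wd φ b b' ^ m)) : m ≤ n := by
  obtain ⟨d⟩ := TransversalPair.nonempty G A B
  obtain ⟨x, hx⟩ := isConj_iff.1 h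
  by_contra hcon
  rw [not_le] at hcon
  have key : ∀ j : ℕ, j * (1 + 2 * m) ≤ ell φ d x + j * (1 + 2 * n) + ell φ d x⁻¹ := by
    intro j
    have h1 : (t * wd φ b b' ^ m : HNNExtension G A B φ) ^ j =
        x * (t * wd φ b b' ^ n) ^ j * x⁻¹ := by
      rw [← hx, conj_pow]
    have h2 := ell_mul (φ := φ) (d := d) (x * (t * wd φ b b' ^ n) ^ j) x⁻¹
    have h3 := ell_mul (φ := φ) (d := d) x ((t * wd φ b b' ^ n) ^ j)
    rw [← h1, ell_pow hb hb'] at h2
    rw [ell_pow hb hb'] at h3
    omega
  have h1 := key (ell φ d x + ell φ d x⁻¹ + 1)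
  nlinarith

end

end H481

theorem rowH {G : Type*} [Group G] {A B : Subgroup G} (φ : A ≃* B) (hA : A ≠ ⊤) (hB : B ≠ ⊤)
    (F : Set (HNNExtension G A B φ)) (hF : F.Finite) :
    ∃ g : HNNExtension G A B φ, ∀ a ∈ F, ∀ k : ℤ, ¬ IsConj g (a ^ k) := by
  by_contra hcon
  push Not at hcon
  obtain ⟨b, hb⟩ : ∃ b, b ∉ A := by
    by_contra h
    push Not at h
    exact hA (eq_top_iff.2 fun x _ => h x)
  obtain ⟨b', hb'⟩ : ∃ b, b ∉ B := by
    by_contra h
    push Not at h
    exact hB (eq_top_iff.2 fun x _ => h x)
  let e : HNNExtension G A B φ →* Multiplicative ℤ :=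
    HNNExtension.lift 1 (Multiplicative.ofAdd 1) (by simp)
  have het : e t = Multiplicative.ofAdd 1 := by simp [e]
  have heo : ∀ g : G, e (of g) = 1 := by simp [e]
  have hew : e (H481.wd φ b b') = 1 := by
    simp [H481.wd, heo]
  have heg : ∀ n : ℕ, e (t * H481.wd φ b b' ^ n) = Multiplicative.ofAdd 1 := by
    intro n
    rw [map_mul, map_pow, hew, one_pow, mul_one, het]
  choose a ha k hk using fun n : ℕ => hcon (t * H481.wd φ b b' ^ n)
  have hk1 : ∀ n, k n ∈ ({1, -1} : Set ℤ) := by
    intro n
    obtain ⟨x, hx⟩ := isConj_iff.1 (hk n)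
    have h1 : e (a n ^ k n) = Multiplicative.ofAdd 1 := by
      rw [← hx, map_mul, map_mul, map_inv, mul_comm (e x), mul_inv_cancel_right, heg]
    rw [map_zpow] at h1
    have h2 : k n * (Multiplicative.toAdd (e (a n))) = 1 := by
      have h3 := congrArg Multiplicative.toAdd h1
      rw [toAdd_zpow, toAdd_ofAdd, smul_eq_mul] at h3
      exact h3
    rcases Int.isUnit_iff.1 (IsUnit.of_mul_eq_one _ h2) with h | h
    · exact Or.inl h
    · exact Or.inr h
  have : Finite F := hF
  have : Finite ({1, -1} : Set ℤ) := (Set.toFinite _)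
  obtain ⟨n, m, hnm, h⟩ := Finite.exists_ne_map_eq_of_infinite
    (fun n : ℕ => ((⟨a n, ha n⟩, ⟨k n, hk1 n⟩) : F × ({1, -1} : Set ℤ)))
  have h1 : a n = a m := congrArg (fun z => z.1.1) h
  have h2 : k n = k m := congrArg (fun z => z.2.1) h
  have h3 : IsConj (t * H481.wd φ b b' ^ n : HNNExtension G A B φ) (t * H481.wd φ b b' ^ m) := by
    have h4 := hk n
    rw [h1, h2] at h4
    exact h4.trans (hk m).symm
  exact hnm (le_antisymm (H481.conj_le hb hb' h3.symm) (H481.conj_le hb hb' h3))

end Vale.Agent.P216.R2.H189.V3
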