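import Mathlib
set_option linter.all false
namespace Vale.Agent.P216.R2.H189.V3
open HNNExtension HNNExtension.NormalWord Multiplicative

section
variable {G : Type*} [Group G] {A B : Subgroup G} (φ : A ≃* B)

def Rk (k : ℕ) (x : HNNExtension G A B φ) : Prop :=
  ∃ l : List (ℤˣ × G), l.length = k ∧ (∀ p ∈ l, p.2 ∉ toSubgroup A B p.1) ∧
    (l.map fun p => (t ^ (p.1 : ℤ) * of p.2 : HNNExtension G A B φ)).prod = x

def Ck (d : TransversalPair G A B) (k : ℕ) (x : HNNExtension G A B φ) : Prop :=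
  ∀ w : NormalWord d, (x • w).toList.length ≤ k + w.toList.length

variable {φ}

lemma Rk.mul {k m : ℕ} {x y : HNNExtension G A B φ} (hx : Rk φ k x) (hy : Rk φ m y) :
    Rk φ (k + m) (x * y) := by
  obtain ⟨l, h1, h2, rfl⟩ := hx
  obtain ⟨l', h1', h2', rfl⟩ := hy
  refine ⟨l ++ l', by simp [h1, h1'], ?_, by simp⟩
  intro p hp
  rcases List.mem_append.1 hp with h | h
  · exact h2 p h
  · exact h2' p h

lemma Rk.pow {k : ℕ} {x : HNNExtension G A B φ} (hx : Rk φ k x) (j : ℕ) :
    Rk φ (j * k) (x ^ j) := by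
  induction j with
  | zero => exact ⟨[], by simp, by simp, by simp⟩
  | succ j ih => rw [pow_succ, Nat.succ_mul]; exact ih.mul hx

lemma Ck.mul {d : TransversalPair G A B} {k m : ℕ} {x y : HNNExtension G A B φ}
    (hx : Ck φ d k x) (hy : Ck φ d m y) : Ck φ d (k + m) (x * y) := by
  intro w
  rw [mul_smul]
  have h1 := hx (y • w)
  have h2 := hy w
  omega

lemma ck_of (d : TransversalPair G A B) (g : G) : Ck φ d 0 (of g) := by
  intro w
  rw [of_smul_eq_smul, group_smul_toList, zero_add]

lemma ck_t (d : TransversalPair G A B) (u : ℤˣ) :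
    Ck φ d 1 (t ^ (u : ℤ) : HNNExtension G A B φ) := by
  intro w
  rw [t_pow_smul_eq_unitsSMul, unitsSMul]
  split_ifs with h
  · induction w using consRecOn with
    | ofGroup g => simp [Cancels] at h
    | cons g u' w h1 h2 _ =>
      simp only [unitsSMulWithCancel, consRecOn_cons, group_smul_toList, cons_toList,
        List.length_cons]
      omega
  · simp only [cons_toList, group_smul_toList, List.length_cons]
    omega

lemma Rk.ck {d : TransversalPair G A B} {k : ℕ} {x : HNNExtension G A B φ} (hx : Rk φ k x) :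
    Ck φ d k x := by
  obtain ⟨l, h1, -, rfl⟩ := hx
  induction l generalizing k with
  | nil =>
    intro w
    simp at h1
    subst h1
    simp
  | cons a l ih =>
    rw [List.map_cons, List.prod_cons]
    rw [List.length_cons] at h1
    subst h1
    have := ((ck_t (φ := φ) d a.1).mul (ck_of d a.2)).mul (ih rfl)
    intro w
    have := this w
    omega

lemma Rk.len {d : TransversalPair G A B} {k : ℕ} {x : HNNExtension G A B φ} (hx : Rk φ k x) :
    (x • (empty : NormalWord d)).toList.length = k := by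
  obtain ⟨l, h1, h2, rfl⟩ := hx
  have hc : l.IsChain (fun a b => a.2 ∈ toSubgroup A B a.1 → a.1 = b.1) := by
    refine List.Pairwise.isChain ?_
    refine List.pairwise_of_forall_mem_list fun a ha b _ h => absurd h (h2 a ha)
  obtain ⟨w', h3, h4, -⟩ := ReducedWord.exists_normalWord_prod_eq φ d ⟨1, l, hc⟩
  have h5 : w'.prod φ = (l.map fun p => (t ^ (p.1 : ℤ) * of p.2 : HNNExtension G A B φ)).prod := by
    rw [h3]
    simp [ReducedWord.prod]
  rw [← h5, prod_smul_empty, ← h1]
  have := congrArg List.length h4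
  simpa using this

lemma exists_ck (d : TransversalPair G A B) (x : HNNExtension G A B φ) :
    ∃ k, Ck φ d k x ∧ Ck φ d k x⁻¹ := by
  induction x using HNNExtension.induction_on with
  | of g => exact ⟨0, ck_of d g, by rw [← map_inv]; exact ck_of d g⁻¹⟩
  | t =>
    refine ⟨1, ?_, ?_⟩
    · have := ck_t (φ := φ) d 1
      simpa using this
    · have := ck_t (φ := φ) d (-1)
      simpa using this
  | mul x y hx hy =>
    obtain ⟨k, h1, h2⟩ := hx
    obtain ⟨m, h3, h4⟩ := hy
    refine ⟨k + m, h1.mul h3, ?_⟩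
    rw [mul_inv_rev, add_comm]
    exact h4.mul h2
  | inv x hx =>
    obtain ⟨k, h1, h2⟩ := hx
    exact ⟨k, h2, by rwa [inv_inv]⟩

lemma le_of_conj {k m : ℕ} {x y : HNNExtension G A B φ} (hx : Rk φ k x) (hy : Rk φ m y)
    (h : IsConj y x) : k ≤ m := by
  obtain ⟨d⟩ := TransversalPair.nonempty G A B
  obtain ⟨c, hc⟩ := isConj_iff.1 h
  obtain ⟨C, h1, h2⟩ := exists_ck d c
  by_contra hlt
  rw [not_le] at hlt
  have key : ∀ j : ℕ, j * k ≤ C + j * m + C := by
    intro j
    have h3 := (hx.pow j).len (d := d)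
    have h4 : x ^ j = c * y ^ j * c⁻¹ := by rw [← hc, conj_pow]
    rw [h4] at h3
    have h5 := ((h1.mul (hy.pow j).ck).mul h2) empty
    rw [h3] at h5
    simpa using h5
  have h6 := key (2 * C + 1)
  nlinarith

end

theorem rowH {G : Type*} [Group G] {A B : Subgroup G} (φ : A ≃* B) (hA : A ≠ ⊤) (hB : B ≠ ⊤)
    (F : Set (HNNExtension G A B φ)) (hF : F.Finite) :
    ∃ g : HNNExtension G A B φ, ∀ a ∈ F, ∀ k : ℤ, ¬ IsConj g (a ^ k) := by
  obtain ⟨b, hb⟩ : ∃ b, b ∉ A := by
    by_contra h; push Not at h; exact hA (eq_top_iff.2 fun x _ => h x)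
  obtain ⟨b', hb'⟩ : ∃ b, b ∉ B := by
    by_contra h; push Not at h; exact hB (eq_top_iff.2 fun x _ => h x)
  let e : HNNExtension G A B φ →* Multiplicative ℤ := lift 1 (ofAdd 1) (by intro a; simp)
  have het : e t = ofAdd 1 := by simp [e]
  have heo : ∀ g : G, e (of g) = 1 := by intro g; simp [e]
  have r1 : Rk φ 1 (t * of b) := ⟨[(1, b)], rfl, by simpa using hb, by simp⟩
  have r2 : Rk φ 1 (t⁻¹ * of b') := ⟨[(-1, b')], rfl, by simpa using hb', by simp⟩
  let g : ℕ → HNNExtension G A B φ := fun n => t * of b * ((t * of b) * (t⁻¹ * of b')) ^ n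
  have hg : ∀ n, Rk φ (1 + n * (1 + 1)) (g n) := fun n => r1.mul ((r1.mul r2).pow n)
  have heg : ∀ n, e (g n) = ofAdd 1 := by
    intro n
    simp only [g, map_mul, map_pow, map_inv, het, heo, mul_one, mul_inv_cancel, one_pow]
  by_contra hcon
  push Not at hcon
  choose a haF k hk using fun n => hcon (g n)
  have hk1 : ∀ n, k n = 1 ∨ k n = -1 := by
    intro n
    obtain ⟨c, hc⟩ := isConj_iff.1 (hk n)
    have h1 := congrArg e hc
    rw [map_mul, map_mul, map_inv, mul_right_comm, mul_inv_cancel, one_mul, heg, map_zpow] at h1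
    have h2 := congrArg toAdd h1
    rw [toAdd_zpow, toAdd_ofAdd] at h2
    have h3 : IsUnit (k n) := by
      refine isUnit_iff_dvd_one.2 ⟨toAdd (e (a n)), ?_⟩
      rw [h2, smul_eq_mul]
    exact Int.isUnit_iff.1 h3
  obtain ⟨n, -, m, -, hnm, heq⟩ := Set.infinite_univ.exists_ne_map_eq_of_mapsTo
    (f := fun n => (a n, k n)) (t := F ×ˢ ({1, -1} : Set ℤ)) (s := (Set.univ : Set ℕ))
    (fun n _ => ⟨haF n, by simpa using hk1 n⟩) (hF.prod (Set.toFinite _))
  have h1 : a n = a m := congrArg Prod.fst heq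
  have h2 : k n = k m := congrArg Prod.snd heq
  have h3 : IsConj (g n) (g m) := by
    have := hk m
    rw [← h1, ← h2] at this
    exact (hk n).trans this.symm
  have h4 := le_of_conj (hg n) (hg m) h3.symm
  have h5 := le_of_conj (hg m) (hg n) h3
  omega

end Vale.Agent.P216.R2.H189.V3
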