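import Mathlib

set_option linter.all false

namespace Vale.Agent.P216.R2.H189.V3

namespace H584

open HNNExtension HNNExtension.NormalWord

variable {G : Type*} [Group G] {A B : Subgroup G} (φ : A ≃* B)

/-- Product of letters. -/
noncomputable def lp (l : List (ℤˣ × G)) : HNNExtension G A B φ :=
  (l.map (fun x => t ^ (x.1 : ℤ) * of x.2)).prod

/-- `x` has a reduced word with `n` letters. -/
def Len (x : HNNExtension G A B φ) (n : ℕ) : Prop :=
  ∃ w : ReducedWord G A B, w.prod φ = x ∧ w.toList.length = n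

lemma Len.unique {x : HNNExtension G A B φ} {m n : ℕ} (h1 : Len φ x m) (h2 : Len φ x n) :
    m = n := by
  obtain ⟨w1, e1, l1⟩ := h1
  obtain ⟨w2, e2, l2⟩ := h2
  have h := (ReducedWord.map_fst_eq_and_of_prod_eq φ (e1.trans e2.symm)).1
  have := congrArg List.length h
  simp only [List.length_map] at this
  omega

lemma len_of (g : G) {x : HNNExtension G A B φ} {n : ℕ} (h : Len φ x n) :
    Len φ (of g * x) n := by
  obtain ⟨w, rfl, rfl⟩ := h
  exact ⟨{ head := g * w.head, toList := w.toList, chain := w.chain },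
    by simp [ReducedWord.prod, mul_assoc], rfl⟩

lemma conj_letter (u : ℤˣ) (a : toSubgroup A B u) :
    (t : HNNExtension G A B φ) ^ (u : ℤ) * of (a : G) * t ^ ((-u : ℤˣ) : ℤ)
      = of ((toSubgroupEquiv φ u a : toSubgroup A B (-u)) : G) := by
  rcases Int.units_eq_one_or u with rfl | rfl
  · have h := equiv_eq_conj (φ := φ) a
    have e1 : ((1 : ℤˣ) : ℤ) = 1 := rfl
    have e2 : ((-1 : ℤˣ) : ℤ) = -1 := rfl
    rw [e1, e2, zpow_one, zpow_neg_one]
    exact h.symm
  · have h := equiv_symm_eq_conj (φ := φ) a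
    have e1 : ((- -1 : ℤˣ) : ℤ) = 1 := rfl
    have e2 : ((-1 : ℤˣ) : ℤ) = -1 := rfl
    rw [e1, e2, zpow_one, zpow_neg_one]
    exact h.symm

lemma len_t (u : ℤˣ) {x : HNNExtension G A B φ} {n : ℕ} (h : Len φ x n) :
    ∃ m, m ≤ n + 1 ∧ Len φ (t ^ (u : ℤ) * x) m := by
  obtain ⟨w, rfl, rfl⟩ := h
  by_cases hc : ∃ v g l, w.toList = (v, g) :: l ∧ w.head ∈ toSubgroup A B u ∧ u ≠ v
  · obtain ⟨v, g, l, hl, hh, huv⟩ := hc
    have hv : v = -u := by
      rcases Int.units_eq_one_or u with rfl | rfl <;> rcases Int.units_eq_one_or v with rfl | rfl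
      · exact absurd rfl huv
      · rfl
      · simp
      · exact absurd rfl huv
    subst hv
    refine ⟨l.length, by rw [hl]; simp only [List.length_cons]; omega,
      ⟨{ head := (toSubgroupEquiv φ u ⟨w.head, hh⟩ : G) * g, toList := l, chain := ?_ }, ?_, rfl⟩⟩
    · have := w.chain
      rw [hl] at this
      exact this.tail
    · have key := conj_letter φ u ⟨w.head, hh⟩
      simp only [ReducedWord.prod, hl, List.map_cons, List.prod_cons, map_mul]
      rw [← key]
      simp only [mul_assoc]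
  · refine ⟨w.toList.length + 1, le_rfl,
      ⟨{ head := 1, toList := (u, w.head) :: w.toList, chain := ?_ }, ?_, by simp⟩⟩
    · have hch := w.chain
      cases hw : w.toList with
      | nil => exact List.isChain_singleton _
      | cons p l =>
        rw [List.isChain_cons_cons]
        refine ⟨fun hh => ?_, by rw [← hw]; exact hch⟩
        by_contra hne
        exact hc ⟨p.1, p.2, l, hw, hh, hne⟩
    · simp [ReducedWord.prod, mul_assoc]

lemma len_one : Len φ (1 : HNNExtension G A B φ) 0 :=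
  ⟨ReducedWord.empty G A B, by simp [ReducedWord.prod], rfl⟩

/-- Left multiplication changes the length by a bounded amount. -/
def Bd (x : HNNExtension G A B φ) : Prop :=
  ∃ c : ℕ, ∀ y n, Len φ y n → ∃ m, m ≤ n + c ∧ Len φ (x * y) m

lemma bd_all (x : HNNExtension G A B φ) : Bd φ x ∧ Bd φ x⁻¹ := by
  have hof : ∀ g : G, Bd φ (of g : HNNExtension G A B φ) := fun g =>
    ⟨0, fun y n h => ⟨n, le_rfl, len_of φ g h⟩⟩
  have hmul : ∀ x y : HNNExtension G A B φ, Bd φ x → Bd φ y → Bd φ (x * y) := by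
    rintro x y ⟨c, hc⟩ ⟨d, hd⟩
    refine ⟨c + d, fun z n h => ?_⟩
    obtain ⟨m, hm, h1⟩ := hd z n h
    obtain ⟨k, hk, h2⟩ := hc _ m h1
    exact ⟨k, by omega, by rw [mul_assoc]; exact h2⟩
  refine HNNExtension.induction_on (motive := fun x => Bd φ x ∧ Bd φ x⁻¹) x ?_ ?_ ?_ ?_
  · intro g
    exact ⟨hof g, by rw [← map_inv]; exact hof _⟩
  · refine ⟨⟨1, fun y n h => ?_⟩, ⟨1, fun y n h => ?_⟩⟩
    · have := len_t φ 1 h
      simpa using this
    · have := len_t φ (-1) h
      simpa using this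
  · rintro x y ⟨h1, h2⟩ ⟨h3, h4⟩
    exact ⟨hmul _ _ h1 h3, by rw [mul_inv_rev]; exact hmul _ _ h4 h2⟩
  · rintro x ⟨h1, h2⟩
    exact ⟨h2, by rw [inv_inv]; exact h1⟩

/-- Left multiplication by a product of letters. -/
lemma len_lp (l : List (ℤˣ × G)) {z : HNNExtension G A B φ} {c : ℕ} (h : Len φ z c) :
    ∃ m, m ≤ l.length + c ∧ Len φ (lp φ l * z) m := by
  induction l with
  | nil => exact ⟨c, by simp, by simpa [lp] using h⟩
  | cons p l ih =>
    obtain ⟨m, hm, h1⟩ := ih
    obtain ⟨k, hk, h2⟩ := len_t φ p.1 (len_of φ p.2 h1)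
    refine ⟨k, by simp only [List.length_cons]; omega, ?_⟩
    have e : lp φ (p :: l) * z = t ^ (p.1 : ℤ) * (of p.2 * (lp φ l * z)) := by
      simp only [lp, List.map_cons, List.prod_cons, mul_assoc]
    rw [e]
    exact h2

lemma lp_append (l l' : List (ℤˣ × G)) : lp φ (l ++ l') = lp φ l * lp φ l' := by
  simp [lp]

lemma lp_pow (l : List (ℤˣ × G)) (j : ℕ) :
    lp φ l ^ j = lp φ (List.replicate j l).flatten := by
  induction j with
  | zero => simp [lp]
  | succ j ih => rw [pow_succ', ih, List.replicate_succ, List.flatten_cons, lp_append]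

/-- Words in good letters are reduced. -/
lemma len_good (l : List (ℤˣ × G)) (h : ∀ p ∈ l, p.2 ∉ toSubgroup A B p.1) :
    Len φ (lp φ l) l.length := by
  refine ⟨{ head := 1, toList := l, chain := ?_ }, by simp [ReducedWord.prod, lp], rfl⟩
  induction l with
  | nil => exact List.isChain_nil
  | cons p l ih =>
    cases l with
    | nil => exact List.isChain_singleton _
    | cons q l =>
      rw [List.isChain_cons_cons]
      exact ⟨fun hh => absurd hh (h p (by simp)), ih fun r hr => h r (by simp [hr])⟩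

/-- The word `g_n`. -/
def wd (b b' : G) (n : ℕ) : List (ℤˣ × G) :=
  (1, b) :: (List.replicate n [((1 : ℤˣ), b), ((-1 : ℤˣ), b')]).flatten

lemma wd_length (b b' : G) (n : ℕ) : (wd b b' n).length = 1 + 2 * n := by
  simp [wd]; ring

lemma wd_good {b b' : G} (hb : b ∉ A) (hb' : b' ∉ B) (n : ℕ) :
    ∀ p ∈ wd b b' n, p.2 ∉ toSubgroup A B p.1 := by
  intro p hp
  rw [wd, List.mem_cons, List.mem_flatten] at hp
  rcases hp with rfl | ⟨l, hl, hp⟩
  · simpa using hb
  · rw [List.mem_replicate] at hl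
    rw [hl.2] at hp
    simp only [List.mem_cons, List.not_mem_nil, or_false] at hp
    rcases hp with rfl | rfl
    · simpa using hb
    · simpa using hb'

/-- Conjugate elements have comparable lengths of powers. -/
lemma conj_le {b b' : G} (hb : b ∉ A) (hb' : b' ∉ B) {m n : ℕ}
    (h : IsConj (lp φ (wd b b' m)) (lp φ (wd b b' n))) : n ≤ m := by
  obtain ⟨x, hx⟩ := isConj_iff.mp h
  obtain ⟨c, hc⟩ := (bd_all φ x).1
  obtain ⟨d, hd⟩ := (bd_all φ x).2
  obtain ⟨d', -, hd'⟩ := hd 1 0 (len_one φ)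
  rw [mul_one] at hd'
  by_contra hlt
  push Not at hlt
  set j := c + d' + 1 with hj
  have hlen : ∀ k, Len φ (lp φ (wd b b' k) ^ j) (j * (1 + 2 * k)) := by
    intro k
    rw [lp_pow]
    have h1 := len_good φ (List.replicate j (wd b b' k)).flatten (by
      intro p hp
      rw [List.mem_flatten] at hp
      obtain ⟨l, hl, hp⟩ := hp
      rw [List.mem_replicate] at hl
      rw [hl.2] at hp
      exact wd_good hb hb' k p hp)
    have e : (List.replicate j (wd b b' k)).flatten.length = j * (1 + 2 * k) := by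
      rw [List.length_flatten, List.map_replicate, wd_length, List.sum_replicate, smul_eq_mul]
    rwa [e] at h1
  have hpow : lp φ (wd b b' n) ^ j = x * (lp φ (wd b b' m) ^ j * x⁻¹) := by
    rw [← hx, conj_pow, mul_assoc]
  obtain ⟨p, hp, h1⟩ : ∃ p, p ≤ j * (1 + 2 * m) + d' ∧ Len φ (lp φ (wd b b' m) ^ j * x⁻¹) p := by
    rw [lp_pow]
    obtain ⟨p, hp, h1⟩ := len_lp φ (List.replicate j (wd b b' m)).flatten hd'
    refine ⟨p, ?_, h1⟩
    rwa [List.length_flatten, List.map_replicate, wd_length, List.sum_replicate, smul_eq_mul] at hp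
  obtain ⟨q, hq, h2⟩ := hc _ p h1
  rw [← hpow] at h2
  have h3 := (hlen n).unique φ h2
  have h4 : j * (1 + 2 * n) ≤ j * (1 + 2 * m) + d' + c := by omega
  have h5 : j * (1 + 2 * m) + j * 2 ≤ j * (1 + 2 * n) := by
    rw [← Nat.mul_add]
    exact Nat.mul_le_mul_left _ (by omega)
  omega

/-- The exponent sum. -/
noncomputable def es : HNNExtension G A B φ →* Multiplicative ℤ :=
  lift 1 (Multiplicative.ofAdd 1) (by intro a; simp)

lemma es_lp (l : List (ℤˣ × G)) :
    es φ (lp φ l) = Multiplicative.ofAdd ((l.map fun p => (p.1 : ℤ)).sum) := by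
  induction l with
  | nil => simp [lp]
  | cons p l ih =>
    have e : lp φ (p :: l) = t ^ (p.1 : ℤ) * of p.2 * lp φ l := by
      simp only [lp, List.map_cons, List.prod_cons]
    rw [e, map_mul, ih, map_mul, map_zpow, es, lift_t, lift_of, List.map_cons, List.sum_cons,
      ofAdd_add]
    simp [← ofAdd_zsmul]

lemma es_wd (b b' : G) (n : ℕ) : es φ (lp φ (wd b b' n)) = Multiplicative.ofAdd 1 := by
  rw [es_lp]
  congr 1
  rw [wd, List.map_cons, List.sum_cons, List.map_flatten, List.map_replicate, List.sum_flatten,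
    List.map_replicate, List.sum_replicate]
  simp

end H584

open H584 in
theorem rowH {G : Type*} [Group G] {A B : Subgroup G} (φ : A ≃* B) (hA : A ≠ ⊤) (hB : B ≠ ⊤)
    (F : Set (HNNExtension G A B φ)) (hF : F.Finite) :
    ∃ g : HNNExtension G A B φ, ∀ a ∈ F, ∀ k : ℤ, ¬ IsConj g (a ^ k) := by
  obtain ⟨b, hb⟩ : ∃ b, b ∉ A := by
    by_contra h
    push Not at h
    exact hA ((Subgroup.eq_top_iff' A).mpr h)
  obtain ⟨b', hb'⟩ : ∃ b, b ∉ B := by
    by_contra h
    push Not at h
    exact hB ((Subgroup.eq_top_iff' B).mpr h)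
  by_contra hcon
  push Not at hcon
  have h1 : ∀ n : ℕ, ∃ p : HNNExtension G A B φ × ℤ, p ∈ F ×ˢ ({1, -1} : Set ℤ) ∧
      IsConj (lp φ (wd b b' n)) (p.1 ^ p.2) := by
    intro n
    obtain ⟨a, ha, k, hk⟩ := hcon (lp φ (wd b b' n))
    refine ⟨(a, k), ⟨ha, ?_⟩, hk⟩
    obtain ⟨x, hx⟩ := isConj_iff.mp hk
    have h2 := congrArg (es φ) hx
    rw [map_mul, map_mul, map_inv, mul_comm (es φ x), mul_assoc, mul_inv_cancel, mul_one, es_wd,
      map_zpow] at h2
    have h3 : (1 : ℤ) = k * Multiplicative.toAdd (es φ a) := by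
      have := congrArg Multiplicative.toAdd h2
      simpa using this
    have h4 : IsUnit k := IsUnit.of_mul_eq_one _ h3.symm
    rcases Int.isUnit_iff.mp h4 with h | h
    · left; exact h
    · right; exact h
  choose f hf hfc using h1
  have hfin : (F ×ˢ ({1, -1} : Set ℤ)).Finite := hF.prod (Set.toFinite _)
  obtain ⟨m, -, n, -, hmn, he⟩ := Set.Infinite.exists_ne_map_eq_of_mapsTo
    (s := (Set.univ : Set ℕ)) Set.infinite_univ (fun n _ => hf n) hfin
  have h5 : IsConj (lp φ (wd b b' m)) (lp φ (wd b b' n)) := by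
    have h6 := hfc n
    rw [← he] at h6
    exact (hfc m).trans h6.symm
  exact hmn (le_antisymm (conj_le φ hb hb' h5.symm) (conj_le φ hb hb' h5))

end Vale.Agent.P216.R2.H189.V3
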