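import Mathlib

/-!
# P216 : conjugacy classes in HNN extensions
-/

namespace Vale.Agent.P216.R2.H189.V3

open HNNExtension HNNExtension.NormalWord

namespace RH599

variable {G : Type*} [Group G] {A B : Subgroup G} {φ : A ≃* B} {d : TransversalPair G A B}

lemma len_t (u : ℤˣ) (w : NormalWord d) :
    (unitsSMul φ u w).toList.length ≤ w.toList.length + 1 := by
  by_cases h : Cancels u w
  · rw [unitsSMul, dif_pos h]
    cases w using consRecOn with
    | ofGroup g => simp [Cancels] at h
    | cons g u' w h1 h2 ih =>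
      simp only [unitsSMulWithCancel, consRecOn_cons, group_smul_toList, cons_toList,
        List.length_cons]
      omega
  · rw [unitsSMul, dif_neg h]
    simp

lemma len_prod (v w : NormalWord d) :
    ((v.prod φ) • w).toList.length ≤ v.toList.length + w.toList.length := by
  induction v using consRecOn with
  | ofGroup g =>
    have : (ofGroup g : NormalWord d).prod φ = of g := by simp [ReducedWord.prod]
    rw [this, of_smul_eq_smul]
    simp
  | cons g u v h1 h2 ih =>
    rw [prod_cons, mul_smul, mul_smul, of_smul_eq_smul, group_smul_toList,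
      t_pow_smul_eq_unitsSMul]
    have := len_t (φ := φ) u ((v.prod φ) • w)
    simp only [cons_toList, List.length_cons]
    omega

/-- the number of letters of the normal form -/
noncomputable def L (φ : A ≃* B) (d : TransversalPair G A B) (x : HNNExtension G A B φ) : ℕ :=
  (x • (empty : NormalWord d)).toList.length

lemma len_mul (x y : HNNExtension G A B φ) : L φ d (x * y) ≤ L φ d x + L φ d y := by
  unfold L
  rw [mul_smul]
  have h := len_prod (φ := φ) (x • (empty : NormalWord d)) (y • (empty : NormalWord d))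
  rwa [prod_smul, prod_empty, mul_one] at h

lemma L_one : L φ d 1 = 0 := by
  unfold L
  rw [one_smul]
  rfl

lemma L_pow (x : HNNExtension G A B φ) (j : ℕ) : L φ d (x ^ j) ≤ j * L φ d x := by
  induction j with
  | zero => simp [L_one]
  | succ j ih =>
    rw [pow_succ]
    refine (len_mul _ _).trans ?_
    rw [add_mul, one_mul]
    omega

/-- the product of a list of letters -/
def pr (φ : A ≃* B) (l : List (ℤˣ × G)) : HNNExtension G A B φ :=
  (l.map (fun x => t ^ (x.1 : ℤ) * of x.2)).prod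

/-- reduced, first letter positive -/
def P (A B : Subgroup G) (l : List (ℤˣ × G)) : Prop :=
  l.IsChain (fun a b => a.2 ∈ toSubgroup A B a.1 → a.1 = b.1) ∧ ∀ x ∈ l.head?, x.1 = 1

lemma L_pr {l : List (ℤˣ × G)} (hl : P A B l) : L φ d (pr φ l) = l.length := by
  obtain ⟨w', h1, h2, -⟩ := ReducedWord.exists_normalWord_prod_eq φ d ⟨1, l, hl.1⟩
  have h3 : (⟨1, l, hl.1⟩ : ReducedWord G A B).prod φ = pr φ l := by
    simp [ReducedWord.prod, pr]
  rw [h3] at h1
  unfold L
  rw [← h1, prod_smul_empty]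
  have := congrArg List.length h2
  simpa using this

lemma w_pow {b b' : G} (hb : b ∉ A) (hb' : b' ∉ B) (n : ℕ) {l : List (ℤˣ × G)} (hl : P A B l) :
    ∃ l', P A B l' ∧ l'.length = 2 * n + l.length ∧
      pr φ l' = (t * of b * t⁻¹ * of b') ^ n * pr φ l := by
  induction n with
  | zero => exact ⟨l, hl, by simp, by simp⟩
  | succ n ih =>
    obtain ⟨l', h1, h2, h3⟩ := ih
    refine ⟨(1, b) :: (-1, b') :: l', ⟨?_, by simp⟩, ?_, ?_⟩
    · refine List.isChain_cons.2 ⟨?_, List.isChain_cons.2 ⟨?_, h1.1⟩⟩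
      · intro y _ hy
        exact absurd hy hb
      · intro y _ hy
        exact absurd hy hb'
    · simp only [List.length_cons, h2]
      ring
    · have : pr φ ((1, b) :: (-1, b') :: l') = t * of b * t⁻¹ * of b' * pr φ l' := by
        simp [pr, mul_assoc]
      rw [this, h3, pow_succ']
      simp only [mul_assoc]

lemma g_pow {b b' : G} (hb : b ∉ A) (hb' : b' ∉ B) (n j : ℕ) :
    ∃ l', P A B l' ∧ l'.length = j * (1 + 2 * n) ∧
      pr φ l' = (t * (t * of b * t⁻¹ * of b') ^ n) ^ j := by
  induction j with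
  | zero => exact ⟨[], ⟨List.isChain_nil, by simp⟩, by simp, by simp [pr]⟩
  | succ j ih =>
    obtain ⟨l, h1, h2, h3⟩ := ih
    obtain ⟨l', k1, k2, k3⟩ := w_pow (φ := φ) hb hb' n h1
    refine ⟨(1, 1) :: l', ⟨?_, by simp⟩, ?_, ?_⟩
    · refine List.isChain_cons.2 ⟨?_, k1.1⟩
      intro y hy _
      exact (k1.2 y hy).symm
    · simp only [List.length_cons, k2, h2]
      ring
    · have : pr φ ((1, 1) :: l') = t * pr φ l' := by
        simp [pr]
      rw [this, k3, h3, pow_succ']
      simp only [mul_assoc]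

end RH599

open RH599

theorem rowH {G : Type*} [Group G] {A B : Subgroup G} (φ : A ≃* B) (hA : A ≠ ⊤) (hB : B ≠ ⊤)
    (F : Set (HNNExtension G A B φ)) (hF : F.Finite) :
    ∃ g : HNNExtension G A B φ, ∀ a ∈ F, ∀ k : ℤ, ¬ IsConj g (a ^ k) := by
  obtain ⟨d⟩ := TransversalPair.nonempty G A B
  obtain ⟨b, hb⟩ : ∃ b, b ∉ A := by
    by_contra h
    push Not at h
    exact hA ((Subgroup.eq_top_iff' A).2 h)
  obtain ⟨b', hb'⟩ : ∃ b, b ∉ B := by
    by_contra h
    push Not at h
    exact hB ((Subgroup.eq_top_iff' B).2 h)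
  obtain ⟨N, hN⟩ := (hF.image fun a => L φ d a + L φ d a⁻¹).bddAbove
  refine ⟨t * (t * of b * t⁻¹ * of b') ^ N, fun a ha k hk => ?_⟩
  have hNa : L φ d a + L φ d a⁻¹ ≤ N := hN ⟨a, ha, rfl⟩
  set g : HNNExtension G A B φ := t * (t * of b * t⁻¹ * of b') ^ N with hg
  obtain ⟨c, hc⟩ := isConj_iff.1 hk
  let e : HNNExtension G A B φ →* Multiplicative ℤ :=
    HNNExtension.lift 1 (Multiplicative.ofAdd 1) (by simp)
  have he : e g = Multiplicative.ofAdd 1 := by
    simp [hg, e]
  have h1 : Multiplicative.ofAdd (1 : ℤ) = e a ^ k := by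
    have := congrArg e hc
    rw [map_mul, map_mul, map_inv, map_zpow, mul_inv_cancel_comm, he] at this
    exact this
  have h2 : k * Multiplicative.toAdd (e a) = 1 := by
    have := congrArg Multiplicative.toAdd h1
    rw [toAdd_zpow, toAdd_ofAdd, smul_eq_mul] at this
    exact this.symm
  have h3 : L φ d (a ^ k) ≤ N := by
    rcases Int.isUnit_iff.1 (IsUnit.of_mul_eq_one _ h2) with h | h
    · rw [h, zpow_one]
      omega
    · rw [h, zpow_neg_one]
      omega
  set j := L φ d c⁻¹ + L φ d c + 1 with hj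
  have h4 : g ^ j = c⁻¹ * (a ^ k) ^ j * c := by
    rw [← hc, conj_pow]
    group
  obtain ⟨l, hl1, hl2, hl3⟩ := g_pow (φ := φ) hb hb' N j
  have h5 : L φ d (g ^ j) = j * (1 + 2 * N) := by
    rw [hg, ← hl3, L_pr hl1, hl2]
  have h6 : L φ d (g ^ j) ≤ L φ d c⁻¹ + j * N + L φ d c := by
    rw [h4]
    refine (len_mul _ _).trans ?_
    have h7 := len_mul (φ := φ) (d := d) c⁻¹ ((a ^ k) ^ j)
    have h8 := L_pow (φ := φ) (d := d) (a ^ k) j
    have h9 : j * L φ d (a ^ k) ≤ j * N := Nat.mul_le_mul_left _ h3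
    omega
  rw [h5] at h6
  have h10 : j * (1 + 2 * N) = j + j * N + j * N := by ring
  omega

end Vale.Agent.P216.R2.H189.V3
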