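import Mathlib

set_option autoImplicit false

namespace Vale.Agent.P216.R2.H189.V3

open HNNExtension HNNExtension.NormalWord

section

variable {G : Type*} [Group G] {A B : Subgroup G} {φ : A ≃* B}

/-- `x` is the product of a word with `n` letters `t ^ (± 1)`. -/
inductive Wd (φ : A ≃* B) : ℕ → HNNExtension G A B φ → Prop
  | base (g : G) : Wd φ 0 (of g)
  | step {n : ℕ} {x : HNNExtension G A B φ} (u : ℤˣ) (g : G) (h : Wd φ n x) :
      Wd φ (n + 1) (of g * (t ^ (u : ℤ) * x))

theorem Wd.of_mul {n : ℕ} {x : HNNExtension G A B φ} (h : Wd φ n x) (g : G) :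
    Wd φ n (of g * x) := by
  cases h with
  | base g' => rw [← map_mul]; exact Wd.base _
  | step u g' h => rw [← mul_assoc, ← map_mul]; exact Wd.step u _ h

theorem Wd.mul {m n : ℕ} {x y : HNNExtension G A B φ} (hx : Wd φ m x) (hy : Wd φ n y) :
    Wd φ (m + n) (x * y) := by
  induction hx with
  | base g => rw [Nat.zero_add]; exact hy.of_mul g
  | @step k z u g h ih =>
    have : k + 1 + n = (k + n) + 1 := by omega
    rw [this, mul_assoc, mul_assoc]
    exact Wd.step u g ih

theorem Wd.inv {n : ℕ} {x : HNNExtension G A B φ} (hx : Wd φ n x) : Wd φ n x⁻¹ := by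
  induction hx with
  | base g => rw [← map_inv]; exact Wd.base _
  | @step k z u g h ih =>
    have h1 : Wd φ (0 + 1) (of 1 * (t ^ ((-u : ℤˣ) : ℤ) * of g⁻¹) : HNNExtension G A B φ) :=
      Wd.step (-u) 1 (Wd.base _)
    have h2 := ih.mul h1
    have h3 : (of g * (t ^ (u : ℤ) * z))⁻¹ =
        z⁻¹ * (of 1 * (t ^ ((-u : ℤˣ) : ℤ) * of g⁻¹) : HNNExtension G A B φ) := by
      rw [mul_inv_rev, mul_inv_rev, map_one, one_mul, Units.val_neg, zpow_neg, map_inv, mul_assoc]
    rw [h3]
    simpa using h2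

theorem Wd.exists (x : HNNExtension G A B φ) : ∃ n, Wd φ n x := by
  induction x using HNNExtension.induction_on with
  | of g => exact ⟨0, Wd.base g⟩
  | t =>
    refine ⟨0 + 1, ?_⟩
    have := Wd.step (φ := φ) 1 1 (Wd.base 1)
    simpa using this
  | mul x y hx hy =>
    obtain ⟨m, hm⟩ := hx
    obtain ⟨n, hn⟩ := hy
    exact ⟨_, hm.mul hn⟩
  | inv x hx =>
    obtain ⟨m, hm⟩ := hx
    exact ⟨_, hm.inv⟩

theorem Wd.pow {n : ℕ} {x : HNNExtension G A B φ} (hx : Wd φ n x) (j : ℕ) :
    Wd φ (j * n) (x ^ j) := by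
  induction j with
  | zero => rw [pow_zero, Nat.zero_mul, ← map_one of]; exact Wd.base 1
  | succ j ih =>
    have := ih.mul hx
    rw [pow_succ]
    convert this using 1
    ring

theorem length_unitsSMul {d : NormalWord.TransversalPair G A B} (u : ℤˣ) (w : NormalWord d) :
    (unitsSMul φ u w).toList.length ≤ w.toList.length + 1 := by
  rw [unitsSMul]
  split_ifs with hcan
  · cases w using consRecOn with
    | ofGroup => simp [Cancels] at hcan
    | cons g u' w h1 h2 ih =>
      simp only [unitsSMulWithCancel, consRecOn_cons, group_smul_toList, cons_toList,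
        List.length_cons]
      omega
  · simp

theorem Wd.normal {d : NormalWord.TransversalPair G A B} {n : ℕ} {x : HNNExtension G A B φ}
    (hx : Wd φ n x) : ∃ w : NormalWord d, w.prod φ = x ∧ w.toList.length ≤ n := by
  induction hx with
  | base g => exact ⟨NormalWord.ofGroup g, by simp [NormalWord.ReducedWord.prod], by simp⟩
  | @step k z u g h ih =>
    obtain ⟨w, hw, hl⟩ := ih
    refine ⟨g • unitsSMul φ u w, ?_, ?_⟩
    · rw [prod_group_smul, prod_unitsSMul, hw]
    · rw [group_smul_toList]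
      exact (length_unitsSMul u w).trans (by omega)

theorem Wd.reduced {n : ℕ} {x : HNNExtension G A B φ} (hx : Wd φ n x)
    (w : NormalWord.ReducedWord G A B) (hw : w.prod φ = x) : w.toList.length ≤ n := by
  obtain ⟨d⟩ := NormalWord.TransversalPair.nonempty G A B
  obtain ⟨w', hw', hl⟩ := hx.normal (d := d)
  have h1 := (ReducedWord.map_fst_eq_and_of_prod_eq φ (w₁ := w) (w₂ := w'.toReducedWord)
    (by rw [hw, hw'])).1
  have h2 := congrArg List.length h1
  rw [List.length_map, List.length_map] at h2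
  omega

/-- `n` blocks in front of `l` -/
def blk (b b' : G) (l : List (ℤˣ × G)) : ℕ → List (ℤˣ × G)
  | 0 => l
  | n + 1 => (1, b) :: (-1, b') :: blk b b' l n

/-- the word of `(t (t b t⁻¹ b')ⁿ)ʲ` -/
def lst (b b' : G) (n : ℕ) : ℕ → List (ℤˣ × G)
  | 0 => []
  | j + 1 => (1, 1) :: blk b b' (lst b b' n j) n

/-- good lists -/
def Gd (A B : Subgroup G) (l : List (ℤˣ × G)) : Prop :=
  l.IsChain (fun a b => a.2 ∈ toSubgroup A B a.1 → a.1 = b.1) ∧ ∀ y ∈ l.head?, y.1 = 1

theorem blk_gd {b b' : G} (hb : b ∉ A) (hb' : b' ∉ B) {l : List (ℤˣ × G)} (hl : Gd A B l)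
    (n : ℕ) : Gd A B (blk b b' l n) := by
  induction n with
  | zero => exact hl
  | succ n ih =>
    refine ⟨?_, ?_⟩
    · rw [blk, List.isChain_cons]
      refine ⟨?_, ?_⟩
      · intro y hy h
        exact absurd h hb
      · rw [List.isChain_cons]
        refine ⟨?_, ih.1⟩
        intro y hy h
        exact absurd h hb'
    · intro y hy
      rw [blk, List.head?_cons, Option.mem_some_iff] at hy
      rw [← hy]

theorem lst_gd {b b' : G} (hb : b ∉ A) (hb' : b' ∉ B) (n j : ℕ) : Gd A B (lst b b' n j) := by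
  induction j with
  | zero => exact ⟨List.isChain_nil, by simp [lst]⟩
  | succ j ih =>
    have h := blk_gd hb hb' ih n
    refine ⟨?_, ?_⟩
    · rw [lst, List.isChain_cons]
      refine ⟨?_, h.1⟩
      intro y hy _
      exact (h.2 y hy).symm
    · intro y hy
      rw [lst, List.head?_cons, Option.mem_some_iff] at hy
      rw [← hy]

omit [Group G] in
theorem blk_len (b b' : G) (l : List (ℤˣ × G)) (n : ℕ) :
    (blk b b' l n).length = 2 * n + l.length := by
  induction n with
  | zero => simp [blk]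
  | succ n ih => rw [blk, List.length_cons, List.length_cons, ih]; ring

theorem lst_len (b b' : G) (n j : ℕ) : (lst b b' n j).length = j * (1 + 2 * n) := by
  induction j with
  | zero => simp [lst]
  | succ j ih => rw [lst, List.length_cons, blk_len, ih]; ring

variable (φ) in
/-- the elements `g_n` -/
def gn (b b' : G) (n : ℕ) : HNNExtension G A B φ :=
  t * (t * of b * (t⁻¹ * of b')) ^ n

theorem blk_prod (b b' : G) (l : List (ℤˣ × G)) (n : ℕ) :
    ((blk b b' l n).map (fun x => (t ^ (x.1 : ℤ) * of x.2 : HNNExtension G A B φ))).prod =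
      (t * of b * (t⁻¹ * of b')) ^ n *
        (l.map (fun x => (t ^ (x.1 : ℤ) * of x.2 : HNNExtension G A B φ))).prod := by
  induction n with
  | zero => simp [blk]
  | succ n ih =>
    rw [blk, List.map_cons, List.map_cons, List.prod_cons, List.prod_cons, ih, pow_succ']
    simp [mul_assoc]

theorem lst_prod (b b' : G) (n j : ℕ) :
    ((lst b b' n j).map (fun x => (t ^ (x.1 : ℤ) * of x.2 : HNNExtension G A B φ))).prod =
      gn φ b b' n ^ j := by
  induction j with
  | zero => simp [lst]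
  | succ j ih =>
    rw [lst, List.map_cons, List.prod_cons, blk_prod, ih, pow_succ', gn]
    simp [mul_assoc]

theorem gn_wd (b b' : G) (n : ℕ) : Wd φ (1 + 2 * n) (gn φ b b' n) := by
  have h1 : Wd φ (0 + 1) (of 1 * (t ^ ((1 : ℤˣ) : ℤ) * of b) : HNNExtension G A B φ) :=
    Wd.step 1 1 (Wd.base _)
  have h2 : Wd φ (0 + 1) (of 1 * (t ^ ((-1 : ℤˣ) : ℤ) * of b') : HNNExtension G A B φ) :=
    Wd.step (-1) 1 (Wd.base _)
  have h3 : Wd φ (0 + 1) (of 1 * (t ^ ((1 : ℤˣ) : ℤ) * of 1) : HNNExtension G A B φ) :=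
    Wd.step 1 1 (Wd.base _)
  have h4 := h3.mul ((h1.mul h2).pow n)
  have e1 : 0 + 1 + n * (0 + 1 + (0 + 1)) = 1 + 2 * n := by ring
  rw [e1] at h4
  simpa [gn] using h4

theorem not_conj {b b' : G} (hb : b ∉ A) (hb' : b' ∉ B) {m n : ℕ} (hmn : m < n) :
    ¬ IsConj (gn φ b b' m) (gn φ b b' n) := by
  intro h
  obtain ⟨c, hc⟩ := isConj_iff.1 h
  obtain ⟨p, hp⟩ := Wd.exists c
  set j := 2 * p + 1 with hj
  have h1 : Wd φ (p + j * (1 + 2 * m) + p) (gn φ b b' n ^ j) := by
    rw [← hc, conj_pow]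
    exact (hp.mul ((gn_wd b b' m).pow j)).mul hp.inv
  have h2 := h1.reduced ⟨1, lst b b' n j, (lst_gd hb hb' n j).1⟩ (by
    rw [ReducedWord.prod, map_one, one_mul, lst_prod])
  have h3 : (lst b b' n j).length = j * (1 + 2 * n) := lst_len b b' n j
  simp only at h2
  rw [h3] at h2
  obtain ⟨r, rfl⟩ := Nat.exists_eq_add_of_lt hmn
  have h4 : j * (1 + 2 * (m + r + 1)) = j * (1 + 2 * m) + j * (2 * r) + 2 * j := by ring
  have h5 : 0 ≤ j * (2 * r) := Nat.zero_le _
  omega

end

theorem rowH {G : Type*} [Group G] {A B : Subgroup G} (φ : A ≃* B) (hA : A ≠ ⊤) (hB : B ≠ ⊤)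
    (F : Set (HNNExtension G A B φ)) (hF : F.Finite) :
    ∃ g : HNNExtension G A B φ, ∀ a ∈ F, ∀ k : ℤ, ¬ IsConj g (a ^ k) := by
  by_contra hcon
  push Not at hcon
  obtain ⟨b, hb⟩ : ∃ b, b ∉ A := by
    by_contra h
    push Not at h
    exact hA ((Subgroup.eq_top_iff' A).2 h)
  obtain ⟨b', hb'⟩ : ∃ b', b' ∉ B := by
    by_contra h
    push Not at h
    exact hB ((Subgroup.eq_top_iff' B).2 h)
  -- the exponent sum
  let e : HNNExtension G A B φ →* Multiplicative ℤ :=
    HNNExtension.lift 1 (Multiplicative.ofAdd 1) (by intro a; simp)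
  have hen : ∀ n, e (gn φ b b' n) = Multiplicative.ofAdd 1 := by
    intro n
    simp [e, gn]
  choose a haF k hk using fun n => hcon (gn φ b b' n)
  have hk1 : ∀ n, k n = 1 ∨ k n = -1 := by
    intro n
    obtain ⟨c, hc⟩ := isConj_iff.1 (hk n)
    have h1 : e (a n ^ k n) = Multiplicative.ofAdd 1 := by
      rw [← hc, map_mul, map_mul, hen, map_inv, mul_comm (e c), mul_assoc, mul_inv_cancel, mul_one]
    rw [map_zpow] at h1
    have h2 : k n * Multiplicative.toAdd (e (a n)) = 1 := by
      have h3 := congrArg Multiplicative.toAdd h1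
      rw [toAdd_zpow] at h3
      simpa using h3
    exact Int.eq_one_or_neg_one_of_mul_eq_one h2
  have hfin : (F ×ˢ ({1, -1} : Set ℤ)).Finite := hF.prod (by simp)
  obtain ⟨m, -, n, -, hmn, he⟩ := Set.infinite_univ.exists_ne_map_eq_of_mapsTo
    (s := (Set.univ : Set ℕ)) (f := fun n => (a n, k n)) (t := F ×ˢ ({1, -1} : Set ℤ))
    (by
      intro n _
      refine ⟨haF n, ?_⟩
      rcases hk1 n with h | h <;> simp [h]) hfin
  have h1 : a m = a n := congrArg Prod.fst he
  have h2 : k m = k n := congrArg Prod.snd he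
  have h3 : IsConj (gn φ b b' m) (gn φ b b' n) := by
    have h4 := hk m
    rw [h1, h2] at h4
    exact h4.trans (hk n).symm
  rcases lt_or_gt_of_ne hmn with h | h
  · exact not_conj hb hb' h h3
  · exact not_conj hb hb' h h3.symm

end Vale.Agent.P216.R2.H189.V3
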