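import Mathlib

namespace Vale.Agent.P216.R2.H189.V3

namespace C941

open HNNExtension HNNExtension.NormalWord

section

variable {G : Type*} [Group G] {A B : Subgroup G}

/-- `x` is a product with `n` letters `t`, `t⁻¹` -/
inductive Cost (φ : A ≃* B) : ℕ → HNNExtension G A B φ → Prop
  | of (g : G) : Cost φ 0 (HNNExtension.of g)
  | t : Cost φ 1 HNNExtension.t
  | tinv : Cost φ 1 HNNExtension.t⁻¹
  | mul {m n : ℕ} {x y : HNNExtension G A B φ} : Cost φ m x → Cost φ n y → Cost φ (m + n) (x * y)

variable {φ : A ≃* B}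

theorem Cost.inv {m : ℕ} {x : HNNExtension G A B φ} (h : Cost φ m x) : Cost φ m x⁻¹ := by
  induction h with
  | of g => rw [← map_inv]; exact .of _
  | t => exact .tinv
  | tinv => rw [inv_inv]; exact .t
  | mul _ _ h1 h2 => rw [mul_inv_rev, add_comm]; exact .mul h2 h1

theorem Cost.exists (x : HNNExtension G A B φ) : ∃ m, Cost φ m x := by
  induction x using HNNExtension.induction_on with
  | of g => exact ⟨0, .of g⟩
  | t => exact ⟨1, .t⟩
  | mul x y hx hy =>
    obtain ⟨m, hm⟩ := hx
    obtain ⟨n, hn⟩ := hy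
    exact ⟨m + n, .mul hm hn⟩
  | inv x hx =>
    obtain ⟨m, hm⟩ := hx
    exact ⟨m, hm.inv⟩

theorem Cost.one : Cost φ 0 1 := by simpa using Cost.of (φ := φ) (1 : G)

theorem Cost.pow {m : ℕ} {x : HNNExtension G A B φ} (h : Cost φ m x) (j : ℕ) :
    Cost φ (j * m) (x ^ j) := by
  induction j with
  | zero => simpa using Cost.one
  | succ j ih => rw [pow_succ, Nat.succ_mul]; exact .mul ih h

theorem length_unitsSMul {d : TransversalPair G A B} (u : ℤˣ) (w : NormalWord d) :
    (unitsSMul φ u w).toList.length ≤ w.toList.length + 1 := by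
  classical
  unfold unitsSMul
  split_ifs with h
  · induction w using consRecOn with
    | ofGroup g => simp [Cancels] at h
    | cons g u' w h1 h2 _ =>
      simp only [unitsSMulWithCancel, consRecOn_cons, group_smul_toList, cons_toList,
        List.length_cons]
      omega
  · simp

theorem Cost.length {d : TransversalPair G A B} {m : ℕ} {x : HNNExtension G A B φ}
    (h : Cost φ m x) : ∀ w : NormalWord d, (x • w).toList.length ≤ w.toList.length + m := by
  induction h with
  | of g => intro w; rw [of_smul_eq_smul, group_smul_toList]; omega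
  | t => intro w; rw [t_smul_eq_unitsSMul]; exact length_unitsSMul 1 w
  | tinv =>
    intro w
    have h1 := t_pow_smul_eq_unitsSMul φ (-1) w
    have h2 : (HNNExtension.t : HNNExtension G A B φ) ^ (((-1 : ℤˣ) : ℤ)) =
        HNNExtension.t⁻¹ := by simp
    rw [h2] at h1
    rw [h1]
    exact length_unitsSMul (-1) w
  | @mul m n x y _ _ h1 h2 =>
    intro w
    rw [mul_smul]
    have := h1 (y • w)
    have := h2 w
    omega

theorem Cost.le {m : ℕ} (w : ReducedWord G A B) (h : Cost φ m (w.prod φ)) :
    w.toList.length ≤ m := by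
  obtain ⟨d⟩ := TransversalPair.nonempty G A B
  obtain ⟨w', h1, h2, -⟩ := HNNExtension.ReducedWord.exists_normalWord_prod_eq φ d w
  have h3 := h.length (empty : NormalWord d)
  rw [← h1, prod_smul_empty] at h3
  have h4 := congrArg List.length h2
  rw [List.length_map, List.length_map] at h4
  simpa [h4] using h3

theorem isChain_of_not {α : Type*} {P : α → Prop} {Q : α → α → Prop} (l : List α)
    (h : ∀ x ∈ l, ¬ P x) : l.IsChain fun a b => P a → Q a b := by
  induction l with
  | nil => exact List.isChain_nil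
  | cons a l ih =>
    refine List.isChain_cons.2 ⟨fun y _ hy => absurd hy (h a List.mem_cons_self),
      ih fun x hx => h x (List.mem_cons_of_mem _ hx)⟩

end

end C941

open HNNExtension HNNExtension.NormalWord C941

theorem rowH {G : Type*} [Group G] {A B : Subgroup G} (φ : A ≃* B) (hA : A ≠ ⊤) (hB : B ≠ ⊤)
    (F : Set (HNNExtension G A B φ)) (hF : F.Finite) :
    ∃ g : HNNExtension G A B φ, ∀ a ∈ F, ∀ k : ℤ, ¬ IsConj g (a ^ k) := by
  classical
  obtain ⟨a0, ha0⟩ : ∃ a0, a0 ∉ A := by
    by_contra h
    push Not at h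
    exact hA (eq_top_iff.2 fun x _ => h x)
  obtain ⟨b0, hb0⟩ : ∃ b0, b0 ∉ B := by
    by_contra h
    push Not at h
    exact hB (eq_top_iff.2 fun x _ => h x)
  choose cst hcst using fun x : HNNExtension G A B φ => Cost.exists x
  obtain ⟨n, hn⟩ : ∃ n : ℕ, ∀ a ∈ F, cst a ≤ n := by
    obtain ⟨n, hn⟩ := (hF.image cst).bddAbove
    exact ⟨n, fun a ha => hn ⟨a, ha, rfl⟩⟩
  let l : List (ℤˣ × G) := List.replicate (n + 1) (1, a0) ++ List.replicate n (-1, b0)
  let ev : List (ℤˣ × G) → HNNExtension G A B φ := fun l =>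
    (l.map (fun x => HNNExtension.t ^ (x.1 : ℤ) * HNNExtension.of x.2)).prod
  refine ⟨ev l, fun a ha k hc => ?_⟩
  let e : HNNExtension G A B φ →* Multiplicative ℤ :=
    HNNExtension.lift 1 (Multiplicative.ofAdd 1) (by simp)
  have het : e HNNExtension.t = Multiplicative.ofAdd 1 := HNNExtension.lift_t _ _ _
  have heo : ∀ g : G, e (HNNExtension.of g) = 1 := fun g => by
    change HNNExtension.lift _ _ _ _ = _
    rw [HNNExtension.lift_of]
    rfl
  have he : e (ev l) = Multiplicative.ofAdd 1 := by
    simp only [ev, l, List.map_append, List.map_replicate, List.prod_append, List.prod_replicate,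
      map_mul, map_pow, het, heo, mul_one, Units.val_one, zpow_one, Units.val_neg,
      zpow_neg, map_inv]
    rw [pow_succ, mul_assoc, mul_comm (Multiplicative.ofAdd (1 : ℤ)) _, ← mul_assoc, ← mul_pow,
      mul_inv_cancel, one_pow, one_mul]
  obtain ⟨c, hc⟩ := isConj_iff.1 hc
  have hk : k = 1 ∨ k = -1 := by
    have h1 := congrArg e hc
    rw [map_mul, map_mul, map_inv, map_zpow, he, mul_comm (e c), mul_inv_cancel_right] at h1
    have h2 := congrArg Multiplicative.toAdd h1
    rw [toAdd_ofAdd, toAdd_zpow, smul_eq_mul] at h2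
    exact Int.isUnit_iff.1 (IsUnit.of_mul_eq_one _ h2.symm)
  have hak : Cost φ (cst a) (a ^ k) := by
    rcases hk with rfl | rfl
    · rw [zpow_one]; exact hcst a
    · rw [zpow_neg, zpow_one]; exact (hcst a).inv
  have hg : ev l = c⁻¹ * a ^ k * c⁻¹⁻¹ := by
    rw [← hc]
    group
  set j : ℕ := 2 * cst c + 1 with hj
  have h1 : Cost φ (cst c + j * cst a + cst c) ((ev l) ^ j) := by
    rw [hg, conj_pow, inv_inv]
    exact .mul (.mul (hcst c).inv (hak.pow j)) (hcst c)
  let w : ReducedWord G A B :=
    { head := 1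
      toList := (List.replicate j l).flatten
      chain := isChain_of_not _ fun x hx => by
        rw [List.mem_flatten] at hx
        obtain ⟨l', hl', hx⟩ := hx
        rw [List.mem_replicate] at hl'
        rw [hl'.2, List.mem_append, List.mem_replicate, List.mem_replicate] at hx
        rcases hx with ⟨-, rfl⟩ | ⟨-, rfl⟩
        · exact ha0
        · exact hb0 }
  have hw : w.prod φ = (ev l) ^ j := by
    simp only [ReducedWord.prod, w, map_one, one_mul, ev, List.map_flatten, List.map_replicate,
      List.prod_flatten, List.prod_replicate]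
  have h2 := Cost.le w (hw ▸ h1)
  have h3 : w.toList.length = j * (n + 1 + n) := by
    simp only [w, l, List.length_flatten, List.map_replicate, List.sum_replicate,
      List.length_append, List.length_replicate, smul_eq_mul]
  rw [h3] at h2
  have h4 := hn a ha
  have h5 : j * cst a ≤ j * n := Nat.mul_le_mul_left _ h4
  nlinarith

end Vale.Agent.P216.R2.H189.V3
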