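import Mathlib

/-!
# P216, row M: the smallest finite quotient of a perfect group
-/

namespace Vale.Agent.P216.R2.H189.V2

/-- Row M. -/
theorem rowM {R : Type*} [Group R] (hperf : commutator R = ⊤) (K : Subgroup R)
    (hK : K.FiniteIndex) (hKt : K ≠ ⊤) :
    ∃ N : Subgroup R, ∃ _ : N.Normal, Finite (R ⧸ N) ∧ IsSimpleGroup (R ⧸ N) ∧
      (∃ x y : R ⧸ N, x * y ≠ y * x) ∧
      ∀ f : R →* R ⧸ N, (∃ r, f r ≠ 1) → Function.Surjective f := by
  classical
  have hex : ∃ n : ℕ, ∃ N : Subgroup R, N.Normal ∧ N.index = n ∧ n ≠ 0 ∧ N ≠ ⊤ :=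
    ⟨K.normalCore.index, K.normalCore, inferInstance, rfl,
      (Subgroup.finiteIndex_normalCore (H := K)).index_ne_zero,
      fun h => hKt (top_le_iff.1 (h ▸ K.normalCore_le))⟩
  obtain ⟨N, hN, hNi, hN0, hNt⟩ := Nat.find_spec hex
  have hmin : ∀ M : Subgroup R, M.Normal → M.index ≠ 0 → M ≠ ⊤ → N.index ≤ M.index := by
    intro M hM hM0 hMt
    rw [hNi]
    exact Nat.find_min' hex ⟨M, hM, rfl, hM0, hMt⟩
  rw [← hNi] at hN0
  have : N.FiniteIndex := ⟨hN0⟩
  have hfin : Finite (R ⧸ N) := inferInstance
  refine ⟨N, hN, hfin, ?_, ?_, ?_⟩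
  · have hnt : Nontrivial (R ⧸ N) := by
      rw [← not_subsingleton_iff_nontrivial]
      intro h
      exact hNt (QuotientGroup.subsingleton_iff.1 h)
    refine ⟨fun H hH => ?_⟩
    have hHn : (H.comap (QuotientGroup.mk' N)).Normal := hH.comap _
    have hle : N ≤ H.comap (QuotientGroup.mk' N) := by
      intro x hx
      rw [Subgroup.mem_comap, QuotientGroup.mk'_apply, (QuotientGroup.eq_one_iff x).2 hx]
      exact H.one_mem
    by_cases hM : H.comap (QuotientGroup.mk' N) = ⊤
    · right
      rw [eq_top_iff]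
      intro x _
      obtain ⟨y, rfl⟩ := QuotientGroup.mk'_surjective N x
      have : y ∈ H.comap (QuotientGroup.mk' N) := by rw [hM]; exact Subgroup.mem_top y
      exact this
    · left
      have h0 : (H.comap (QuotientGroup.mk' N)).index ≠ 0 :=
        fun h => hN0 (Nat.eq_zero_of_zero_dvd (h ▸ Subgroup.index_dvd_of_le hle))
      have h1 := hmin _ hHn h0 hM
      have h2 := Subgroup.relIndex_mul_index hle
      have h3 : N.relIndex (H.comap (QuotientGroup.mk' N)) = 1 := by
        have h4 : 0 < (H.comap (QuotientGroup.mk' N)).index := Nat.pos_of_ne_zero h0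
        have h5 : N.relIndex (H.comap (QuotientGroup.mk' N)) ≠ 0 := by
          intro h
          rw [h, Nat.zero_mul] at h2
          exact hN0 h2.symm
        by_contra hne
        have h6 : 2 ≤ N.relIndex (H.comap (QuotientGroup.mk' N)) := by omega
        nlinarith
      rw [Subgroup.relIndex_eq_one] at h3
      rw [eq_bot_iff]
      intro x hx
      obtain ⟨y, rfl⟩ := QuotientGroup.mk'_surjective N x
      have : y ∈ N := h3 hx
      rw [Subgroup.mem_bot, QuotientGroup.mk'_apply]
      exact (QuotientGroup.eq_one_iff y).2 this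
  · by_contra hcon
    push Not at hcon
    have h1 : commutator R ≤ N := by
      rw [commutator_def, Subgroup.commutator_le]
      intro x _ y _
      rw [← QuotientGroup.eq_one_iff]
      have := hcon (x : R ⧸ N) (y : R ⧸ N)
      rw [commutatorElement_def, QuotientGroup.mk_mul, QuotientGroup.mk_mul, QuotientGroup.mk_mul,
        this, QuotientGroup.mk_inv, QuotientGroup.mk_inv]
      group
    rw [hperf] at h1
    exact hNt (top_le_iff.1 h1)
  · intro f ⟨r, hr⟩
    have hker : f.ker ≠ ⊤ := by
      intro h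
      apply hr
      have : r ∈ f.ker := by rw [h]; exact Subgroup.mem_top r
      exact this
    have hidx : f.ker.index = Nat.card f.range := Subgroup.index_ker f
    have hpos : 0 < Nat.card f.range := Nat.card_pos
    have h1 := hmin f.ker inferInstance (by omega) hker
    rw [hidx, Subgroup.index_eq_card] at h1
    rw [← MonoidHom.range_eq_top]
    exact Subgroup.eq_top_of_le_card _ h1

end Vale.Agent.P216.R2.H189.V2
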