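import Mathlib

/-!
P216, row M for PerfectResidual v2.
-/

namespace Vale.Agent.P216.R2.H189.V2

/-- Row M. -/
theorem rowM {R : Type*} [Group R] (hperf : commutator R = ⊤) (K : Subgroup R)
    (hK : K.FiniteIndex) (hKt : K ≠ ⊤) :
    ∃ N : Subgroup R, ∃ _ : N.Normal, Finite (R ⧸ N) ∧ IsSimpleGroup (R ⧸ N) ∧
      (∃ x y : R ⧸ N, x * y ≠ y * x) ∧
      ∀ f : R →* R ⧸ N, (∃ r, f r ≠ 1) → Function.Surjective f := by
  classical
  have hex : ∃ n : ℕ, ∃ N : Subgroup R, N.Normal ∧ N.FiniteIndex ∧ N ≠ ⊤ ∧ N.index = n := by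
    refine ⟨K.normalCore.index, K.normalCore, inferInstance, ?_, ?_, rfl⟩
    · have := hK
      infer_instance
    · intro h
      apply hKt
      rw [eq_top_iff, ← h]
      exact K.normalCore_le
  obtain ⟨N, hN, hfi, hNt, hind⟩ := Nat.find_spec hex
  have hmin : ∀ M : Subgroup R, M.Normal → M.FiniteIndex → M ≠ ⊤ → N.index ≤ M.index := by
    intro M h1 h2 h3
    rw [hind]
    exact Nat.find_min' hex ⟨M, h1, h2, h3, rfl⟩
  have hfin : Finite (R ⧸ N) := Subgroup.finite_quotient_of_finiteIndex
  refine ⟨N, hN, hfin, ?_, ?_, ?_⟩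
  · have hnt : Nontrivial (R ⧸ N) := by
      by_contra h
      rw [not_nontrivial_iff_subsingleton] at h
      exact hNt (QuotientGroup.subgroup_eq_top_of_subsingleton N h)
    refine ⟨fun H hH => ?_⟩
    have hle : N ≤ H.comap (QuotientGroup.mk' N) := by
      intro x hx
      rw [Subgroup.mem_comap, QuotientGroup.mk'_apply, (QuotientGroup.eq_one_iff x).2 hx]
      exact H.one_mem
    by_cases ht : H.comap (QuotientGroup.mk' N) = ⊤
    · right
      rw [eq_top_iff]
      intro x _
      obtain ⟨y, rfl⟩ := QuotientGroup.mk'_surjective N x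
      have : y ∈ H.comap (QuotientGroup.mk' N) := by rw [ht]; trivial
      exact this
    · left
      have hfi2 : (H.comap (QuotientGroup.mk' N)).FiniteIndex := Subgroup.finiteIndex_of_le hle
      have h1 := hmin _ (hH.comap _) hfi2 ht
      have h2 := Subgroup.relIndex_mul_index hle
      have h3 : (H.comap (QuotientGroup.mk' N)).index ≠ 0 := hfi2.index_ne_zero
      have h4 : N.relIndex (H.comap (QuotientGroup.mk' N)) ≤ 1 := by
        by_contra h
        push Not at h
        have : 2 * (H.comap (QuotientGroup.mk' N)).index ≤ N.index := by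
          rw [← h2]
          exact Nat.mul_le_mul_right _ h
        omega
      have h5 : N.relIndex (H.comap (QuotientGroup.mk' N)) = 1 := by
        have h6 : N.relIndex (H.comap (QuotientGroup.mk' N)) ≠ 0 := by
          intro h
          rw [h, zero_mul] at h2
          exact hfi.index_ne_zero h2.symm
        omega
      rw [Subgroup.relIndex_eq_one] at h5
      rw [eq_bot_iff]
      intro x hx
      obtain ⟨y, rfl⟩ := QuotientGroup.mk'_surjective N x
      have hy : y ∈ H.comap (QuotientGroup.mk' N) := hx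
      rw [Subgroup.mem_bot, QuotientGroup.mk'_apply, QuotientGroup.eq_one_iff]
      exact h5 hy
  · by_contra h
    push Not at h
    apply hNt
    rw [eq_top_iff, ← hperf]
    exact Subgroup.Normal.quotient_commutative_iff_commutator_le.1 ⟨⟨h⟩⟩
  · rintro f ⟨r, hr⟩
    have hker : f.ker ≠ ⊤ := by
      intro h
      apply hr
      rw [← MonoidHom.mem_ker, h]
      trivial
    have hfi2 : f.ker.FiniteIndex := inferInstance
    have h1 := hmin f.ker inferInstance hfi2 hker
    rw [Subgroup.index_ker, Subgroup.index_eq_card] at h1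
    rw [← MonoidHom.range_eq_top]
    exact Subgroup.eq_top_of_le_card f.range h1

end Vale.Agent.P216.R2.H189.V2
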