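import Mathlib

namespace Vale.Agent.P216.R2.H189.V2

/-- Row M. -/
theorem rowM {R : Type*} [Group R] (hperf : commutator R = ⊤) (K : Subgroup R)
    (hK : K.FiniteIndex) (hKt : K ≠ ⊤) :
    ∃ N : Subgroup R, ∃ _ : N.Normal, Finite (R ⧸ N) ∧ IsSimpleGroup (R ⧸ N) ∧
      (∃ x y : R ⧸ N, x * y ≠ y * x) ∧
      ∀ f : R →* R ⧸ N, (∃ r, f r ≠ 1) → Function.Surjective f := by
  classical
  have hex : ∃ n : ℕ, ∃ N : Subgroup R, N.Normal ∧ N.FiniteIndex ∧ N ≠ ⊤ ∧ N.index = n := by
    refine ⟨_, K.normalCore, inferInstance, inferInstance, ?_, rfl⟩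
    intro h
    exact hKt (top_le_iff.1 (h ▸ K.normalCore_le))
  obtain ⟨N, hN, hfi, hne, hidx⟩ := Nat.find_spec hex
  have hmin : ∀ M : Subgroup R, M.Normal → M.FiniteIndex → M ≠ ⊤ → N.index ≤ M.index := by
    intro M h1 h2 h3
    rw [hidx]
    exact Nat.find_min' hex ⟨M, h1, h2, h3, rfl⟩
  have hfin : Finite (R ⧸ N) := inferInstance
  have hpos : 0 < Nat.card (R ⧸ N) := Nat.card_pos
  refine ⟨N, hN, hfin, ?_, ?_, ?_⟩
  · have hnt : Nontrivial (R ⧸ N) := QuotientGroup.nontrivial_iff.2 hne
    refine ⟨fun H hH => ?_⟩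
    by_cases ht : H = ⊤
    · exact Or.inr ht
    left
    have hs : Function.Surjective (QuotientGroup.mk' N) := QuotientGroup.mk'_surjective N
    have h1 : (H.comap (QuotientGroup.mk' N)).index = H.index :=
      Subgroup.index_comap_of_surjective H hs
    have h2 : H.index ≠ 0 := Subgroup.FiniteIndex.index_ne_zero
    have h3 := hmin (H.comap (QuotientGroup.mk' N)) inferInstance ⟨by rw [h1]; exact h2⟩ (by
      intro h
      refine ht ?_
      rw [eq_top_iff]
      intro x _
      obtain ⟨r, rfl⟩ := hs x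
      have : r ∈ H.comap (QuotientGroup.mk' N) := by rw [h]; trivial
      exact this)
    rw [h1] at h3
    have h4 : Nat.card H * H.index = N.index := H.card_mul_index
    have h5 : 0 < N.index := hpos
    have h6 : Nat.card H ≤ 1 := by
      by_contra h7
      have h8 : 2 ≤ Nat.card H := by omega
      have h9 : 0 < H.index := Nat.pos_of_ne_zero h2
      nlinarith
    exact Subgroup.eq_bot_of_card_le H h6
  · by_contra hcon
    push Not at hcon
    refine hne (top_le_iff.1 ?_)
    rw [← hperf, commutator_def, Subgroup.commutator_le]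
    intro a _ b _
    rw [← QuotientGroup.eq_one_iff]
    have h := hcon (a : R ⧸ N) (b : R ⧸ N)
    rw [commutatorElement_def, QuotientGroup.mk_mul, QuotientGroup.mk_mul, QuotientGroup.mk_mul,
      QuotientGroup.mk_inv, QuotientGroup.mk_inv, h]
    group
  · intro f hf
    rw [← MonoidHom.range_eq_top]
    have h1 : f.ker.index = Nat.card f.range := Subgroup.index_ker f
    have hfr : Finite f.range := inferInstance
    have h2 : f.ker.index ≠ 0 := by rw [h1]; exact Nat.card_pos.ne'
    have h3 := hmin f.ker inferInstance ⟨h2⟩ (by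
      intro h
      obtain ⟨r, hr⟩ := hf
      have : r ∈ f.ker := by rw [h]; trivial
      exact hr this)
    refine Subgroup.eq_top_of_le_card _ ?_
    rw [← h1]
    exact h3

end Vale.Agent.P216.R2.H189.V2

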