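import Mathlib

/-!
# P216, row M of PerfectResidual v2
-/

set_option autoImplicit false

namespace Vale.Agent.P216.R2.H189.V2

/-- Row M. -/
theorem rowM {R : Type*} [Group R] (hperf : commutator R = ⊤) (K : Subgroup R)
    (hK : K.FiniteIndex) (hKt : K ≠ ⊤) :
    ∃ N : Subgroup R, ∃ _ : N.Normal, Finite (R ⧸ N) ∧ IsSimpleGroup (R ⧸ N) ∧
      (∃ x y : R ⧸ N, x * y ≠ y * x) ∧
      ∀ f : R →* R ⧸ N, (∃ r, f r ≠ 1) → Function.Surjective f := by
  classical
  have hex : ∃ n : ℕ, ∃ N : Subgroup R, N.Normal ∧ N.FiniteIndex ∧ N ≠ ⊤ ∧ N.index = n := by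
    refine ⟨K.normalCore.index, K.normalCore, inferInstance, inferInstance, ?_, rfl⟩
    intro h
    apply hKt
    rw [eq_top_iff, ← h]
    exact K.normalCore_le
  obtain ⟨N, hN, hNf, hNt, hNi⟩ := Nat.find_spec hex
  have hmin : ∀ M : Subgroup R, M.Normal → M.FiniteIndex → M ≠ ⊤ → N.index ≤ M.index := by
    intro M h1 h2 h3
    rw [hNi]
    exact Nat.find_min' hex ⟨M, h1, h2, h3, rfl⟩
  have hfin : Finite (R ⧸ N) := Subgroup.finite_quotient_of_finiteIndex
  have hnt : Nontrivial (R ⧸ N) := QuotientGroup.nontrivial_iff.2 hNt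
  refine ⟨N, hN, hfin, ?_, ?_, ?_⟩
  · refine ⟨fun M hM => ?_⟩
    by_cases hMt : M = ⊤
    · exact Or.inr hMt
    left
    have hle : N ≤ M.comap (QuotientGroup.mk' N) := by
      intro x hx
      rw [Subgroup.mem_comap, QuotientGroup.mk'_apply, (QuotientGroup.eq_one_iff x).2 hx]
      exact M.one_mem
    have hf : (M.comap (QuotientGroup.mk' N)).FiniteIndex := Subgroup.finiteIndex_of_le hle
    have hne : M.comap (QuotientGroup.mk' N) ≠ ⊤ := by
      intro h
      apply hMt
      rw [eq_top_iff]
      intro x _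
      obtain ⟨r, rfl⟩ := QuotientGroup.mk'_surjective N x
      have : r ∈ M.comap (QuotientGroup.mk' N) := by
        rw [h]
        exact Subgroup.mem_top r
      exact this
    have h1 := hmin _ inferInstance hf hne
    have h2 := Subgroup.relIndex_mul_index hle
    have h3 : 0 < N.index := Nat.pos_of_ne_zero hNf.index_ne_zero
    have h4 : 0 < (M.comap (QuotientGroup.mk' N)).index := Nat.pos_of_ne_zero hf.index_ne_zero
    have h5 : N.relIndex (M.comap (QuotientGroup.mk' N)) = 1 := by
      rw [← h2] at h1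
      have h6 : N.relIndex (M.comap (QuotientGroup.mk' N)) ≤ 1 := by
        by_contra hcon
        nlinarith
      have h7 : N.relIndex (M.comap (QuotientGroup.mk' N)) ≠ 0 := by
        intro h8
        rw [h8, zero_mul] at h2
        omega
      omega
    have h6 : M.comap (QuotientGroup.mk' N) ≤ N := Subgroup.relIndex_eq_one.1 h5
    rw [eq_bot_iff]
    intro x hx
    obtain ⟨r, rfl⟩ := QuotientGroup.mk'_surjective N x
    rw [Subgroup.mem_bot, QuotientGroup.mk'_apply]
    exact (QuotientGroup.eq_one_iff r).2 (h6 hx)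
  · by_contra hcon
    push Not at hcon
    apply hNt
    rw [eq_top_iff, ← hperf, commutator_def, Subgroup.commutator_le]
    intro a _ b _
    rw [← QuotientGroup.eq_one_iff, commutatorElement_def]
    have h1 := hcon (a : R ⧸ N) (b : R ⧸ N)
    rw [QuotientGroup.mk_mul, QuotientGroup.mk_mul, QuotientGroup.mk_mul, QuotientGroup.mk_inv,
      QuotientGroup.mk_inv, h1, mul_assoc (b : R ⧸ N), mul_inv_cancel, mul_one, mul_inv_cancel]
  · rintro f ⟨r, hr⟩
    have hne : f.ker ≠ ⊤ := by
      intro h
      apply hr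
      have : r ∈ f.ker := by
        rw [h]
        exact Subgroup.mem_top r
      exact this
    have hf : f.ker.FiniteIndex := Subgroup.finiteIndex_ker f
    have h1 := hmin _ inferInstance hf hne
    rw [Subgroup.index_ker] at h1
    have h2 : f.range = ⊤ := by
      apply Subgroup.eq_top_of_le_card
      exact h1
    exact MonoidHom.range_eq_top.1 h2

end Vale.Agent.P216.R2.H189.V2
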