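import Vale.Agent.P216.R2.H189.Hypo

/-!
# P216: groups with a subgroup of finite index without perfect subgroups
-/

set_option linter.all false

namespace Vale.Agent.P216.R2.H189

open Vale.Agent.P216 DirectSum

theorem exists_hom_int (V : Type*) [AddCommGroup V] [AddGroup.FG V] [Infinite V] :
    ∃ f : V →+ ℤ, Function.Surjective f := by
  classical
  obtain ⟨n, ι, _, p, hp, e, ⟨E⟩⟩ := AddCommGroup.equiv_free_prod_directSum_zmod V
  rcases Nat.eq_zero_or_pos n with rfl | hn
  · exfalso
    have h0 : ∀ i, NeZero (p i ^ e i) := fun i => ⟨pow_ne_zero _ (hp i).ne_zero⟩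
    have h1 : Finite (⨁ i, ZMod (p i ^ e i)) :=
      Finite.of_equiv _ (DirectSum.addEquivProd (fun i => ZMod (p i ^ e i))).symm.toEquiv
    have h2 : Finite V := Finite.of_equiv _ E.symm.toEquiv
    exact not_finite V
  · let i0 : Fin n := ⟨0, hn⟩
    refine ⟨((Finsupp.applyAddHom i0).comp (AddMonoidHom.fst _ _)).comp E.toAddMonoidHom, ?_⟩
    intro z
    refine ⟨E.symm (Finsupp.single i0 z, 0), ?_⟩
    simp

theorem quotients_of_hom {Q : Type*} [Group Q] (f : Q →* Multiplicative ℤ)
    (hf : Function.Surjective f) (n : ℕ) :
    ∃ (N : Subgroup Q) (_ : N.Normal), N.FiniteIndex ∧ n ≤ N.index ∧ Group.IsSolvable (Q ⧸ N) := by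
  let g : Multiplicative ℤ →* Multiplicative (ZMod (n + 1)) :=
    AddMonoidHom.toMultiplicative (Int.castAddHom (ZMod (n + 1)))
  have hg : Function.Surjective g := fun z => by
    obtain ⟨k, hk⟩ := ZMod.intCast_surjective (Multiplicative.toAdd z)
    exact ⟨Multiplicative.ofAdd k, congrArg Multiplicative.ofAdd hk⟩
  have hψ : Function.Surjective (g.comp f) := hg.comp hf
  have hidx : (g.comp f).ker.index = n + 1 := by
    rw [Subgroup.index_ker, MonoidHom.range_eq_top.2 hψ]
    simp
  refine ⟨(g.comp f).ker, inferInstance, ⟨by omega⟩, by omega, ?_⟩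
  exact Group.isSolvable_of_isSolvable_injective (f := QuotientGroup.kerLift (g.comp f))
    (QuotientGroup.kerLift_injective (g.comp f))

section

variable {G : Type*} [Group G]

theorem solvable_quotients [Group.FG G] [Infinite G] {H : Subgroup G} (hH : H.FiniteIndex)
    (hper : ∀ K : Subgroup G, K ≤ H → ⁅K, K⁆ = K → K = ⊥) :
    ∃ H : Subgroup G, H.FiniteIndex ∧ ∀ n : ℕ,
      ∃ (N : Subgroup H) (_ : N.Normal), N.FiniteIndex ∧ n ≤ N.index ∧
        Group.IsSolvable (H ⧸ N) := by
  classical
  have hHinf : Infinite H := by
    by_contra hcon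
    rw [not_infinite_iff_finite] at hcon
    have h1 : Nat.card G = Nat.card H * H.index := (Subgroup.card_mul_index _).symm
    have h2 : Nat.card G = 0 := Nat.card_eq_zero_of_infinite
    rw [h2] at h1
    rcases mul_eq_zero.1 h1.symm with h | h
    · exact Nat.card_pos.ne' h
    · exact hH.index_ne_zero h
  have hfgH : Group.FG H := Subgroup.fg_of_index_ne_zero H
  by_cases hall : ∀ n, (derivedSeries H n).FiniteIndex
  · refine ⟨H, hH, fun r => ?_⟩
    have hunb : ∃ n, r ≤ (derivedSeries H n).index := by
      by_contra hcon
      push Not at hcon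
      have hdvd : ∀ n, (derivedSeries H n).index ∣ (derivedSeries H (n + 1)).index :=
        fun n => Subgroup.index_dvd_of_le (derivedSeries_antitone H (Nat.le_succ n))
      have hle : ∀ n, (derivedSeries H n).index ≤ (derivedSeries H (n + 1)).index :=
        fun n => Nat.le_of_dvd (Nat.pos_of_ne_zero (hall (n + 1)).index_ne_zero) (hdvd n)
      obtain ⟨n, hn⟩ : ∃ n, (derivedSeries H (n + 1)).index = (derivedSeries H n).index := by
        by_contra hne
        push Not at hne
        have hstrict : StrictMono fun n => (derivedSeries H n).index :=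
          strictMono_nat_of_lt_succ fun n => lt_of_le_of_ne (hle n) (hne n).symm
        exact absurd (hstrict.id_le r) (not_le.2 (hcon r))
      have hle' : derivedSeries H (n + 1) ≤ derivedSeries H n :=
        derivedSeries_antitone H (Nat.le_succ n)
      have heq : derivedSeries H (n + 1) = derivedSeries H n := by
        refine le_antisymm hle' ?_
        rw [← Subgroup.relIndex_eq_one]
        have h3 := Subgroup.relIndex_mul_index hle'
        rw [hn] at h3
        exact Nat.eq_of_mul_eq_mul_right (Nat.pos_of_ne_zero (hall n).index_ne_zero)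
          (by rw [one_mul]; exact h3)
      have hK := hper ((derivedSeries H n).map H.subtype) (Subgroup.map_subtype_le _) (by
        rw [← Subgroup.map_commutator, ← derivedSeries_succ, heq])
      rw [Subgroup.map_eq_bot_iff_of_injective _ H.subtype_injective] at hK
      have h4 := (hall n).index_ne_zero
      rw [hK, Subgroup.index_bot] at h4
      exact h4 Nat.card_eq_zero_of_infinite
    obtain ⟨n, hn⟩ := hunb
    refine ⟨derivedSeries H n, derivedSeries_normal H n, hall n, hn, ?_⟩
    refine ⟨n, ?_⟩
    rw [← map_derivedSeries_eq (QuotientGroup.mk'_surjective (derivedSeries H n)) n]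
    exact QuotientGroup.map_mk'_self _
  · push Not at hall
    have hex : ∃ n, ¬ (derivedSeries H n).FiniteIndex := hall
    have hfind := Nat.find_spec hex
    have hmin := fun m (hm : m < Nat.find hex) => Nat.find_min hex hm
    obtain ⟨m, hm⟩ : ∃ m, Nat.find hex = m + 1 := by
      rcases hz : Nat.find hex with _ | m
      · exfalso
        rw [hz] at hfind
        apply hfind
        rw [derivedSeries_zero]
        infer_instance
      · exact ⟨m, rfl⟩
    rw [hm] at hfind
    have hP : (derivedSeries H m).FiniteIndex := by
      have := hmin m (by omega)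
      rwa [not_not] at this
    have hfgP : Group.FG (derivedSeries H m) := Subgroup.fg_of_index_ne_zero _
    have hab : Infinite (Abelianization (derivedSeries H m)) := by
      by_contra hcon
      rw [not_infinite_iff_finite] at hcon
      apply hfind
      have h5 : (commutator (derivedSeries H m)).FiniteIndex := by
        have : Finite ((derivedSeries H m) ⧸ commutator (derivedSeries H m)) := hcon
        exact Subgroup.finiteIndex_of_finite_quotient
      have h6 := map_finiteIndex hP h5
      rwa [Subgroup.map_subtype_commutator, ← derivedSeries_succ] at h6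
    have hfgA : Group.FG (Abelianization (derivedSeries H m)) :=
      Group.fg_of_surjective (f := Abelianization.of) QuotientGroup.mk_surjective
    have hfgA' : AddGroup.FG (Additive (Abelianization (derivedSeries H m))) :=
      GroupFG.iff_add_fg.1 hfgA
    have hinfA : Infinite (Additive (Abelianization (derivedSeries H m))) := hab
    obtain ⟨f, hf⟩ := exists_hom_int (Additive (Abelianization (derivedSeries H m)))
    let φ : derivedSeries H m →* Multiplicative ℤ :=
      { toFun := fun x => Multiplicative.ofAdd (f (Additive.ofMul (Abelianization.of x)))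
        map_one' := by rw [map_one, ofMul_one, map_zero, ofAdd_zero]
        map_mul' := fun x y => by rw [map_mul, ofMul_mul, map_add, ofAdd_add] }
    have hφ : Function.Surjective φ := by
      intro z
      obtain ⟨v, hv⟩ := hf (Multiplicative.toAdd z)
      obtain ⟨x, hx⟩ : ∃ x, Additive.ofMul (Abelianization.of x) = v :=
        QuotientGroup.mk_surjective v
      refine ⟨x, ?_⟩
      change Multiplicative.ofAdd (f (Additive.ofMul (Abelianization.of x))) = z
      rw [hx, hv, ofAdd_toAdd]
    let ε : (derivedSeries H m) ≃* (derivedSeries H m).map H.subtype :=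
      (derivedSeries H m).equivMapOfInjective H.subtype H.subtype_injective
    refine ⟨(derivedSeries H m).map H.subtype, map_finiteIndex hH hP, fun n => ?_⟩
    exact quotients_of_hom (φ.comp ε.symm.toMonoidHom) (hφ.comp ε.symm.surjective) n

end

end Vale.Agent.P216.R2.H189
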