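import Vale.Agent.P216.R2.H189.RowA_helper109
import Vale.Agent.P216.R2.H189.RowC_helper54
import Vale.Agent.P216.R2.H189.RowEF_helper989
import Vale.Agent.P216.R2.H189.RowG_helper481
import Vale.Agent.P216.R2.H189.RowM_375

/-!
# P216: supports of the elements of a perfect finite residual (splitting and the core)
-/

set_option linter.all false

namespace Vale.Agent.P216.R2.H189.V2

/-- An element of infinite support splits. -/
theorem split {R T ι : Type*} [Group R] [Group T] [Finite T] [IsSimpleGroup T]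
    (hT : ∃ x y : T, x * y ≠ y * x)
    (hmin : ∀ f : R →* T, (∃ r, f r ≠ 1) → Function.Surjective f)
    (f : ι → R →* T) (hker : ∀ i j, (∀ r, f i r = 1 ↔ f j r = 1) → i = j) (a : R)
    (ha : {i | f i a ≠ 1}.Infinite) :
    ∃ u a' : R, (∃ i, f i u ≠ 1) ∧ {i | f i a' ≠ 1}.Infinite ∧ (∀ i, f i u ≠ 1 → f i a ≠ 1) ∧
      (∀ i, f i a' ≠ 1 → f i a ≠ 1) ∧ ∀ i, f i u ≠ 1 → f i a' = 1 := by
  classical
  obtain ⟨i₀, h₀⟩ := ha.nonempty
  obtain ⟨i₁, h₁, h01⟩ := (ha.diff (Set.finite_singleton i₀)).nonempty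
  have hsep : ∃ r, ¬ (f i₀ r = 1 ↔ f i₁ r = 1) := by
    by_contra h
    push Not at h
    exact h01 (hker _ _ h).symm
  obtain ⟨r, hr⟩ := hsep
  obtain ⟨B₀, hB₀⟩ := rowA hmin {a}
  set B : Finset R := insert a (insert r B₀) with hBdef
  have haB : a ∈ B := Finset.mem_insert_self _ _
  have hrB : r ∈ B := Finset.mem_insert_of_mem (Finset.mem_insert_self _ _)
  have hB : ∀ i, f i a = 1 ∨ ∀ x : T, ∃ b ∈ B, f i b = x := by
    intro i
    rcases hB₀ (f i) with h | h
    · exact Or.inl (h a (Finset.mem_singleton_self a))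
    · refine Or.inr fun x => ?_
      obtain ⟨b, hb, hbx⟩ := h x
      exact ⟨b, Finset.mem_insert_of_mem (Finset.mem_insert_of_mem hb), hbx⟩
  haveI : Infinite {i // f i a ≠ 1} := ha.to_subtype
  obtain ⟨c, hc⟩ := Finite.exists_infinite_fiber
    (fun (i : {i // f i a ≠ 1}) (b : (B : Set R)) => f i.1 b.1)
  have hc' := hc
  obtain ⟨⟨j₀, hj₀⟩⟩ := hc.nonempty
  have hclos : ∀ j, (∀ b : (B : Set R), f j b.1 = f j₀.1 b.1) →
      ∀ x ∈ Subgroup.closure (B : Set R), (f j x = 1 ↔ f j₀.1 x = 1) := by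
    intro j hj x hx
    have : f j x = f j₀.1 x := by
      induction hx using Subgroup.closure_induction with
      | mem x hx => exact hj ⟨x, hx⟩
      | one => rw [map_one, map_one]
      | mul x y _ _ hx hy => rw [map_mul, map_mul, hx, hy]
      | inv x _ hx => rw [map_inv, map_inv, hx]
    rw [this]
  obtain ⟨a', ha'⟩ := rowC hT f B a haB hB j₀.1 j₀.2
  have hex : ∃ j₁, f j₁ a ≠ 1 ∧ ¬ ∀ x ∈ Subgroup.closure (B : Set R), (f j₁ x = 1 ↔ f j₀.1 x = 1) := by
    by_contra h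
    push Not at h
    have e0 := h i₀ h₀ r (Subgroup.subset_closure hrB)
    have e1 := h i₁ h₁ r (Subgroup.subset_closure hrB)
    exact hr (e0.trans e1.symm)
  obtain ⟨j₁, hj₁, hne⟩ := hex
  obtain ⟨u, hu⟩ := rowC hT f B a haB hB j₁ hj₁
  refine ⟨u, a', ⟨j₁, (hu j₁).2 ⟨hj₁, fun _ _ => Iff.rfl⟩⟩, ?_, fun i hi => ((hu i).1 hi).1,
    fun i hi => ((ha' i).1 hi).1, ?_⟩
  · have hinf : (Subtype.val '' ((fun (i : {i // f i a ≠ 1}) (b : (B : Set R)) => f i.1 b.1) ⁻¹'
        {c})).Infinite :=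
      (Set.infinite_coe_iff.1 hc').image Subtype.val_injective.injOn
    refine hinf.mono ?_
    rintro _ ⟨i, hi, rfl⟩
    refine (ha' i.1).2 ⟨i.2, hclos i.1 fun b => ?_⟩
    have e1 := congrFun (show (fun (b : (B : Set R)) => f i.1 b.1) = c from hi) b
    have e2 := congrFun (show (fun (b : (B : Set R)) => f j₀.1 b.1) = c from hj₀) b
    exact e1.trans e2.symm
  · intro i hi
    by_contra hi'
    apply hne
    intro x hx
    exact (((hu i).1 hi).2 x hx).symm.trans (((ha' i).1 hi').2 x hx)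

/-- The core: infinitely many homomorphisms, permuted transitively by an infinite cyclic group,
have supports in infinitely many orbits. -/
theorem core {R T : Type*} [Group R] [Group T] [Finite T] [IsSimpleGroup T]
    (hT : ∃ x y : T, x * y ≠ y * x)
    (hmin : ∀ f : R →* T, (∃ r, f r ≠ 1) → Function.Surjective f)
    (σ : R ≃* R) (f : ℤ → R →* T) (hσ : ∀ i r, f i (σ r) = f (i + 1) r)
    (hker : ∀ i j, (∀ r, f i r = 1 ↔ f j r = 1) → i = j)
    (C : Set (Set ℤ)) (hC : C.Finite)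
    (hfin : ∀ r : R, ∃ S ∈ C, ∃ m : ℤ, ∀ i, f i r ≠ 1 ↔ i + m ∈ S)
    (a : R) (h0 : f 0 a ≠ 1) : False := by
  by_cases hex : ∃ w, {i | f i w ≠ 1}.Finite ∧ ∃ i, f i w ≠ 1
  · obtain ⟨w, hw, hne⟩ := hex
    exact rowF σ f hσ C hC hfin w hw hne
  have hinf : ∀ w, (∃ i, f i w ≠ 1) → {i | f i w ≠ 1}.Infinite := fun w hw hf =>
    hex ⟨w, hf, hw⟩
  choose! u a' hu ha' hua ha'a hd using fun w (hw : {i | f i w ≠ 1}.Infinite) =>
    split hT hmin f hker w hw
  let s : ℕ → R := fun n => Nat.rec a (fun _ w => a' w) n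
  have hs1 : ∀ n, s (n + 1) = a' (s n) := fun n => rfl
  have hs : ∀ n, {i | f i (s n) ≠ 1}.Infinite := by
    intro n
    induction n with
    | zero => exact hinf a ⟨0, h0⟩
    | succ n ih => rw [hs1]; exact ha' _ ih
  have hmono : ∀ n k i, f i (s (n + k)) ≠ 1 → f i (s n) ≠ 1 := by
    intro n k
    induction k with
    | zero => intro i hi; exact hi
    | succ k ih =>
      intro i hi
      exact ih i (ha'a _ (hs (n + k)) i hi)
  choose S hS m hm using hfin
  obtain ⟨n, n', hnn, heq⟩ : ∃ n n' : ℕ, n < n' ∧ S (s n) = S (s n') := by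
    haveI := hC.to_subtype
    obtain ⟨x, y, hxy, he⟩ := Finite.exists_ne_map_eq_of_infinite
      (fun n : ℕ => (⟨S (s n), hS (s n)⟩ : C))
    have he' : S (s x) = S (s y) := congrArg Subtype.val he
    rcases lt_or_gt_of_ne hxy with h | h
    · exact ⟨x, y, h, he'⟩
    · exact ⟨y, x, h, he'.symm⟩
  obtain ⟨k, rfl⟩ : ∃ k, n' = (n + 1) + k := ⟨n' - (n + 1), by omega⟩
  set d : ℤ := m (s (n + 1 + k)) - m (s n) with hd'
  have hV : ∀ i, f i (s (n + 1 + k)) ≠ 1 ↔ f (i + d) (s n) ≠ 1 := by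
    intro i
    rw [hm (s (n + 1 + k)) i, hm (s n) (i + d), heq]
    rw [show i + d + m (s n) = i + m (s (n + 1 + k)) by rw [hd']; ring]
  have hfinW := rowE {i | f i (s n) ≠ 1} d (by
    intro i hi
    have h1 : f i (s (n + 1 + k)) ≠ 1 := (hV i).2 hi
    have h2 : f i (s (n + (1 + k))) ≠ 1 := by rwa [← add_assoc]
    exact hmono n (1 + k) i h2)
  obtain ⟨j, hj⟩ := hu (s n) (hs n)
  refine hex ⟨u (s n), hfinW.subset ?_, j, hj⟩
  intro i hi
  refine ⟨hua _ (hs n) i hi, ?_⟩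
  intro hi2
  have h1 : f i (s (n + 1 + k)) ≠ 1 := (hV i).2 hi2
  have h2 : f i (s (n + 1)) ≠ 1 := hmono (n + 1) k i h1
  exact h2 (hd _ (hs n) i hi)

end Vale.Agent.P216.R2.H189.V2
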